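import Mathlib

open Set Filter Topology

namespace Vale.Agent.P171

/-- Near kink of `P` at `μ₀` with slopes `a`, `b` and error `δ`. -/
def NK (P : ℝ → ℝ) (a b δ μ₀ : ℝ) : Prop :=
  ∀ ν, P μ₀ + a * (ν - μ₀) - δ ≤ P ν ∧ P μ₀ + b * (ν - μ₀) - δ ≤ P ν

lemma lin_of_quad {x c h K : ℝ} (hK : 0 ≤ K) (hyp : ∀ t : ℝ, 0 < t → t ≤ 1 → c - K * t ≤ x) :
    c ≤ x := by
  by_contra hcon
  push_neg at hcon
  set t : ℝ := min 1 ((c - x) / (2 * (K + 1))) with ht
  have ht0 : 0 < t := lt_min one_pos (by apply div_pos <;> linarith)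
  have ht1 : t ≤ 1 := min_le_left _ _
  have ht2 : t ≤ (c - x) / (2 * (K + 1)) := min_le_right _ _
  rw [le_div_iff₀ (by positivity)] at ht2
  have := hyp t ht0 ht1
  nlinarith

/-- A parabola touching a convex function from below gives a supporting line. -/
lemma convex_line_of_below {f : ℝ → ℝ} (hf : ConvexOn ℝ univ f) {μ c K : ℝ} (hK : 0 ≤ K)
    (h : ∀ ν, f μ + c * (ν - μ) - K * (ν - μ) ^ 2 ≤ f ν) (ν : ℝ) : f μ + c * (ν - μ) ≤ f ν := by
  refine lin_of_quad (h := 0) (K := K * (ν - μ) ^ 2) (by positivity) fun t ht0 ht1 => ?_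
  have h1 := hf.2 (mem_univ μ) (mem_univ ν) (by linarith : 0 ≤ 1 - t) ht0.le (by ring)
  simp only [smul_eq_mul] at h1
  have h2 := h ((1 - t) * μ + t * ν)
  have e1 : (1 - t) * μ + t * ν - μ = t * (ν - μ) := by ring
  rw [e1] at h2
  have h3 : t * (f μ + c * (ν - μ) - K * (ν - μ) ^ 2 * t) ≤ t * f ν := by nlinarith
  exact le_of_mul_le_mul_left h3 ht0

/-- A parabola touching a convex function from above gives a supporting line. -/
lemma convex_line_of_above {f : ℝ → ℝ} (hf : ConvexOn ℝ univ f) {μ c K : ℝ} (hK : 0 ≤ K)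
    (h : ∀ ν, f ν ≤ f μ + c * (ν - μ) + K * (ν - μ) ^ 2) (ν : ℝ) : f μ + c * (ν - μ) ≤ f ν := by
  refine lin_of_quad (h := 0) (K := K * (ν - μ) ^ 2) (by positivity) fun t ht0 ht1 => ?_
  have ht : 0 < 1 + t := by linarith
  have h1 := hf.2 (mem_univ ν) (mem_univ (μ - t * (ν - μ))) (by positivity : 0 ≤ t / (1 + t))
    (by positivity : 0 ≤ 1 / (1 + t)) (by field_simp; ring)
  simp only [smul_eq_mul] at h1
  have e0 : t / (1 + t) * ν + 1 / (1 + t) * (μ - t * (ν - μ)) = μ := by
    field_simp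
    ring
  rw [e0] at h1
  have h2 := h (μ - t * (ν - μ))
  have h3 : (1 + t) * f μ ≤ t * f ν + f (μ - t * (ν - μ)) := by
    have := mul_le_mul_of_nonneg_left h1 ht.le
    have e2 : (1 + t) * (t / (1 + t) * f ν + 1 / (1 + t) * f (μ - t * (ν - μ)))
        = t * f ν + f (μ - t * (ν - μ)) := by
      field_simp
    rw [e2] at this
    exact this
  have h4 : t * (f μ + c * (ν - μ) - K * (ν - μ) ^ 2 * t) ≤ t * f ν := by nlinarith
  exact le_of_mul_le_mul_left h4 ht0

lemma exists_min_of_coercive {f : ℝ → ℝ} (hf : Continuous f) {A α : ℝ} (hα : 0 < α)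
    (h : ∀ x, A + α * |x| ≤ f x) : ∃ x, ∀ y, f x ≤ f y := by
  refine hf.exists_forall_le ?_
  refine tendsto_atTop_mono h ?_
  refine tendsto_atTop_add_const_left _ _ ?_
  exact (tendsto_norm_cocompact_atTop (E := ℝ)).const_mul_atTop hα

/-- **The kink lemma.** -/
lemma kink {P : ℝ → ℝ} (hP : ConvexOn ℝ univ P) (hP0 : ∀ ν, 0 ≤ P ν) {m J : ℝ} (hJ : 0 < J)
    (hm : 32 * J ≤ m) (hgr : ∀ ν, P ν ≤ 4 * ν ^ 2 / m + 1) {a b δ σ μ₀ : ℝ}
    (hNK : NK P a b δ μ₀) (hσ : 0 < σ) (hδ : 2 * δ < J * σ ^ 2) (hab : a + σ < b - σ) :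
    ∃ (Q : ℝ → ℝ) (μ' : ℝ), (∀ μ s, P (μ + s) - s ^ 2 / (2 * J) ≤ Q μ) ∧
      (∀ μ, ∃ s, Q μ = P (μ + s) - s ^ 2 / (2 * J)) ∧
      ∀ ν, Q μ' + (a + σ) * (ν - μ') ≤ Q ν ∧ Q μ' + (b - σ) * (ν - μ') ≤ Q ν := by
  have hm0 : 0 < m := by linarith
  have hPc : Continuous P := by
    rw [← continuousOn_univ]
    exact hP.continuousOn isOpen_univ
  -- maximisers
  have hmax : ∀ μ, ∃ s, ∀ s', P (μ + s') - s' ^ 2 / (2 * J) ≤ P (μ + s) - s ^ 2 / (2 * J) := by
    intro μ
    have hc : Continuous fun s => -(P (μ + s) - s ^ 2 / (2 * J)) := by fun_prop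
    obtain ⟨s, hs⟩ := exists_min_of_coercive (f := fun s => -(P (μ + s) - s ^ 2 / (2 * J))) hc
      (A := -(J + (8 * μ ^ 2 / m + 1))) (α := 1) one_pos (by
        intro s
        have h1 := hgr (μ + s)
        have h2 : 4 * (μ + s) ^ 2 / m ≤ 8 * μ ^ 2 / m + 8 * s ^ 2 / m := by
          rw [← add_div]
          refine div_le_div_of_nonneg_right ?_ hm0.le
          nlinarith [sq_nonneg (μ - s)]
        have h3 : 8 * s ^ 2 / m ≤ s ^ 2 / (4 * J) := by
          rw [div_le_div_iff₀ hm0 (by positivity)]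
          nlinarith [sq_nonneg s]
        have h4 : |s| ≤ s ^ 2 / (4 * J) + J := by
          have : s ^ 2 / (4 * J) + J - |s| = (|s| - 2 * J) ^ 2 / (4 * J) := by
            have hs2 : s ^ 2 = |s| ^ 2 := (sq_abs s).symm
            rw [hs2]
            field_simp
            ring
          have h5 : 0 ≤ (|s| - 2 * J) ^ 2 / (4 * J) := by positivity
          linarith
        have h5 : s ^ 2 / (2 * J) = s ^ 2 / (4 * J) + s ^ 2 / (4 * J) := by
          field_simp; ring
        rw [h5]
        linarith)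
    refine ⟨s, fun s' => ?_⟩
    have := hs s'
    linarith
  choose S hS using hmax
  set Q : ℝ → ℝ := fun μ => P (μ + S μ) - S μ ^ 2 / (2 * J) with hQ
  have hQ1 : ∀ μ s, P (μ + s) - s ^ 2 / (2 * J) ≤ Q μ := fun μ s => hS μ s
  have hQP : ∀ μ, P μ ≤ Q μ := by
    intro μ
    have := hQ1 μ 0
    simpa using this
  have hQconv : ConvexOn ℝ univ Q := by
    refine ⟨convex_univ, fun μ₁ _ μ₂ _ x y hx hy hxy => ?_⟩
    simp only [smul_eq_mul]
    set s := S (x * μ₁ + y * μ₂) with hs
    have h1 : Q (x * μ₁ + y * μ₂) = P (x * (μ₁ + s) + y * (μ₂ + s)) - s ^ 2 / (2 * J) := by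
      simp only [hQ, ← hs]
      congr 2
      have : x * (μ₁ + s) + y * (μ₂ + s) = x * μ₁ + y * μ₂ + (x + y) * s := by ring
      rw [this, hxy, one_mul]
    have h2 := hP.2 (mem_univ (μ₁ + s)) (mem_univ (μ₂ + s)) hx hy hxy
    simp only [smul_eq_mul] at h2
    have h3 := mul_le_mul_of_nonneg_left (hQ1 μ₁ s) hx
    have h4 := mul_le_mul_of_nonneg_left (hQ1 μ₂ s) hy
    rw [h1]
    have h5 : s ^ 2 / (2 * J) = x * (s ^ 2 / (2 * J)) + y * (s ^ 2 / (2 * J)) := by
      rw [← add_mul, hxy, one_mul]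
    linarith
  have hQc : Continuous Q := by
    rw [← continuousOn_univ]
    exact hQconv.continuousOn isOpen_univ
  -- supporting slope at `μ`
  have hslope : ∀ μ ν, Q μ + S μ / J * (ν - μ) ≤ Q ν := by
    intro μ
    refine convex_line_of_below hQconv (K := 1 / (2 * J)) (by positivity) fun ν => ?_
    have h1 := hQ1 ν (μ + S μ - ν)
    have h2 : ν + (μ + S μ - ν) = μ + S μ := by ring
    rw [h2] at h1
    have h3 : Q μ = P (μ + S μ) - S μ ^ 2 / (2 * J) := rfl
    have h4 : Q μ + S μ / J * (ν - μ) - 1 / (2 * J) * (ν - μ) ^ 2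
        = P (μ + S μ) - (μ + S μ - ν) ^ 2 / (2 * J) := by
      rw [h3]
      field_simp
      ring
    rw [h4]
    exact h1
  -- the slope is never in the gap
  have hgap : ∀ μ, ¬ (a + σ < S μ / J ∧ S μ / J < b - σ) := by
    rintro μ ⟨hc1, hc2⟩
    set c := S μ / J with hc
    set νs := μ + S μ with hνs
    have hSc : S μ = J * c := by rw [hc]; field_simp
    have habove : ∀ ν, P ν ≤ P νs + c * (ν - νs) + 1 / (2 * J) * (ν - νs) ^ 2 := by
      intro ν
      have h1 := hS μ (ν - μ)
      have h2 : μ + (ν - μ) = ν := by ring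
      rw [h2] at h1
      have h3 : P νs + c * (ν - νs) + 1 / (2 * J) * (ν - νs) ^ 2
          = P νs - S μ ^ 2 / (2 * J) + (ν - μ) ^ 2 / (2 * J) := by
        have : ν - νs = ν - μ - J * c := by rw [hνs, hSc]; ring
        rw [this, hSc]
        field_simp
        ring
      rw [h3]
      linarith
    have hline := convex_line_of_above hP (K := 1 / (2 * J)) (by positivity) habove
    have h0 := hline μ₀
    rcases le_total μ₀ νs with hcase | hcase
    · set d := b - c with hd
      have hdσ : σ < d := by rw [hd]; linarith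
      have h1 := (hNK (νs + J * d)).2
      have h2 := habove (νs + J * d)
      have e1 : νs + J * d - νs = J * d := by ring
      rw [e1] at h2
      have e2 : 1 / (2 * J) * (J * d) ^ 2 = J * d ^ 2 / 2 := by field_simp
      rw [e2] at h2
      have h3 : J * σ ^ 2 ≤ J * d ^ 2 := by
        refine mul_le_mul_of_nonneg_left ?_ hJ.le
        exact pow_le_pow_left₀ hσ.le hdσ.le 2
      have h4 : 0 ≤ d * (νs - μ₀) := mul_nonneg (by linarith) (by linarith)
      have hb : b = c + d := by rw [hd]; ring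
      rw [hb] at h1
      nlinarith
    · set d := c - a with hd
      have hdσ : σ < d := by rw [hd]; linarith
      have h1 := (hNK (νs - J * d)).1
      have h2 := habove (νs - J * d)
      have e1 : νs - J * d - νs = -(J * d) := by ring
      rw [e1] at h2
      have e2 : 1 / (2 * J) * (-(J * d)) ^ 2 = J * d ^ 2 / 2 := by field_simp
      rw [e2] at h2
      have h3 : J * σ ^ 2 ≤ J * d ^ 2 := by
        refine mul_le_mul_of_nonneg_left ?_ hJ.le
        exact pow_le_pow_left₀ hσ.le hdσ.le 2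
      have h4 : 0 ≤ d * (μ₀ - νs) := mul_nonneg (by linarith) (by linarith)
      have ha : a = c - d := by rw [hd]; ring
      rw [ha] at h1
      nlinarith
  -- minimiser of `Q - c μ` with the middle slope
  set c := (a + b) / 2 with hc
  have hca : a < c := by rw [hc]; linarith
  have hcb : c < b := by rw [hc]; linarith
  obtain ⟨μ', hμ'⟩ := exists_min_of_coercive (f := fun μ => Q μ - c * μ) (by fun_prop)
    (A := P μ₀ - δ - (|a| + |b|) * |μ₀|) (α := (b - a) / 2) (by linarith) (by
      intro μ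
      have h1 := (hNK μ).1
      have h2 := (hNK μ).2
      have h3 := hQP μ
      have e1 : a * μ₀ ≤ (|a| + |b|) * |μ₀| := by
        calc a * μ₀ ≤ |a * μ₀| := le_abs_self _
          _ = |a| * |μ₀| := abs_mul _ _
          _ ≤ _ := mul_le_mul_of_nonneg_right (by linarith [abs_nonneg b]) (abs_nonneg _)
      have e2 : b * μ₀ ≤ (|a| + |b|) * |μ₀| := by
        calc b * μ₀ ≤ |b * μ₀| := le_abs_self _
          _ = |b| * |μ₀| := abs_mul _ _
          _ ≤ _ := mul_le_mul_of_nonneg_right (by linarith [abs_nonneg a]) (abs_nonneg _)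
      rcases le_total 0 μ with hμ | hμ
      · rw [abs_of_nonneg hμ, hc]
        nlinarith
      · rw [abs_of_nonpos hμ, hc]
        nlinarith)
  have hmid : ∀ ν, Q μ' + c * (ν - μ') ≤ Q ν := by
    intro ν
    have := hμ' ν
    linarith
  refine ⟨Q, μ', hQ1, fun μ => ⟨S μ, rfl⟩, fun ν => ⟨?_, ?_⟩⟩
  · rcases lt_or_ge ν μ' with hν | hν
    · have hall : ∀ t ∈ Ioo ν μ', Q t + (a + σ) * (ν - t) ≤ Q ν := by
        intro t ht
        have h1 := hslope t ν
        have h2 := hslope t μ'
        have h3 := hmid t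
        have h4 : S t / J ≤ c := by
          by_contra hcon
          push_neg at hcon
          nlinarith [ht.2]
        have h5 : S t / J ≤ a + σ := by
          by_contra hcon
          push_neg at hcon
          exact hgap t ⟨hcon, by linarith⟩
        nlinarith [ht.1]
      have hcont : ContinuousWithinAt (fun t => Q t + (a + σ) * (ν - t)) (Iio μ') μ' :=
        (by fun_prop : Continuous fun t => Q t + (a + σ) * (ν - t)).continuousWithinAt
      refine le_of_tendsto hcont ?_
      filter_upwards [Ioo_mem_nhdsLT hν] with t ht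
      exact hall t ht
    · have h1 := hmid ν
      nlinarith
  · rcases lt_or_ge μ' ν with hν | hν
    · have hall : ∀ t ∈ Ioo μ' ν, Q t + (b - σ) * (ν - t) ≤ Q ν := by
        intro t ht
        have h1 := hslope t ν
        have h2 := hslope t μ'
        have h3 := hmid t
        have h4 : c ≤ S t / J := by
          by_contra hcon
          push_neg at hcon
          nlinarith [ht.1]
        have h5 : b - σ ≤ S t / J := by
          by_contra hcon
          push_neg at hcon
          exact hgap t ⟨by linarith, hcon⟩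
        nlinarith [ht.2]
      have hcont : ContinuousWithinAt (fun t => Q t + (b - σ) * (ν - t)) (Ioi μ') μ' :=
        (by fun_prop : Continuous fun t => Q t + (b - σ) * (ν - t)).continuousWithinAt
      refine le_of_tendsto hcont ?_
      filter_upwards [Ioo_mem_nhdsGT hν] with t ht
      exact hall t ht
    · have h1 := hmid ν
      nlinarith

end Vale.Agent.P171
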