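import Vale.Agent.P171.LPUpper
import Vale.Agent.P171.Kink

open MeasureTheory Set Filter Topology
open scoped ENNReal BigOperators

namespace Vale.Agent.P171

/-- The base repulsion `A · 1[|x - y| < 1]`. -/
noncomputable def rep (A : ℝ) (x y : E) : ℝ := if dist x y < 1 then A else 0

lemma rep_self (A : ℝ) (x : E) : rep A x x = A := by simp [rep]

lemma rep_nonneg {A : ℝ} (hA : 0 ≤ A) (x y : E) : 0 ≤ rep A x y := by
  unfold rep; split_ifs <;> simp [hA]

lemma adm_rep {A : ℝ} (hA : 0 < A) : Adm (rep A) A where
  meas := by
    unfold rep Function.uncurry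
    refine Measurable.ite ?_ measurable_const measurable_const
    exact measurableSet_lt (f := fun p : E × E => dist p.1 p.2) (by fun_prop) measurable_const
  trans := by
    intro a x y
    unfold rep
    rw [dist_add_right]
  nonpos := by
    intro x y h
    unfold rep
    rw [if_neg (not_lt.mpr h)]
  mpos := hA
  stab := by
    intro n x
    unfold en
    rw [Finset.mul_sum]
    refine Finset.sum_le_sum fun i _ => ?_
    rw [Finset.mul_sum]
    refine Finset.sum_le_sum fun j _ => ?_
    unfold cc rep
    by_cases hc : cell (1 / 2) 0 (x i) = cell (1 / 2) 0 (x j)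
    · have hd := dist_of_cell (by norm_num) hc
      have hd1 : dist (x i) (x j) < 1 := by linarith
      rw [if_pos hc, if_pos hd1, mul_one]
    · rw [if_neg hc, mul_zero]
      split_ifs
      · exact hA.le
      · exact le_rfl

lemma finRange_rep {A : ℝ} (hA : 0 ≤ A) : FinRange (rep A) (fun _ _ => 0) 0 0 where
  nonneg := fun _ _ => le_rfl
  le := fun x y => by simpa using rep_nonneg hA x y
  range := fun _ _ _ => rfl
  bound := fun n x => by simp [en]

lemma FinRange.subK {V a : E → E → ℝ} {r C J R : ℝ} (h : FinRange V a r C) (hJ : 0 ≤ J)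
    (hR : 1 ≤ R) : FinRange (subK V J R) (fun x y => a x y + J * KR R x y) (max r (2 * R))
      (C + 64 * J) where
  nonneg := fun x y => add_nonneg (h.nonneg x y) (mul_nonneg hJ (KR_nonneg R x y))
  le := fun x y => by
    have := h.le x y
    simp only [Vale.Agent.P171.subK]
    linarith
  range := fun x y hd => by
    rw [h.range x y ((le_max_left _ _).trans hd), KR_zero_of_dist ((le_max_right _ _).trans hd)]
    simp
  bound := fun n x => by
    have h1 := h.bound n x
    have h2 := mul_le_mul_of_nonneg_left (en_KR_le64 hR x) hJ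
    have h3 : en (fun x y => a x y + J * KR R x y) x = en a x + J * en (KR R) x := by
      simp only [en, Finset.sum_add_distrib, Finset.mul_sum]
    rw [h3]
    linarith

/-- The base system has a near kink. -/
lemma base_NK {A : ℝ} (hA : 0 < A) : NK (Pr (rep A)) 0 (1 / 8) 1 (A / 2) := by
  have hV := adm_rep hA
  have h1 : Pr (rep A) (A / 2) ≤ 1 := by
    refine csSup_le (ratio_nonempty _ _) ?_
    rintro _ ⟨l, hl, rfl⟩
    rw [mem_Ioi] at hl
    have hlg : lg (rep A) (A / 2) l ≤ l ^ 3 := by
      refine hV.lg_le_of hl.le ?_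
      have h2 : Xi (rep A) (A / 2) (box l) ≤ Xi (fun _ _ => (0 : ℝ)) 0 (box l) := by
        refine Xi_mono (measurableSet_box l) fun n x _ => ?_
        have h3 : (n : ℝ) * A ≤ en (rep A) x := by
          unfold en
          calc (n : ℝ) * A = ∑ i : Fin n, rep A (x i) (x i) := by simp [rep_self]
            _ ≤ _ := Finset.sum_le_sum fun i _ =>
              Finset.single_le_sum (f := fun j => rep A (x i) (x j))
                (fun j _ => rep_nonneg hA.le _ _) (Finset.mem_univ i)
        have h4 : en (fun _ _ => (0 : ℝ)) x = 0 := by simp [en]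
        rw [h4]
        linarith
      have h5 := Xi_ideal (X := E) 0 (Λ := box l) (v := l ^ 3) (by positivity) (vol_box hl.le).le
      rw [Real.exp_zero, one_mul] at h5
      exact h2.trans h5
    simp only
    rw [div_le_one (by positivity)]
    exact hlg.trans (pow_le_pow_left₀ hl.le (by linarith) 3)
  intro ν
  constructor
  · have := hV.Pr_nonneg ν
    linarith
  · have h2 : ν - A / 2 ≤ lg (rep A) ν 1 := by
      refine hV.le_lg_of zero_le_one ?_
      have h3 := ENNReal.le_tsum
        (f := fun n : ℕ => ((n.factorial : ℕ) : ℝ≥0∞)⁻¹ * In (rep A) ν (box 1) (Fin n)) 1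
      refine le_trans ?_ h3
      have h4 : In (rep A) ν (box 1) (Fin 1) = ENNReal.ofReal (Real.exp (ν - A / 2)) := by
        unfold In
        have : ∀ x : Fin 1 → E, wt (rep A) ν x = ENNReal.ofReal (Real.exp (ν - A / 2)) := by
          intro x
          rw [wt_eq_fin]
          simp [en, rep_self]
        simp only [this]
        rw [setLIntegral_const, volume_pi_pi]
        simp [vol_box zero_le_one]
      rw [h4]
      simp
    have h3 := hV.ratio_le_Pr ν (l := 1) one_pos
    have h4 : lg (rep A) ν 1 / (1 + 1) ^ 3 = lg (rep A) ν 1 / 8 := by norm_num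
    rw [h4] at h3
    linarith

end Vale.Agent.P171
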