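import Vale.Agent.P171.Union

open MeasureTheory Set
open scoped ENNReal BigOperators

namespace Vale.Agent.P171

section Gas
variable {X : Type*} [MeasureSpace X] [SigmaFinite (volume : Measure X)]

lemma In_zero (V : X → X → ℝ) (μ : ℝ) (Λ : Set X) : In V μ Λ (Fin 0) = 1 := by
  unfold In
  have h1 : ∀ x : Fin 0 → X, wt V μ x = 1 := by
    intro x
    rw [wt_eq_fin]
    simp [en]
  simp only [h1]
  have h2 : (Set.univ.pi fun _ : Fin 0 => Λ) = Set.univ := by
    ext x; simp
  rw [h2, Measure.restrict_univ, lintegral_const, one_mul, volume_pi, Measure.pi_of_empty]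
  simp

lemma one_le_Xi (V : X → X → ℝ) (μ : ℝ) (Λ : Set X) : 1 ≤ Xi V μ Λ := by
  have h := ENNReal.le_tsum (f := fun n : ℕ => ((n.factorial : ℕ) : ℝ≥0∞)⁻¹ * In V μ Λ (Fin n)) 0
  simp only [In_zero, Nat.factorial_zero, Nat.cast_one, inv_one, mul_one] at h
  exact h

lemma Xi_empty (V : X → X → ℝ) (μ : ℝ) : Xi V μ (∅ : Set X) = 1 := by
  unfold Xi
  rw [tsum_eq_single 0]
  · simp [In_zero]
  · intro n hn
    have : (Set.univ.pi fun _ : Fin n => (∅ : Set X)) = ∅ := by
      rw [Set.univ_pi_eq_empty_iff]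
      exact ⟨⟨0, Nat.pos_of_ne_zero hn⟩, rfl⟩
    unfold In
    rw [this]
    simp

/-- Factorisation over finitely many disjoint non interacting regions. -/
lemma Xi_biUnion {I : Type*} (V : X → X → ℝ)
    (hV : Measurable (Function.uncurry V)) (μ : ℝ) (s : Finset I) (B : I → Set X)
    (hB : ∀ v, MeasurableSet (B v)) (hd : ∀ v w, v ≠ w → Disjoint (B v) (B w))
    (hcross : ∀ v w, v ≠ w → ∀ x ∈ B v, ∀ y ∈ B w, V x y = 0) :
    Xi V μ (⋃ v ∈ s, B v) = ∏ v ∈ s, Xi V μ (B v) := by
  classical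
  induction s using Finset.induction_on with
  | empty => simp [Xi_empty]
  | insert a s ha ih =>
    rw [Finset.set_biUnion_insert, Finset.prod_insert ha, ← ih]
    have hne : ∀ w ∈ s, w ≠ a := fun w hw h => ha (h ▸ hw)
    refine Xi_union V hV μ (hB a) (Finset.measurableSet_biUnion s fun w _ => hB w) ?_ ?_
    · rw [Set.disjoint_iUnion₂_right]
      intro w hw
      exact hd a w (hne w hw).symm
    · intro x hx y hy
      simp only [mem_iUnion] at hy
      obtain ⟨w, hw, hyw⟩ := hy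
      exact ⟨hcross a w (hne w hw).symm x hx y hyw, hcross w a (hne w hw) y hyw x hx⟩

/-- Bound by the ideal gas. -/
lemma Xi_ideal (μ : ℝ) {Λ : Set X} {v : ℝ} (hv : 0 ≤ v)
    (hvol : volume Λ ≤ ENNReal.ofReal v) :
    Xi (fun _ _ => (0 : ℝ)) μ Λ ≤ ENNReal.ofReal (Real.exp (Real.exp μ * v)) := by
  have hterm : ∀ n : ℕ, ((n.factorial : ℕ) : ℝ≥0∞)⁻¹ * In (fun _ _ => (0 : ℝ)) μ Λ (Fin n)
      ≤ ENNReal.ofReal ((Real.exp μ * v) ^ n / n.factorial) := by
    intro n
    have h1 : In (fun _ _ => (0 : ℝ)) μ Λ (Fin n)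
        = ENNReal.ofReal (Real.exp μ ^ n) * volume Λ ^ n := by
      unfold In
      have : ∀ x : Fin n → X, wt (fun _ _ => (0 : ℝ)) μ x = ENNReal.ofReal (Real.exp μ ^ n) := by
        intro x
        rw [wt_eq_fin]
        simp only [en, Finset.sum_const_zero, zero_div, sub_zero]
        rw [← Real.exp_nat_mul, mul_comm]
      simp only [this]
      rw [setLIntegral_const, volume_pi_pi]
      simp
    rw [h1, div_eq_inv_mul, ENNReal.ofReal_mul (by positivity), mul_pow, ENNReal.ofReal_mul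
      (by positivity), ENNReal.ofReal_inv_of_pos (by positivity), ENNReal.ofReal_natCast]
    refine mul_le_mul_right (mul_le_mul_right ?_ _) _
    rw [ENNReal.ofReal_pow hv]
    exact pow_le_pow_left' hvol n
  unfold Xi
  refine ENNReal.tsum_le_of_sum_range_le fun N => ?_
  calc ∑ n ∈ Finset.range N, ((n.factorial : ℕ) : ℝ≥0∞)⁻¹ * In (fun _ _ => (0 : ℝ)) μ Λ (Fin n)
      ≤ ∑ n ∈ Finset.range N, ENNReal.ofReal ((Real.exp μ * v) ^ n / n.factorial) :=
        Finset.sum_le_sum fun n _ => hterm n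
    _ = ENNReal.ofReal (∑ n ∈ Finset.range N, (Real.exp μ * v) ^ n / n.factorial) := by
        rw [ENNReal.ofReal_sum_of_nonneg]
        intro n _
        positivity
    _ ≤ _ := ENNReal.ofReal_le_ofReal (Real.sum_le_exp_of_nonneg (by positivity) N)

/-- Translation invariance. -/
lemma Xi_preimage {V : X → X → ℝ} (T : X → X)
    (hT : MeasurePreserving T volume volume)
    (hVT : ∀ x y, V (T x) (T y) = V x y) (hV : Measurable (Function.uncurry V)) (μ : ℝ) {Λ : Set X}
    (hΛ : MeasurableSet Λ) : Xi V μ (T ⁻¹' Λ) = Xi V μ Λ := by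
  unfold Xi
  refine tsum_congr fun n => ?_
  congr 1
  unfold In
  have hmp : MeasurePreserving (fun (x : Fin n → X) i => T (x i)) volume volume :=
    volume_preserving_pi fun _ => hT
  rw [← hmp.setLIntegral_comp_preimage (MeasurableSet.univ_pi fun _ => hΛ) (measurable_wt hV μ)]
  have : (fun (x : Fin n → X) i => T (x i)) ⁻¹' (Set.univ.pi fun _ => Λ)
      = Set.univ.pi fun _ => T ⁻¹' Λ := by
    ext x; simp
  rw [this]
  refine lintegral_congr fun x => ?_
  simp only [wt, en, hVT]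

end Gas

end Vale.Agent.P171
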