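import Vale.Agent.P171.Basic

open MeasureTheory Set
open scoped ENNReal BigOperators

namespace Vale.Agent.P171

abbrev E := EuclideanSpace ℝ (Fin 3)

/-- The grid cell of side `h` with offset `o` containing `x`. -/
noncomputable def cell (h o : ℝ) (x : E) : Fin 3 → ℤ := fun i => ⌊(x i - o) / h⌋

/-- Indicator of being in the same cell. -/
noncomputable def cc (h o : ℝ) (x y : E) : ℝ := if cell h o x = cell h o y then 1 else 0

/-- The cube `[0, L]³`. -/
def box (L : ℝ) : Set E := {x | ∀ i, x i ∈ Icc 0 L}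

lemma cc_nonneg (h o : ℝ) (x y : E) : 0 ≤ cc h o x y := by
  unfold cc; split_ifs <;> norm_num

lemma cc_self (h o : ℝ) (x : E) : cc h o x x = 1 := by simp [cc]

lemma measurable_coord (i : Fin 3) : Measurable (fun x : E => x i) := by
  fun_prop

lemma measurable_cell (h o : ℝ) : Measurable (cell h o) := by
  unfold cell
  refine measurable_pi_lambda _ fun i => ?_
  exact Int.measurable_floor.comp (((measurable_coord i).sub_const o).div_const h)

lemma measurableSet_cell (h o : ℝ) (v : Fin 3 → ℤ) : MeasurableSet {x : E | cell h o x = v} :=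
  measurable_cell h o (measurableSet_singleton v)

lemma measurable_cc (h o : ℝ) : Measurable (Function.uncurry (cc h o)) := by
  unfold cc Function.uncurry
  refine Measurable.ite ?_ measurable_const measurable_const
  exact measurableSet_eq_fun ((measurable_cell h o).comp measurable_fst)
    ((measurable_cell h o).comp measurable_snd)

lemma vol_Icc (a : Fin 3 → ℝ) {L : ℝ} (hL : 0 ≤ L) :
    volume {x : E | ∀ i, x i ∈ Icc (a i) (a i + L)} = ENNReal.ofReal (L ^ 3) := by
  have h := (PiLp.volume_preserving_ofLp (Fin 3)).measure_preimage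
    (s := Set.univ.pi fun i => Icc (a i) (a i + L))
    (MeasurableSet.univ_pi fun _ => measurableSet_Icc).nullMeasurableSet
  have hs : {x : E | ∀ i, x i ∈ Icc (a i) (a i + L)}
      = (WithLp.ofLp : E → (Fin 3 → ℝ)) ⁻¹' (Set.univ.pi fun i => Icc (a i) (a i + L)) := by
    ext x; simp only [mem_setOf_eq, mem_preimage, mem_univ_pi]
  rw [hs, h, volume_pi_pi]
  simp only [Real.volume_Icc, add_sub_cancel_left, Finset.prod_const, Finset.card_univ,
    Fintype.card_fin]
  rw [ENNReal.ofReal_pow hL]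

lemma vol_Ico (a : Fin 3 → ℝ) {L : ℝ} (hL : 0 ≤ L) :
    volume {x : E | ∀ i, x i ∈ Ico (a i) (a i + L)} = ENNReal.ofReal (L ^ 3) := by
  have h := (PiLp.volume_preserving_ofLp (Fin 3)).measure_preimage
    (s := Set.univ.pi fun i => Ico (a i) (a i + L))
    (MeasurableSet.univ_pi fun _ => measurableSet_Ico).nullMeasurableSet
  have hs : {x : E | ∀ i, x i ∈ Ico (a i) (a i + L)}
      = (WithLp.ofLp : E → (Fin 3 → ℝ)) ⁻¹' (Set.univ.pi fun i => Ico (a i) (a i + L)) := by
    ext x; simp only [mem_setOf_eq, mem_preimage, mem_univ_pi]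
  rw [hs, h, volume_pi_pi]
  simp only [Real.volume_Ico, add_sub_cancel_left, Finset.prod_const, Finset.card_univ,
    Fintype.card_fin]
  rw [ENNReal.ofReal_pow hL]

lemma measurableSet_rect (a : Fin 3 → ℝ) (L : ℝ) :
    MeasurableSet {x : E | ∀ i, x i ∈ Icc (a i) (a i + L)} := by
  rw [setOf_forall]
  exact MeasurableSet.iInter fun i => measurable_coord i measurableSet_Icc

lemma measurableSet_box (L : ℝ) : MeasurableSet (box L) := by
  unfold box
  rw [setOf_forall]
  exact MeasurableSet.iInter fun i => measurable_coord i measurableSet_Icc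

lemma vol_box {L : ℝ} (hL : 0 ≤ L) : volume (box L) = ENNReal.ofReal (L ^ 3) := by
  have := vol_Icc (fun _ => 0) hL
  simpa [box] using this

lemma cell_eq_iff {h : ℝ} (hh : 0 < h) (o : ℝ) (x : E) (v : Fin 3 → ℤ) :
    cell h o x = v ↔ ∀ i, x i ∈ Ico (o + h * v i) (o + h * v i + h) := by
  unfold cell
  rw [funext_iff]
  refine forall_congr' fun i => ?_
  rw [Int.floor_eq_iff, mem_Ico, le_div_iff₀ hh, div_lt_iff₀ hh]
  constructor
  · rintro ⟨h1, h2⟩; constructor <;> nlinarith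
  · rintro ⟨h1, h2⟩; constructor <;> nlinarith

lemma vol_cell {h : ℝ} (hh : 0 < h) (o : ℝ) (v : Fin 3 → ℤ) :
    volume {x : E | cell h o x = v} = ENNReal.ofReal (h ^ 3) := by
  have : {x : E | cell h o x = v}
      = {x : E | ∀ i, x i ∈ Ico ((fun i => o + h * v i) i) ((fun i => o + h * v i) i + h)} := by
    ext x
    exact cell_eq_iff hh o x v
  rw [this]
  exact vol_Ico _ hh.le

/-- Number of cells inside a region. -/
lemma card_cells_le {h : ℝ} (hh : 0 < h) (o : ℝ) (s : Finset (Fin 3 → ℤ)) (D : Set E) {d : ℝ}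
    (hd : 0 ≤ d) (hD : volume D ≤ ENNReal.ofReal d)
    (hs : ∀ v ∈ s, {x : E | cell h o x = v} ⊆ D) : (s.card : ℝ) * h ^ 3 ≤ d := by
  have hdisj : (↑s : Set (Fin 3 → ℤ)).PairwiseDisjoint (fun v => {x : E | cell h o x = v}) := by
    intro v _ w _ hne
    rw [Function.onFun, Set.disjoint_left]
    intro x hx hx'
    exact hne (hx.symm.trans hx')
  have h1 : volume (⋃ v ∈ s, {x : E | cell h o x = v}) ≤ volume D :=
    measure_mono (iUnion₂_subset hs)
  rw [measure_biUnion_finset hdisj (fun v _ => measurableSet_cell h o v)] at h1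
  simp only [vol_cell hh, Finset.sum_const, nsmul_eq_mul] at h1
  have h2 := h1.trans hD
  rw [← ENNReal.ofReal_natCast, ← ENNReal.ofReal_mul (Nat.cast_nonneg _)] at h2
  exact (ENNReal.ofReal_le_ofReal_iff hd).mp h2

lemma dist_le_of_coord {x y : E} {h : ℝ} (hh : 0 ≤ h) (hxy : ∀ i, |x i - y i| ≤ h) :
    dist x y ≤ 2 * h := by
  rw [EuclideanSpace.dist_eq]
  refine Real.sqrt_le_iff.mpr ⟨by positivity, ?_⟩
  have : ∀ i ∈ (Finset.univ : Finset (Fin 3)), dist (x i) (y i) ^ 2 ≤ h ^ 2 := by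
    intro i _
    rw [Real.dist_eq]
    exact pow_le_pow_left₀ (abs_nonneg _) (hxy i) 2
  have h2 := Finset.sum_le_sum this
  simp only [Finset.sum_const, Finset.card_univ, Fintype.card_fin, nsmul_eq_mul] at h2
  push_cast at h2
  nlinarith [sq_nonneg h]

lemma dist_lt_of_coord {x y : E} {h : ℝ} (hh : 0 < h) (hxy : ∀ i, |x i - y i| ≤ h) :
    dist x y < 2 * h := by
  rw [EuclideanSpace.dist_eq]
  refine (Real.sqrt_lt' (by positivity)).mpr ?_
  have : ∀ i ∈ (Finset.univ : Finset (Fin 3)), dist (x i) (y i) ^ 2 ≤ h ^ 2 := by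
    intro i _
    rw [Real.dist_eq]
    exact pow_le_pow_left₀ (abs_nonneg _) (hxy i) 2
  have h2 := Finset.sum_le_sum this
  simp only [Finset.sum_const, Finset.card_univ, Fintype.card_fin, nsmul_eq_mul] at h2
  push_cast at h2
  have : 0 < h ^ 2 := by positivity
  nlinarith

lemma coord_of_cell {h : ℝ} (hh : 0 < h) {o : ℝ} {x y : E} (hxy : cell h o x = cell h o y)
    (i : Fin 3) : |x i - y i| ≤ h := by
  have hx := (cell_eq_iff hh o x _).mp rfl i
  have hy := (cell_eq_iff hh o y _).mp hxy.symm i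
  rw [mem_Ico] at hx hy
  rw [abs_le]
  constructor <;> linarith [hx.1, hx.2, hy.1, hy.2]

lemma dist_of_cell {h : ℝ} (hh : 0 < h) {o : ℝ} {x y : E} (hxy : cell h o x = cell h o y) :
    dist x y < 2 * h :=
  dist_lt_of_coord hh (coord_of_cell hh hxy)

/-- Cauchy-Schwarz over cells. -/
lemma card_sq_le {ι : Type*} (h o : ℝ) (T : Finset ι) (x : ι → E) :
    (T.card : ℝ) ^ 2 ≤ ((T.image fun i => cell h o (x i)).card : ℝ)
      * ∑ i ∈ T, ∑ j ∈ T, cc h o (x i) (x j) := by
  classical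
  set s := T.image fun i => cell h o (x i) with hs
  set N : (Fin 3 → ℤ) → ℝ := fun v => ((T.filter fun i => cell h o (x i) = v).card : ℝ) with hN
  have hmaps : ∀ i ∈ T, cell h o (x i) ∈ s := fun i hi =>
    Finset.mem_image_of_mem (fun i => cell h o (x i)) hi
  have h1 : (T.card : ℝ) = ∑ v ∈ s, N v := by
    simp only [hN]
    rw [← Nat.cast_sum, ← Finset.card_eq_sum_card_fiberwise hmaps]
  have h2 : ∑ i ∈ T, ∑ j ∈ T, cc h o (x i) (x j) = ∑ v ∈ s, N v ^ 2 := by
    have hin : ∀ i ∈ T, ∑ j ∈ T, cc h o (x i) (x j) = N (cell h o (x i)) := by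
      intro i _
      simp only [cc, hN]
      rw [Finset.card_filter]
      push_cast
      refine Finset.sum_congr rfl fun j _ => ?_
      simp only [eq_comm]
    rw [Finset.sum_congr rfl hin, ← Finset.sum_fiberwise_of_maps_to hmaps]
    refine Finset.sum_congr rfl fun v _ => ?_
    have : ∀ i ∈ T.filter (fun i => cell h o (x i) = v), N (cell h o (x i)) = N v := by
      intro i hi
      rw [(Finset.mem_filter.mp hi).2]
    rw [Finset.sum_congr rfl this, Finset.sum_const, nsmul_eq_mul, sq]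
  rw [h1, h2]
  exact sq_sum_le_card_mul_sum_sq

/-- Particles in a cube of side `L`: `n² ≤ (2L+2)³ · en cc`. -/
lemma n_sq_le {n : ℕ} (x : Fin n → E) (a : Fin 3 → ℝ) {L : ℝ} (hL : 0 ≤ L)
    (hx : ∀ i k, x i k ∈ Icc (a k) (a k + L)) :
    (n : ℝ) ^ 2 ≤ (2 * L + 2) ^ 3 * en (cc (1 / 2) 0) x := by
  classical
  have h1 := card_sq_le (1 / 2) 0 (Finset.univ : Finset (Fin n)) x
  rw [Finset.card_univ, Fintype.card_fin] at h1
  set s := (Finset.univ : Finset (Fin n)).image fun i => cell (1 / 2) 0 (x i) with hs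
  have h2 : (s.card : ℝ) * (1 / 2) ^ 3 ≤ (L + 1) ^ 3 := by
    refine card_cells_le (by norm_num) 0 s
      {y : E | ∀ i, y i ∈ Icc ((fun i => a i - 1 / 2) i) ((fun i => a i - 1 / 2) i + (L + 1))}
      (by positivity) (by rw [vol_Icc _ (by positivity)]) ?_
    intro v hv y hy
    rw [hs, Finset.mem_image] at hv
    obtain ⟨i, _, hi⟩ := hv
    intro k
    have hc : cell (1 / 2) 0 y = cell (1 / 2) 0 (x i) := by rw [hi]; exact hy
    have := coord_of_cell (by norm_num) hc k
    rw [abs_le] at this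
    have hxk := hx i k
    rw [mem_Icc] at hxk ⊢
    constructor
    · simp only; linarith [this.1, this.2, hxk.1, hxk.2]
    · simp only; linarith [this.1, this.2, hxk.1, hxk.2]
  have h3 : (0 : ℝ) ≤ en (cc (1 / 2) 0) x :=
    Finset.sum_nonneg fun i _ => Finset.sum_nonneg fun j _ => cc_nonneg _ _ _ _
  have h4 : (s.card : ℝ) ≤ (2 * L + 2) ^ 3 := by nlinarith
  calc (n : ℝ) ^ 2 ≤ (s.card : ℝ) * en (cc (1 / 2) 0) x := h1
    _ ≤ _ := mul_le_mul_of_nonneg_right h4 h3

/-- Stability against the half-unit cell functional. -/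
def Stab (V : E → E → ℝ) (m : ℝ) : Prop :=
  ∀ (n : ℕ) (x : Fin n → E), m * en (cc (1 / 2) 0) x ≤ en V x

/-- Growth bound. -/
lemma Xi_growth {V : E → E → ℝ} {m : ℝ} (hm : 0 < m) (hV : Stab V m) (μ : ℝ) {Λ : Set E}
    (hΛ : MeasurableSet Λ) (a : Fin 3 → ℝ) {L : ℝ} (hL : 0 ≤ L)
    (hsub : Λ ⊆ {x : E | ∀ i, x i ∈ Icc (a i) (a i + L)}) :
    Xi V μ Λ ≤ ENNReal.ofReal (Real.exp ((2 * L + 2) ^ 3 * μ ^ 2 / (2 * m) + L ^ 3)) := by
  have h1 : Xi V μ Λ ≤ ENNReal.ofReal (Real.exp ((2 * L + 2) ^ 3 * μ ^ 2 / (2 * m)))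
      * Xi (fun _ _ => (0 : ℝ)) 0 Λ := by
    refine Xi_le_mul hΛ _ fun n x hx => ?_
    have hn := n_sq_le x a hL fun i k => hsub (hx i) k
    have hs := hV n x
    have hzero : en (fun _ _ => (0 : ℝ)) x = 0 := by simp [en]
    rw [hzero]
    set M : ℝ := (2 * L + 2) ^ 3 with hM
    have hMpos : 0 < M := by positivity
    have h2 : m * ((n : ℝ) ^ 2 / M) ≤ en V x := by
      refine le_trans (mul_le_mul_of_nonneg_left ?_ hm.le) hs
      rw [div_le_iff₀ hMpos]
      linarith
    have h3 : μ * n - m * ((n : ℝ) ^ 2 / M) / 2 ≤ M * μ ^ 2 / (2 * m) := by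
      have : M * μ ^ 2 / (2 * m) - (μ * n - m * ((n : ℝ) ^ 2 / M) / 2)
          = (M * μ - m * n) ^ 2 / (2 * m * M) := by
        field_simp
        ring
      have h4 : 0 ≤ (M * μ - m * n) ^ 2 / (2 * m * M) := by positivity
      linarith
    linarith
  have h2 : Xi (fun _ _ => (0 : ℝ)) 0 Λ ≤ ENNReal.ofReal (Real.exp (Real.exp 0 * L ^ 3)) := by
    refine Xi_ideal 0 (by positivity) ?_
    rw [← vol_Icc a hL]
    exact measure_mono hsub
  calc Xi V μ Λ ≤ _ := h1
    _ ≤ ENNReal.ofReal (Real.exp ((2 * L + 2) ^ 3 * μ ^ 2 / (2 * m)))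
      * ENNReal.ofReal (Real.exp (Real.exp 0 * L ^ 3)) := mul_le_mul_right h2 _
    _ = _ := by
      rw [← ENNReal.ofReal_mul (Real.exp_pos _).le, ← Real.exp_add]
      simp

end Vale.Agent.P171
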