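import Mathlib

open MeasureTheory Filter Topology

namespace Vale.Agent.P171

/-- Three-dimensional Euclidean space. -/
abbrev E3 := EuclideanSpace ℝ (Fin 3)

/-- The energy `U_N(x) = ∑_{i<j} φ(|x_i - x_j|)` of `N` particles. -/
noncomputable def energy (φ : ℝ → ℝ) {N : ℕ} (x : Fin N → E3) : ℝ :=
  ∑ i, ∑ j, if i < j then φ (dist (x i) (x j)) else 0

/-- The cube `Λ_L = [0, L]³`. -/
def cube (L : ℝ) : Set E3 := {y | ∀ i, 0 ≤ y i ∧ y i ≤ L}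

/-- The canonical partition function
`Z_{L,N}(β) = (1/N!) ∫_{Λ_L^N} exp(-β U_N(x)) dx` (equal to `1` for `N = 0`). -/
noncomputable def partZ (φ : ℝ → ℝ) (β L : ℝ) (N : ℕ) : ℝ :=
  (N.factorial : ℝ)⁻¹ *
    ∫ x in {x : Fin N → E3 | ∀ i, x i ∈ cube L}, Real.exp (-β * energy φ x)

/-- Stability: `U_N ≥ -B N` for all configurations of distinct points. -/
def Stable (φ : ℝ → ℝ) : Prop :=
  ∃ B : ℝ, ∀ (N : ℕ) (x : Fin N → E3), Function.Injective x → -B * N ≤ energy φ x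

/-- Temperedness: `φ(r) ≤ C r^{-3-ε}` for `r ≥ R₀`. -/
def Tempered (φ : ℝ → ℝ) : Prop :=
  ∃ C ε R₀ : ℝ, 0 < C ∧ 0 < ε ∧ 0 < R₀ ∧ ∀ r, R₀ ≤ r → φ r ≤ C * r ^ (-3 - ε)

/-- Local boundedness on `(0, ∞)`. -/
def LocBounded (φ : ℝ → ℝ) : Prop :=
  ∀ a b : ℝ, 0 < a → ∃ M : ℝ, ∀ r, a ≤ r → r ≤ b → |φ r| ≤ M

/-- `Π` is the pressure (times `β`) at inverse temperature `β`: for every `z > 0` the grand
canonical sums converge and `L⁻³ log ∑_N z^N Z_{L,N}(β) → Π(z)` as `L → ∞`. -/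
def IsPressure (φ : ℝ → ℝ) (β : ℝ) (P : ℝ → ℝ) : Prop :=
  ∀ z : ℝ, 0 < z →
    (∀ L : ℝ, 0 < L → Summable fun N : ℕ => z ^ N * partZ φ β L N) ∧
    Tendsto (fun L : ℝ => Real.log (∑' N : ℕ, z ^ N * partZ φ β L N) / L ^ 3) atTop (𝓝 (P z))

/-- Phase transition in sense (a): for some `β > 0` the pressure is not a differentiable function
of the activity `z` at some point. -/
def HasPhaseTransition (φ : ℝ → ℝ) : Prop :=
  ∃ β : ℝ, 0 < β ∧ ∃ P : ℝ → ℝ, IsPressure φ β P ∧ ∃ z : ℝ, 0 < z ∧ ¬ DifferentiableAt ℝ P z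

end Vale.Agent.P171
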