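import Vale.Agent.P171.Recur
import Vale.Agent.P171.Defs

open MeasureTheory Set Filter Topology
open scoped ENNReal BigOperators

namespace Vale.Agent.P171

/-- Slopes between `a` and `b` are also admissible in a near kink. -/
lemma NK.slope {P : ℝ → ℝ} {a b δ μ₀ : ℝ} (h : NK P a b δ μ₀) {c : ℝ} (hac : a ≤ c) (hcb : c ≤ b)
    (ν : ℝ) : P μ₀ + c * (ν - μ₀) - δ ≤ P ν := by
  rcases le_total μ₀ ν with h1 | h1
  · have := (h ν).2
    nlinarith
  · have := (h ν).1
    nlinarith

/-- The limiting pressure has a genuine kink. -/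
lemma exists_kink {R μ : ℕ → ℝ} (hR : ∀ k, 1 ≤ R k) (hinv : ∀ k, Inv k (VV R k) (μ k)) :
    ∃ μ₀ : ℝ, ∀ ν, Pr (VI R) μ₀ + 1 / 32 * (ν - μ₀) ≤ Pr (VI R) ν ∧
      Pr (VI R) μ₀ + 3 / 32 * (ν - μ₀) ≤ Pr (VI R) ν := by
  have hadm : ∀ k, Adm (VV R k) (mk k) := fun k => (hinv k).1
  have hVI := adm_VI hR hadm
  have hle : ∀ k ν, Pr (VV R k) ν ≤ Pr (VI R) ν := fun k ν =>
    Pr_mono_of_en (hadm k) hVI (fun n x => en_VI_le hR x k) ν
  have h0le : ∀ k ν, Pr (VV R 0) ν ≤ Pr (VV R k) ν := fun k ν =>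
    Pr_mono_of_en (hadm 0) (hadm k) (fun n x => en_anti R x (Nat.zero_le k)) ν
  have ha : ∀ k, ak k ≤ 1 / 32 := ak_le
  have hb : ∀ k, 3 / 32 ≤ bk k := by
    intro k
    unfold bk
    linarith [ak_le k]
  have hs1 : ∀ k ν, Pr (VV R k) (μ k) + 1 / 32 * (ν - μ k) - dk k ≤ Pr (VV R k) ν :=
    fun k ν => (hinv k).2.2.slope (ha k) (by linarith [hb k]) ν
  have hs2 : ∀ k ν, Pr (VV R k) (μ k) + 3 / 32 * (ν - μ k) - dk k ≤ Pr (VV R k) ν :=
    fun k ν => (hinv k).2.2.slope (by linarith [ha k]) (hb k) ν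
  have hdk : ∀ k, dk k ≤ 1 := fun k => pow_le_one₀ (by norm_num) (by norm_num)
  have hP0 : Pr (VI R) 0 ≤ 1 := by
    have := hVI.Pr_growth 0
    simpa using this
  -- bounds on the kink locations
  set A := mk 0 with hA
  have hAn : 0 ≤ A := (Mc_pos.le).trans (Mc_le_mk 0)
  have hlow : ∀ k, -(64 / 3) ≤ μ k := by
    intro k
    have h1 := hs2 k 0
    have h2 := (hadm k).Pr_nonneg (μ k)
    have h3 := hle k 0
    have h4 := hdk k
    linarith
  have hup : ∀ k, μ k ≤ (32 + A) := by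
    intro k
    have h1 := hs1 k 0
    have h3 := hle k 0
    have h4 := hdk k
    have h5 := (base_NK (lt_of_lt_of_le Mc_pos (Mc_le_mk 0)) (μ k)).2
    have h6 := h0le k (μ k)
    have h7 : VV R 0 = rep (mk 0) := rfl
    rw [h7] at h6
    have h8 := (adm_rep (lt_of_lt_of_le Mc_pos (Mc_le_mk 0))).Pr_nonneg (mk 0 / 2)
    rw [← hA] at h5 h6 h8
    linarith
  have hmem : ∀ k, μ k ∈ Icc (-(64 / 3) : ℝ) (32 + A) := fun k => ⟨hlow k, hup k⟩
  obtain ⟨μ₀, _, ψ, hψ, hlim⟩ := isCompact_Icc.tendsto_subseq hmem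
  have hPc : Continuous (Pr (VI R)) := by
    rw [← continuousOn_univ]
    exact hVI.convex.continuousOn isOpen_univ
  have hPlim : Tendsto (fun k => Pr (VI R) (μ (ψ k))) atTop (𝓝 (Pr (VI R) μ₀)) :=
    (hPc.tendsto μ₀).comp hlim
  have herr : Tendsto (fun k => 2 * ((1 : ℝ) / 2) ^ (ψ k) * (8 * (μ (ψ k)) ^ 2 / Mc + 1)) atTop
      (𝓝 (2 * 0 * (8 * μ₀ ^ 2 / Mc + 1))) := by
    refine Tendsto.mul (Tendsto.const_mul _ ?_) ?_
    · exact (tendsto_pow_atTop_nhds_zero_of_lt_one (by norm_num) (by norm_num)).comp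
        hψ.tendsto_atTop
    · refine Tendsto.add_const _ ?_
      exact ((hlim.pow 2).const_mul 8).div_const Mc
  have hdlim : Tendsto (fun k => dk (ψ k)) atTop (𝓝 0) :=
    (tendsto_pow_atTop_nhds_zero_of_lt_one (r := (1 : ℝ) / 8) (by norm_num) (by norm_num)).comp
        hψ.tendsto_atTop
  have key : ∀ c : ℝ, (∀ k ν, Pr (VV R k) (μ k) + c * (ν - μ k) - dk k ≤ Pr (VV R k) ν) →
      ∀ ν, Pr (VI R) μ₀ + c * (ν - μ₀) ≤ Pr (VI R) ν := by
    intro c hc ν
    have hL : Tendsto (fun k => Pr (VI R) (μ (ψ k))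
        - 2 * ((1 : ℝ) / 2) ^ (ψ k) * (8 * (μ (ψ k)) ^ 2 / Mc + 1)
        + c * (ν - μ (ψ k)) - dk (ψ k)) atTop
        (𝓝 (Pr (VI R) μ₀ - 2 * 0 * (8 * μ₀ ^ 2 / Mc + 1) + c * (ν - μ₀) - 0)) :=
      ((hPlim.sub herr).add ((tendsto_const_nhds.sub hlim).const_mul c)).sub hdlim
    have e : Pr (VI R) μ₀ - 2 * 0 * (8 * μ₀ ^ 2 / Mc + 1) + c * (ν - μ₀) - 0
        = Pr (VI R) μ₀ + c * (ν - μ₀) := by ring
    rw [e] at hL
    refine le_of_tendsto hL ?_
    filter_upwards [eventually_ge_atTop 1] with k hk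
    have hk1 : 1 ≤ ψ k := hk.trans (hψ.id_le k)
    have h1 := Pr_VI_le hR hadm (ψ k) hk1 (μ (ψ k))
    have h2 := hc (ψ k) ν
    have h3 := hle (ψ k) ν
    linarith
  exact ⟨μ₀, fun ν => ⟨key _ hs1 ν, key _ hs2 ν⟩⟩

lemma cube_eq_box (L : ℝ) : cube L = box L := by
  ext y; simp [cube, box]

section
variable {R : ℕ → ℝ} (hR : ∀ k, 1 ≤ R k)

lemma en_eq_energy {n : ℕ} (R : ℕ → ℝ) (x : Fin n → E) :
    en (VI R) x = 2 * energy (phi R) x + n * phi R 0 := by
  have hsym : ∀ i j : Fin n, VI R (x i) (x j) = VI R (x j) (x i) := by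
    intro i j
    unfold VI
    rw [dist_comm]
  have h1 : ∀ i j : Fin n, VI R (x i) (x j)
      = (if i < j then VI R (x i) (x j) else 0) + (if j < i then VI R (x j) (x i) else 0)
        + (if i = j then phi R 0 else 0) := by
    intro i j
    rcases lt_trichotomy i j with h | h | h
    · simp [h, h.ne, not_lt.mpr h.le]
    · subst h
      simp [VI]
    · simp [h, h.ne', not_lt.mpr h.le, hsym i j]
  unfold en
  rw [Finset.sum_congr rfl fun i _ => Finset.sum_congr rfl fun j _ => h1 i j]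
  simp only [Finset.sum_add_distrib]
  have h2 : ∑ i : Fin n, ∑ j : Fin n, (if j < i then VI R (x j) (x i) else 0)
      = ∑ i : Fin n, ∑ j : Fin n, (if i < j then VI R (x i) (x j) else 0) := by
    rw [Finset.sum_comm]
  have h3 : ∑ i : Fin n, ∑ j : Fin n, (if i = j then phi R 0 else 0) = n * phi R 0 := by
    simp
  rw [h2, h3]
  unfold energy VI
  ring

lemma measurable_energy {φ : ℝ → ℝ} (hφ : Measurable φ) (n : ℕ) :
    Measurable (fun x : Fin n → E => energy φ x) := by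
  unfold energy
  refine Finset.measurable_sum _ fun i _ => Finset.measurable_sum _ fun j _ => ?_
  split_ifs
  · refine hφ.comp ?_
    exact (measurable_pi_apply (X := fun _ : Fin n => E) i).dist
      (measurable_pi_apply (X := fun _ : Fin n => E) j)
  · exact measurable_const

include hR in
/-- The terms of the grand canonical sum. -/
lemma term_eq {z : ℝ} (hz : 0 < z) (L : ℝ) (n : ℕ) :
    z ^ n * partZ (phi R) 1 L n
      = (((n.factorial : ℕ) : ℝ≥0∞)⁻¹
          * In (VI R) (Real.log z + phi R 0 / 2) (box L) (Fin n)).toReal := by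
  have hm := measurable_energy (measurable_phi hR) n
  have hset : {x : Fin n → E3 | ∀ i, x i ∈ cube L} = Set.univ.pi (fun _ : Fin n => box L) := by
    ext x; simp [cube_eq_box]
  have hwt : ∀ x : Fin n → E, wt (VI R) (Real.log z + phi R 0 / 2) x
      = ENNReal.ofReal (z ^ n) * ENNReal.ofReal (Real.exp (-1 * energy (phi R) x)) := by
    intro x
    rw [wt_eq_fin, en_eq_energy, ← ENNReal.ofReal_mul (by positivity)]
    congr 1
    have h1 : z ^ n = Real.exp (n * Real.log z) := by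
      rw [Real.exp_nat_mul, Real.exp_log hz]
    rw [h1, ← Real.exp_add]
    congr 1
    ring
  have hIn : In (VI R) (Real.log z + phi R 0 / 2) (box L) (Fin n)
      = ENNReal.ofReal (z ^ n) * ∫⁻ x in Set.univ.pi (fun _ : Fin n => box L),
          ENNReal.ofReal (Real.exp (-1 * energy (phi R) x)) := by
    unfold In
    simp only [hwt]
    rw [lintegral_const_mul' _ _ ENNReal.ofReal_ne_top]
  have hint : ∫ x in {x : Fin n → E3 | ∀ i, x i ∈ cube L}, Real.exp (-1 * energy (phi R) x)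
      = (∫⁻ x in Set.univ.pi (fun _ : Fin n => box L),
          ENNReal.ofReal (Real.exp (-1 * energy (phi R) x))).toReal := by
    rw [hset]
    refine integral_eq_lintegral_of_nonneg_ae
      (Filter.Eventually.of_forall fun x => (Real.exp_pos _).le) ?_
    exact ((hm.const_mul (-1)).exp).aestronglyMeasurable
  rw [hIn, ENNReal.toReal_mul, ENNReal.toReal_mul, ENNReal.toReal_inv, ENNReal.toReal_natCast,
    ENNReal.toReal_ofReal (by positivity)]
  unfold partZ
  rw [hint]
  ring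

end

lemma main_of {R μ : ℕ → ℝ} (hR : ∀ k, 1 ≤ R k) (hinv : ∀ k, Inv k (VV R k) (μ k)) :
    Measurable (phi R) ∧ LocBounded (phi R) ∧ Stable (phi R) ∧ Tempered (phi R) ∧
    HasPhaseTransition (phi R) := by
  have hadm : ∀ k, Adm (VV R k) (mk k) := fun k => (hinv k).1
  have hVI := adm_VI hR hadm
  obtain ⟨μ₀, hμ₀⟩ := exists_kink hR hinv
  have hA : 0 < mk 0 := lt_of_lt_of_le Mc_pos (Mc_le_mk 0)
  have hts : ∀ r, 0 ≤ ∑' j, Jk j * kr (R j) r := fun r =>
    tsum_nonneg fun j => mul_nonneg (Jk_pos j).le (kr_nonneg _ _)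
  refine ⟨measurable_phi hR, ?_, ?_, ?_, ?_⟩
  · -- local boundedness
    intro a b _
    refine ⟨mk 0 + 32768 * (1 / bv 1), fun r _ _ => ?_⟩
    have h1 := hts r
    have h2 := tsum_kr_le hR r
    unfold phi
    rw [abs_le]
    split_ifs
    · constructor <;> linarith
    · constructor <;> linarith
  · -- stability
    refine ⟨phi R 0 / 2, fun N x _ => ?_⟩
    have h1 := hVI.stab N x
    have h2 := en_cc_nonneg (1 / 2) 0 x
    have h3 : 0 ≤ en (VI R) x := (mul_nonneg Mc_pos.le h2).trans h1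
    rw [en_eq_energy] at h3
    linarith
  · -- temperedness
    refine ⟨1, 1, 1, one_pos, one_pos, one_pos, fun r hr => ?_⟩
    have h1 : phi R r ≤ 0 := by
      unfold phi
      rw [if_neg (not_lt.mpr hr)]
      linarith [hts r]
    have h2 : 0 ≤ 1 * r ^ (-3 - 1 : ℝ) := by positivity
    linarith
  · -- phase transition
    refine ⟨1, one_pos, fun z => Pr (VI R) (Real.log z + phi R 0 / 2), ?_, ?_⟩
    · intro z hz
      have hfin : ∀ L : ℝ, 0 < L → (∑' n : ℕ, ((n.factorial : ℕ) : ℝ≥0∞)⁻¹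
          * In (VI R) (Real.log z + phi R 0 / 2) (box L) (Fin n)) ≠ ⊤ := fun L hL =>
        hVI.ne_top (Real.log z + phi R 0 / 2) hL.le
      have hsum : ∀ L : ℝ, 0 < L → Summable fun N : ℕ => z ^ N * partZ (phi R) 1 L N := by
        intro L hL
        simp only [term_eq hR hz]
        exact ENNReal.summable_toReal (hfin L hL)
      refine ⟨hsum, ?_⟩
      refine (hVI.tendsto (Real.log z + phi R 0 / 2)).congr' ?_
      filter_upwards [eventually_gt_atTop 0] with L hL
      unfold lg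
      congr 2
      simp only [term_eq hR hz]
      rw [← ENNReal.tsum_toReal_eq fun n => ENNReal.ne_top_of_tsum_ne_top (hfin L hL) n]
      rfl
    · refine ⟨Real.exp (μ₀ - phi R 0 / 2), Real.exp_pos _, fun hdiff => ?_⟩
      have h1 : DifferentiableAt ℝ (Pr (VI R)) μ₀ := by
        have h2 : DifferentiableAt ℝ (fun μ : ℝ => Real.exp (μ - phi R 0 / 2)) μ₀ := by
          fun_prop
        have h3 := DifferentiableAt.comp μ₀
          (g := fun z => Pr (VI R) (Real.log z + phi R 0 / 2))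
          (f := fun μ : ℝ => Real.exp (μ - phi R 0 / 2)) hdiff h2
        refine h3.congr_of_eventuallyEq (Filter.Eventually.of_forall fun μ => ?_)
        simp only [Function.comp_apply, Real.log_exp]
        congr 1
        ring
      obtain ⟨D, hD⟩ : ∃ D, HasDerivAt (Pr (VI R)) D μ₀ := ⟨_, h1.hasDerivAt⟩
      have slope : ∀ c : ℝ, (∀ ν, Pr (VI R) μ₀ + c * (ν - μ₀) ≤ Pr (VI R) ν) → D = c := by
        intro c hc
        have h2 : HasDerivAt (fun ν => Pr (VI R) ν - c * ν) (D - c * 1) μ₀ :=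
          hD.sub ((hasDerivAt_id μ₀).const_mul c)
        have h3 : IsLocalMin (fun ν => Pr (VI R) ν - c * ν) μ₀ := by
          refine Filter.Eventually.of_forall fun ν => ?_
          have := hc ν
          simp only
          linarith
        have h4 := h3.hasDerivAt_eq_zero h2
        linarith
      have e1 := slope _ fun ν => (hμ₀ ν).1
      have e2 := slope _ fun ν => (hμ₀ ν).2
      linarith

/-- **Existence of a phase transition** for a stable, tempered, radial pair potential. -/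
theorem main : ∃ φ : ℝ → ℝ, Measurable φ ∧ LocBounded φ ∧ Stable φ ∧ Tempered φ ∧
    HasPhaseTransition φ := by
  obtain ⟨R, μ, hR, hinv⟩ := exists_ranges
  exact ⟨phi R, main_of hR hinv⟩

end Vale.Agent.P171
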