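import Mathlib

open MeasureTheory Set
open scoped ENNReal BigOperators

namespace Vale.Agent.P171

section Gas
variable {X : Type*} [MeasureSpace X]

/-- The full double sum `∑ i, ∑ j, V (x i) (x j)` (diagonal terms included). -/
noncomputable def en (V : X → X → ℝ) {ι : Type*} [Fintype ι] (x : ι → X) : ℝ :=
  ∑ i, ∑ j, V (x i) (x j)

/-- The grand canonical weight. -/
noncomputable def wt (V : X → X → ℝ) (μ : ℝ) {ι : Type*} [Fintype ι] (x : ι → X) : ℝ≥0∞ :=
  ENNReal.ofReal (Real.exp (μ * Fintype.card ι - en V x / 2))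

noncomputable def In (V : X → X → ℝ) (μ : ℝ) (Λ : Set X) (ι : Type*) [Fintype ι] : ℝ≥0∞ :=
  ∫⁻ x in Set.univ.pi (fun _ : ι => Λ), wt V μ x

/-- Grand partition function (self energies included). -/
noncomputable def Xi (V : X → X → ℝ) (μ : ℝ) (Λ : Set X) : ℝ≥0∞ :=
  ∑' n : ℕ, ((n.factorial : ℕ) : ℝ≥0∞)⁻¹ * In V μ Λ (Fin n)

lemma measurable_en {V : X → X → ℝ} (hV : Measurable (Function.uncurry V)) {ι : Type*}
    [Fintype ι] : Measurable (fun x : ι → X => en V x) := by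
  unfold en
  refine Finset.measurable_sum _ fun i _ => Finset.measurable_sum _ fun j _ => ?_
  exact (hV.comp ((measurable_pi_apply (X := fun _ : ι => X) i).prodMk
    (measurable_pi_apply (X := fun _ : ι => X) j)) :
    Measurable fun x : ι → X => Function.uncurry V (x i, x j))

lemma measurable_wt {V : X → X → ℝ} (hV : Measurable (Function.uncurry V)) (μ : ℝ) {ι : Type*}
    [Fintype ι] : Measurable (fun x : ι → X => wt V μ x) := by
  unfold wt
  exact ((((measurable_en hV).div_const 2).const_sub _).exp).ennreal_ofReal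

lemma wt_eq_fin (V : X → X → ℝ) (μ : ℝ) {n : ℕ} (x : Fin n → X) :
    wt V μ x = ENNReal.ofReal (Real.exp (μ * n - en V x / 2)) := by
  simp [wt]

lemma Xi_le_tsum_gen {T : Type*} [Countable T] {V : X → X → ℝ} {μ : ℝ} {Λ : Set X}
    (hΛ : MeasurableSet Λ) (V' : T → X → X → ℝ) (hV' : ∀ t, Measurable (Function.uncurry (V' t)))
    (μ' : T → ℝ) (c : T → ℝ≥0∞)
    (h : ∀ (n : ℕ) (x : Fin n → X), (∀ i, x i ∈ Λ) → wt V μ x ≤ ∑' t, c t * wt (V' t) (μ' t) x) :
    Xi V μ Λ ≤ ∑' t, c t * Xi (V' t) (μ' t) Λ := by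
  have hn : ∀ n : ℕ, In V μ Λ (Fin n) ≤ ∑' t, c t * In (V' t) (μ' t) Λ (Fin n) := by
    intro n
    calc In V μ Λ (Fin n)
        ≤ ∫⁻ x in Set.univ.pi (fun _ : Fin n => Λ), ∑' t, c t * wt (V' t) (μ' t) x := by
          refine setLIntegral_mono' (MeasurableSet.univ_pi fun _ => hΛ) fun x hx => h n x ?_
          intro i
          exact hx i (mem_univ i)
      _ = ∑' t, ∫⁻ x in Set.univ.pi (fun _ : Fin n => Λ), c t * wt (V' t) (μ' t) x := by
          refine lintegral_tsum fun t => ?_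
          exact ((measurable_wt (hV' t) (μ' t)).const_mul (c t)).aemeasurable
      _ = ∑' t, c t * In (V' t) (μ' t) Λ (Fin n) := by
          refine tsum_congr fun t => ?_
          rw [lintegral_const_mul _ (measurable_wt (hV' t) (μ' t))]
          rfl
  calc Xi V μ Λ
      ≤ ∑' n : ℕ, ((n.factorial : ℕ) : ℝ≥0∞)⁻¹ * ∑' t, c t * In (V' t) (μ' t) Λ (Fin n) := by
        unfold Xi
        exact ENNReal.tsum_le_tsum fun n => mul_le_mul_right (hn n) _
    _ = ∑' n : ℕ, ∑' t, c t * (((n.factorial : ℕ) : ℝ≥0∞)⁻¹ * In (V' t) (μ' t) Λ (Fin n)) := by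
        refine tsum_congr fun n => ?_
        rw [← ENNReal.tsum_mul_left]
        refine tsum_congr fun t => ?_
        ring
    _ = ∑' t, ∑' n : ℕ, c t * (((n.factorial : ℕ) : ℝ≥0∞)⁻¹ * In (V' t) (μ' t) Λ (Fin n)) :=
        ENNReal.tsum_comm
    _ = ∑' t, c t * Xi (V' t) (μ' t) Λ := by
        refine tsum_congr fun t => ?_
        rw [ENNReal.tsum_mul_left]
        rfl

lemma Xi_le_tsum {T : Type*} [Countable T] {V : X → X → ℝ} {μ : ℝ} {Λ : Set X}
    (hΛ : MeasurableSet Λ) (V' : T → X → X → ℝ) (hV' : ∀ t, Measurable (Function.uncurry (V' t)))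
    (μ' : T → ℝ) (c : T → ℝ)
    (h : ∀ (n : ℕ) (x : Fin n → X), (∀ i, x i ∈ Λ) →
      ∃ t, μ * n - en V x / 2 ≤ c t + (μ' t * n - en (V' t) x / 2)) :
    Xi V μ Λ ≤ ∑' t, ENNReal.ofReal (Real.exp (c t)) * Xi (V' t) (μ' t) Λ := by
  refine Xi_le_tsum_gen hΛ V' hV' μ' _ fun n x hx => ?_
  obtain ⟨t, ht⟩ := h n x hx
  refine le_trans ?_ (ENNReal.le_tsum t)
  rw [wt_eq_fin, wt_eq_fin, ← ENNReal.ofReal_mul (Real.exp_pos _).le, ← Real.exp_add]
  exact ENNReal.ofReal_le_ofReal (Real.exp_le_exp.mpr ht)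

lemma Xi_mono_set {V : X → X → ℝ} {μ : ℝ} {Λ Λ' : Set X} (h : Λ ⊆ Λ') :
    Xi V μ Λ ≤ Xi V μ Λ' := by
  unfold Xi In
  refine ENNReal.tsum_le_tsum fun n => mul_le_mul_right ?_ _
  exact lintegral_mono_set (Set.pi_mono fun _ _ => h)

lemma Xi_le_mul {V V' : X → X → ℝ} {μ μ' : ℝ} {Λ : Set X} (hΛ : MeasurableSet Λ) (c : ℝ)
    (h : ∀ (n : ℕ) (x : Fin n → X), (∀ i, x i ∈ Λ) →
      μ * n - en V x / 2 ≤ c + (μ' * n - en V' x / 2)) :
    Xi V μ Λ ≤ ENNReal.ofReal (Real.exp c) * Xi V' μ' Λ := by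
  unfold Xi
  rw [← ENNReal.tsum_mul_left]
  refine ENNReal.tsum_le_tsum fun n => ?_
  rw [mul_left_comm]
  refine mul_le_mul_right ?_ _
  unfold In
  rw [← lintegral_const_mul' _ _ ENNReal.ofReal_ne_top]
  refine setLIntegral_mono' (MeasurableSet.univ_pi fun _ => hΛ) fun x hx => ?_
  rw [wt_eq_fin, wt_eq_fin, ← ENNReal.ofReal_mul (Real.exp_pos _).le, ← Real.exp_add]
  exact ENNReal.ofReal_le_ofReal (Real.exp_le_exp.mpr (h n x fun i => hx i (mem_univ i)))

lemma Xi_mono {V V' : X → X → ℝ} {μ μ' : ℝ} {Λ : Set X} (hΛ : MeasurableSet Λ)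
    (h : ∀ (n : ℕ) (x : Fin n → X), (∀ i, x i ∈ Λ) →
      μ * n - en V x / 2 ≤ μ' * n - en V' x / 2) :
    Xi V μ Λ ≤ Xi V' μ' Λ := by
  have := Xi_le_mul (V := V) (V' := V') (μ := μ) (μ' := μ') hΛ 0 (by simpa using h)
  simpa using this

/-- Log-convexity (Hölder). -/
lemma Xi_holder {V₁ V₂ : X → X → ℝ} (h₁ : Measurable (Function.uncurry V₁))
    (h₂ : Measurable (Function.uncurry V₂)) {μ₁ μ₂ α β : ℝ} {Λ : Set X} (hΛ : MeasurableSet Λ)
    {τ : ℝ} (h0 : 0 ≤ τ) (h1 : τ ≤ 1)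
    (ha : Xi V₁ μ₁ Λ ≤ ENNReal.ofReal (Real.exp α)) (hb : Xi V₂ μ₂ Λ ≤ ENNReal.ofReal (Real.exp β)) :
    Xi (fun x y => (1 - τ) * V₁ x y + τ * V₂ x y) ((1 - τ) * μ₁ + τ * μ₂) Λ
      ≤ ENNReal.ofReal (Real.exp ((1 - τ) * α + τ * β)) := by
  set γ := (1 - τ) * α + τ * β with hγ
  have key := Xi_le_tsum_gen (T := Bool) (V := fun x y => (1 - τ) * V₁ x y + τ * V₂ x y)
    (μ := (1 - τ) * μ₁ + τ * μ₂) hΛ (fun b => if b then V₁ else V₂)
    (by intro b; cases b <;> simp [h₁, h₂])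
    (fun b => if b then μ₁ else μ₂)
    (fun b => if b then ENNReal.ofReal (Real.exp γ * (1 - τ) * Real.exp (-α)) else
      ENNReal.ofReal (Real.exp γ * τ * Real.exp (-β))) ?_
  · refine key.trans ?_
    rw [tsum_bool]
    simp only [Bool.false_eq_true, if_false, if_true]
    calc ENNReal.ofReal (Real.exp γ * τ * Real.exp (-β)) * Xi V₂ μ₂ Λ
        + ENNReal.ofReal (Real.exp γ * (1 - τ) * Real.exp (-α)) * Xi V₁ μ₁ Λ
        ≤ ENNReal.ofReal (Real.exp γ * τ * Real.exp (-β)) * ENNReal.ofReal (Real.exp β)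
        + ENNReal.ofReal (Real.exp γ * (1 - τ) * Real.exp (-α)) * ENNReal.ofReal (Real.exp α) := by
          gcongr
      _ = ENNReal.ofReal (Real.exp γ) := by
          have e1 : 0 ≤ Real.exp γ * τ * Real.exp (-β) := by positivity
          have e2 : 0 ≤ Real.exp γ * (1 - τ) * Real.exp (-α) :=
            mul_nonneg (mul_nonneg (Real.exp_pos _).le (by linarith)) (Real.exp_pos _).le
          rw [← ENNReal.ofReal_mul e1, ← ENNReal.ofReal_mul e2, ← ENNReal.ofReal_add]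
          · congr 1
            have e3 : Real.exp (-β) * Real.exp β = 1 := by rw [← Real.exp_add]; simp
            have e4 : Real.exp (-α) * Real.exp α = 1 := by rw [← Real.exp_add]; simp
            linear_combination (Real.exp γ * τ) * e3 + (Real.exp γ * (1 - τ)) * e4
          · exact mul_nonneg e1 (Real.exp_pos _).le
          · exact mul_nonneg e2 (Real.exp_pos _).le
  · intro n x hx
    rw [tsum_bool]
    simp only [Bool.false_eq_true, if_false, if_true, wt_eq_fin]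
    have e1 : 0 ≤ Real.exp γ * τ * Real.exp (-β) := by positivity
    have e2 : 0 ≤ Real.exp γ * (1 - τ) * Real.exp (-α) :=
      mul_nonneg (mul_nonneg (Real.exp_pos _).le (by linarith)) (Real.exp_pos _).le
    rw [← ENNReal.ofReal_mul e1, ← ENNReal.ofReal_mul e2, ← ENNReal.ofReal_add
      (mul_nonneg e1 (Real.exp_pos _).le) (mul_nonneg e2 (Real.exp_pos _).le)]
    refine ENNReal.ofReal_le_ofReal ?_
    have hen : en (fun x y => (1 - τ) * V₁ x y + τ * V₂ x y) x
        = (1 - τ) * en V₁ x + τ * en V₂ x := by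
      simp only [en, Finset.sum_add_distrib, Finset.mul_sum]
    rw [hen]
    set p := μ₁ * n - en V₁ x / 2
    set q := μ₂ * n - en V₂ x / 2
    have hexp : ((1 - τ) * μ₁ + τ * μ₂) * n - ((1 - τ) * en V₁ x + τ * en V₂ x) / 2
        = γ + ((1 - τ) * (p - α) + τ * (q - β)) := by
      simp only [p, q, hγ]; ring
    rw [hexp, Real.exp_add]
    have hconv := convexOn_exp.2 (mem_univ (p - α)) (mem_univ (q - β)) (by linarith : 0 ≤ 1 - τ)
      h0 (by ring)
    simp only [smul_eq_mul] at hconv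
    have e5 : Real.exp (p - α) = Real.exp p * Real.exp (-α) := by rw [← Real.exp_add]; ring_nf
    have e6 : Real.exp (q - β) = Real.exp q * Real.exp (-β) := by rw [← Real.exp_add]; ring_nf
    calc Real.exp γ * Real.exp ((1 - τ) * (p - α) + τ * (q - β))
        ≤ Real.exp γ * ((1 - τ) * Real.exp (p - α) + τ * Real.exp (q - β)) := by
          exact mul_le_mul_of_nonneg_left hconv (Real.exp_pos _).le
      _ = _ := by rw [e5, e6]; ring

end Gas

end Vale.Agent.P171
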