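import Vale.Agent.P171.Cell

open MeasureTheory Set
open scoped ENNReal BigOperators

namespace Vale.Agent.P171

/-- Volume of the ball of radius `R`. -/
noncomputable def bv (R : ℝ) : ℝ := (volume (Metric.ball (0 : E) R)).toReal

/-- The kernel: normalised self-convolution of the ball of radius `R`. -/
noncomputable def KR (R : ℝ) (x y : E) : ℝ :=
  (volume (Metric.ball x R ∩ Metric.ball y R)).toReal / bv R ^ 2

lemma vol_ball (x : E) (R : ℝ) : volume (Metric.ball x R) = volume (Metric.ball (0 : E) R) := by
  exact Measure.addHaar_ball_center volume x R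

lemma vol_ball_ne_top (x : E) (R : ℝ) : volume (Metric.ball x R) ≠ ⊤ :=
  measure_ball_lt_top.ne

lemma bv_eq {R : ℝ} (hR : 0 ≤ R) : bv R = R ^ 3 * bv 1 := by
  unfold bv
  rw [Measure.addHaar_ball volume (0 : E) hR, ENNReal.toReal_mul, finrank_euclideanSpace,
    Fintype.card_fin, ENNReal.toReal_ofReal (by positivity)]

lemma bv_one_pos : 0 < bv 1 := by
  unfold bv
  exact ENNReal.toReal_pos (Metric.measure_ball_pos volume _ one_pos).ne' (vol_ball_ne_top _ _)

lemma bv_pos {R : ℝ} (hR : 0 < R) : 0 < bv R := by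
  rw [bv_eq hR.le]
  exact mul_pos (by positivity) bv_one_pos

lemma KR_nonneg (R : ℝ) (x y : E) : 0 ≤ KR R x y := by
  unfold KR; positivity

lemma KR_le {R : ℝ} (hR : 0 < R) (x y : E) : KR R x y ≤ 1 / bv R := by
  unfold KR
  have hb := bv_pos hR
  have h1 : (volume (Metric.ball x R ∩ Metric.ball y R)).toReal ≤ bv R := by
    unfold bv
    rw [← vol_ball x R]
    exact ENNReal.toReal_mono (vol_ball_ne_top _ _) (measure_mono inter_subset_left)
  rw [div_le_div_iff₀ (by positivity) hb]
  nlinarith

lemma KR_zero_of_dist {R : ℝ} {x y : E} (h : 2 * R ≤ dist x y) : KR R x y = 0 := by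
  unfold KR
  have : Metric.ball x R ∩ Metric.ball y R = ∅ := by
    rw [← disjoint_iff_inter_eq_empty]
    exact Metric.ball_disjoint_ball (by linarith)
  rw [this]
  simp

lemma measurable_KR (R : ℝ) : Measurable (Function.uncurry (KR R)) := by
  unfold KR Function.uncurry
  refine Measurable.div_const ?_ _
  refine Measurable.ennreal_toReal ?_
  have hs : MeasurableSet {p : (E × E) × E | dist p.2 p.1.1 < R ∧ dist p.2 p.1.2 < R} := by
    refine MeasurableSet.inter ?_ ?_
    · exact measurableSet_lt (f := fun p : (E × E) × E => dist p.2 p.1.1) (by fun_prop)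
        measurable_const
    · exact measurableSet_lt (f := fun p : (E × E) × E => dist p.2 p.1.2) (by fun_prop)
        measurable_const
  exact measurable_measure_prodMk_left (ν := (volume : Measure E)) hs

lemma KR_isometry {R : ℝ} (T : E → E) (hT : Isometry T) (hmp : MeasurePreserving T volume volume)
    (x y : E) : KR R (T x) (T y) = KR R x y := by
  unfold KR
  have h1 : T ⁻¹' (Metric.ball (T x) R ∩ Metric.ball (T y) R) = Metric.ball x R ∩ Metric.ball y R := by
    ext z
    simp [hT.dist_eq]
  rw [← h1, hmp.measure_preimage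
    (Metric.isOpen_ball.inter Metric.isOpen_ball).measurableSet.nullMeasurableSet]

lemma KR_add (R : ℝ) (a x y : E) : KR R (x + a) (y + a) = KR R x y :=
  KR_isometry (fun z => z + a) (isometry_add_right a) (measurePreserving_add_right volume a) x y

/-- Radial profile of the kernel. -/
noncomputable def kr (R r : ℝ) : ℝ := KR R 0 (r • (EuclideanSpace.single 0 1 : E))

lemma KR_radial (R : ℝ) (x y : E) : KR R x y = kr R (dist x y) := by
  have h0 : KR R x y = KR R 0 (y - x) := by
    have := KR_add R (-x) x y
    rw [← this]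
    congr 1
    simp
  rw [h0]
  set v : E := y - x with hv
  set w : E := (dist x y) • (EuclideanSpace.single 0 1 : E) with hw
  have hnorm : ‖v‖ = ‖w‖ := by
    rw [hw, norm_smul, PiLp.norm_single, hv, dist_eq_norm, norm_sub_rev]
    simp
  have hrefl := Submodule.reflection_sub hnorm
  set T := (Submodule.span ℝ {v - w})ᗮ.reflection with hT
  have h1 := KR_isometry (R := R) T T.isometry T.measurePreserving 0 v
  rw [map_zero, hrefl] at h1
  rw [← h1]
  rfl

lemma measurable_kr (R : ℝ) : Measurable (kr R) := by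
  have h1 : Measurable (fun r : ℝ => r • (EuclideanSpace.single 0 1 : E)) :=
    measurable_id.smul_const _
  have h : Measurable (fun r : ℝ => ((0 : E), r • (EuclideanSpace.single 0 1 : E))) :=
    measurable_const.prodMk h1
  have h2 := (measurable_KR R).comp h
  have h3 : kr R = Function.uncurry (KR R) ∘
      (fun r : ℝ => ((0 : E), r • (EuclideanSpace.single 0 1 : E))) := by
    funext r
    rfl
  rw [h3]
  exact h2

lemma ind_mul (A B : Set E) (w : E) : A.indicator (fun _ => (1 : ℝ)) w
    * B.indicator (fun _ => (1 : ℝ)) w = (A ∩ B).indicator (fun _ => (1 : ℝ)) w := by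
  rw [← Set.inter_indicator_mul]
  simp

lemma integrable_ball_inter (x y : E) (R : ℝ) :
    Integrable ((Metric.ball x R ∩ Metric.ball y R).indicator (fun _ : E => (1 : ℝ))) := by
  refine (integrable_indicator_iff
    (Metric.isOpen_ball.inter Metric.isOpen_ball).measurableSet).mpr ?_
  refine integrableOn_const (lt_of_le_of_lt (measure_mono inter_subset_left) ?_).ne
  exact measure_ball_lt_top

lemma integral_ball_inter (x y : E) (R : ℝ) :
    ∫ w : E, (Metric.ball x R ∩ Metric.ball y R).indicator (fun _ => (1 : ℝ)) w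
      = (volume (Metric.ball x R ∩ Metric.ball y R)).toReal := by
  rw [integral_indicator (Metric.isOpen_ball.inter Metric.isOpen_ball).measurableSet]
  simp [Measure.real]

/-- The double sum of the kernel as an integral of a square. -/
lemma en_KR {n : ℕ} (R : ℝ) (x : Fin n → E) :
    en (KR R) x = (∫ w : E, (∑ i, (Metric.ball (x i) R).indicator (fun _ => (1 : ℝ)) w) ^ 2)
      / bv R ^ 2 := by
  have h1 : ∀ w : E, (∑ i, (Metric.ball (x i) R).indicator (fun _ => (1 : ℝ)) w) ^ 2
      = ∑ i, ∑ j, (Metric.ball (x i) R ∩ Metric.ball (x j) R).indicator (fun _ => (1 : ℝ)) w := by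
    intro w
    rw [sq, Finset.sum_mul_sum]
    exact Finset.sum_congr rfl fun i _ => Finset.sum_congr rfl fun j _ => ind_mul _ _ w
  rw [integral_congr_ae (Filter.Eventually.of_forall h1)]
  rw [integral_finsetSum _ fun i _ => integrable_finsetSum _ fun j _ =>
    integrable_ball_inter (x i) (x j) R]
  unfold en KR
  rw [Finset.sum_div]
  refine Finset.sum_congr rfl fun i _ => ?_
  rw [integral_finsetSum _ fun j _ => integrable_ball_inter (x i) (x j) R, Finset.sum_div]
  refine Finset.sum_congr rfl fun j _ => ?_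
  rw [integral_ball_inter]

lemma integrable_ball_ind (x : E) (R : ℝ) :
    Integrable ((Metric.ball x R).indicator (fun _ : E => (1 : ℝ))) := by
  refine (integrable_indicator_iff Metric.isOpen_ball.measurableSet).mpr ?_
  exact integrableOn_const measure_ball_lt_top.ne

lemma integral_ball_ind (x : E) (R : ℝ) :
    ∫ w : E, (Metric.ball x R).indicator (fun _ => (1 : ℝ)) w = bv R := by
  rw [integral_indicator Metric.isOpen_ball.measurableSet]
  simp [Measure.real, bv, vol_ball x R]

/-- Upper bound of the kernel sum through the cells. -/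
lemma en_KR_le {n : ℕ} {R h : ℝ} (hR : 0 < R) (hh : 0 < h) (o : ℝ) (x : Fin n → E) :
    en (KR R) x ≤ ((R + 2 * h) / R) ^ 3 / h ^ 3 * en (cc h o) x := by
  classical
  rw [en_KR]
  set f : Fin n → E → ℝ := fun i w => (Metric.ball (x i) R).indicator (fun _ => (1 : ℝ)) w with hf
  have hf0 : ∀ i w, 0 ≤ f i w := fun i w => Set.indicator_nonneg (fun _ _ => zero_le_one) w
  have hf1 : ∀ i w, f i w ≤ 1 := by
    intro i w
    simp only [hf, Set.indicator]
    split_ifs <;> norm_num
  set M : ℝ := bv (R + 2 * h) / h ^ 3 with hM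
  have hh3 : 0 < h ^ 3 := by positivity
  have hpt : ∀ w, (∑ i, f i w) ^ 2 ≤ M * ∑ i, (f i w * ∑ j, cc h o (x i) (x j)) := by
    intro w
    set T := (Finset.univ : Finset (Fin n)).filter fun i => w ∈ Metric.ball (x i) R with hT
    have h1 : ∑ i, f i w = (T.card : ℝ) := by
      rw [hT, Finset.card_filter]
      push_cast
      refine Finset.sum_congr rfl fun i _ => ?_
      simp only [hf, Set.indicator]
    have h2 := card_sq_le h o T x
    have h3 : ((T.image fun i => cell h o (x i)).card : ℝ) ≤ M := by
      rw [hM, le_div_iff₀ hh3]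
      refine card_cells_le hh o _ (Metric.ball w (R + 2 * h)) (ENNReal.toReal_nonneg) ?_ ?_
      · rw [vol_ball, bv, ENNReal.ofReal_toReal (vol_ball_ne_top _ _)]
      · intro v hv y hy
        rw [Finset.mem_image] at hv
        obtain ⟨i, hi, hiv⟩ := hv
        have hc : cell h o y = cell h o (x i) := by rw [hiv]; exact hy
        have hd := dist_of_cell hh hc
        have hiT := (Finset.mem_filter.mp hi).2
        rw [Metric.mem_ball] at hiT ⊢
        calc dist y w ≤ dist y (x i) + dist (x i) w := dist_triangle _ _ _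
          _ < 2 * h + R := by rw [dist_comm (x i) w]; linarith
          _ = R + 2 * h := by ring
    have h4 : ∑ i ∈ T, ∑ j ∈ T, cc h o (x i) (x j)
        ≤ ∑ i, (f i w * ∑ j, cc h o (x i) (x j)) := by
      rw [hT, Finset.sum_filter]
      refine Finset.sum_le_sum fun i _ => ?_
      by_cases hi : w ∈ Metric.ball (x i) R
      · have : f i w = 1 := by simp only [hf]; exact Set.indicator_of_mem hi _
        rw [if_pos hi, this, one_mul]
        exact Finset.sum_le_sum_of_subset_of_nonneg (Finset.subset_univ _)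
          fun j _ _ => cc_nonneg _ _ _ _
      · rw [if_neg hi]
        exact mul_nonneg (hf0 i w) (Finset.sum_nonneg fun j _ => cc_nonneg _ _ _ _)
    have h5 : 0 ≤ ∑ i ∈ T, ∑ j ∈ T, cc h o (x i) (x j) :=
      Finset.sum_nonneg fun i _ => Finset.sum_nonneg fun j _ => cc_nonneg _ _ _ _
    have hM0 : 0 ≤ M := div_nonneg ENNReal.toReal_nonneg hh3.le
    calc (∑ i, f i w) ^ 2 = (T.card : ℝ) ^ 2 := by rw [h1]
      _ ≤ _ := h2
      _ ≤ M * ∑ i ∈ T, ∑ j ∈ T, cc h o (x i) (x j) := mul_le_mul_of_nonneg_right h3 h5
      _ ≤ _ := mul_le_mul_of_nonneg_left h4 hM0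
  have hint2 : Integrable fun w => M * ∑ i, (f i w * ∑ j, cc h o (x i) (x j)) := by
    refine Integrable.const_mul (integrable_finsetSum _ fun i _ => ?_) _
    exact (integrable_ball_ind (x i) R).mul_const _
  have h6 : ∫ w, (∑ i, f i w) ^ 2 ≤ ∫ w, M * ∑ i, (f i w * ∑ j, cc h o (x i) (x j)) :=
    integral_mono_of_nonneg (Filter.Eventually.of_forall fun w => sq_nonneg _) hint2
      (Filter.Eventually.of_forall hpt)
  have h7 : ∫ w, M * ∑ i, (f i w * ∑ j, cc h o (x i) (x j)) = M * bv R * en (cc h o) x := by
    rw [integral_const_mul, integral_finsetSum _ fun i _ =>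
      (integrable_ball_ind (x i) R).mul_const _]
    simp only [integral_mul_const, hf, integral_ball_ind, ← Finset.mul_sum]
    unfold en
    ring
  have hb := bv_pos hR
  rw [h7] at h6
  have h8 : ((R + 2 * h) / R) ^ 3 / h ^ 3 * en (cc h o) x
      = (M * bv R * en (cc h o) x) / bv R ^ 2 := by
    have e1 : bv (R + 2 * h) = (R + 2 * h) ^ 3 * bv 1 := bv_eq (by positivity)
    have e2 : bv R = R ^ 3 * bv 1 := bv_eq hR.le
    rw [hM, e1, e2]
    have := bv_one_pos.ne'
    field_simp
  rw [h8]
  exact div_le_div_of_nonneg_right h6 (by positivity)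

/-- Lower bound by linearisation. -/
lemma en_KR_ge {n : ℕ} {R L : ℝ} (hR : 0 < R) (hL : 0 ≤ L) (x : Fin n → E)
    (hx : ∀ i, x i ∈ box L) (τ : ℝ) :
    (2 * τ * n * bv R - τ ^ 2 * (L + 2 * R) ^ 3) / bv R ^ 2 ≤ en (KR R) x := by
  classical
  rw [en_KR]
  set f : Fin n → E → ℝ := fun i w => (Metric.ball (x i) R).indicator (fun _ => (1 : ℝ)) w with hf
  set D : Set E := {w : E | ∀ k, w k ∈ Icc ((fun _ => -R) k) ((fun _ => -R) k + (L + 2 * R))}
    with hD
  have hDm : MeasurableSet D := measurableSet_rect (fun _ => -R) (L + 2 * R)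
  have hDv : volume D = ENNReal.ofReal ((L + 2 * R) ^ 3) := vol_Icc (fun _ => -R) (by positivity)
  have hout : ∀ w, w ∉ D → ∀ i, f i w = 0 := by
    intro w hw i
    simp only [hf]
    refine Set.indicator_of_notMem ?_ _
    intro hwb
    apply hw
    intro k
    have h1 : |w k - x i k| ≤ dist w (x i) := by
      rw [EuclideanSpace.dist_eq, ← Real.dist_eq]
      refine Real.le_sqrt_of_sq_le ?_
      exact Finset.single_le_sum (f := fun k => dist (w k) (x i k) ^ 2)
        (fun _ _ => sq_nonneg _) (Finset.mem_univ k)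
    have h2 : dist w (x i) < R := hwb
    have h3 := hx i k
    rw [mem_Icc] at h3 ⊢
    rw [abs_le] at h1
    constructor
    · linarith [h1.1, h3.1]
    · linarith [h1.2, h3.2]
  have hpt : ∀ w, 2 * τ * ∑ i, f i w - τ ^ 2 * D.indicator (fun _ => (1 : ℝ)) w
      ≤ (∑ i, f i w) ^ 2 := by
    intro w
    by_cases hw : w ∈ D
    · rw [Set.indicator_of_mem hw]
      nlinarith [sq_nonneg (∑ i, f i w - τ)]
    · have : ∑ i, f i w = 0 := Finset.sum_eq_zero fun i _ => hout w hw i
      rw [this, Set.indicator_of_notMem hw]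
      simp
  have hDint : Integrable (D.indicator fun _ : E => (1 : ℝ)) := by
    refine (integrable_indicator_iff hDm).mpr (integrableOn_const ?_)
    rw [hDv]; exact ENNReal.ofReal_ne_top
  have hi1 : Integrable fun w => 2 * τ * ∑ i, f i w :=
    (integrable_finsetSum _ fun i _ => integrable_ball_ind (x i) R).const_mul _
  have hi2 : Integrable fun w => (∑ i, f i w) ^ 2 := by
    have hprod : ∀ i j : Fin n, Integrable fun w => f i w * f j w := by
      intro i j
      have : (fun w => f i w * f j w)
          = (Metric.ball (x i) R ∩ Metric.ball (x j) R).indicator (fun _ : E => (1 : ℝ)) := by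
        funext w
        exact ind_mul _ _ w
      rw [this]
      exact integrable_ball_inter (x i) (x j) R
    simp only [sq, Finset.sum_mul_sum]
    exact integrable_finsetSum _ fun i _ => integrable_finsetSum _ fun j _ => hprod i j
  have h6 := integral_mono (hi1.sub (hDint.const_mul (τ ^ 2))) hi2 hpt
  have h7 : ∫ w, (2 * τ * ∑ i, f i w - τ ^ 2 * D.indicator (fun _ => (1 : ℝ)) w)
      = 2 * τ * n * bv R - τ ^ 2 * (L + 2 * R) ^ 3 := by
    rw [integral_sub hi1 (hDint.const_mul (τ ^ 2)), integral_const_mul, integral_const_mul,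
      integral_finsetSum _ fun i _ => integrable_ball_ind (x i) R, integral_indicator hDm]
    simp only [hf, integral_ball_ind]
    simp [Measure.real, hDv, ENNReal.toReal_ofReal (show (0 : ℝ) ≤ (L + 2 * R) ^ 3 by positivity)]
    ring
  simp only [Pi.sub_apply] at h6
  rw [h7] at h6
  exact div_le_div_of_nonneg_right h6 (by positivity)

end Vale.Agent.P171
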