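import Vale.Agent.P171.Offset

open MeasureTheory Set Filter Topology
open scoped ENNReal BigOperators

namespace Vale.Agent.P171

/-- The decoupled interaction. -/
noncomputable def Vt (V : E → E → ℝ) (h o η k : ℝ) (x y : E) : ℝ :=
  dec h o V x y - η * cc (1 / 2) 0 x y - k * cc h o x y

lemma measurable_Vt {V : E → E → ℝ} (hV : Measurable (Function.uncurry V)) (h o η k : ℝ) :
    Measurable (Function.uncurry (Vt V h o η k)) := by
  have : Function.uncurry (Vt V h o η k) = fun p => Function.uncurry (dec h o V) p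
      - η * Function.uncurry (cc (1 / 2) 0) p - k * Function.uncurry (cc h o) p := rfl
  rw [this]
  exact ((measurable_dec h o hV).sub ((measurable_cc _ _).const_mul η)).sub
    ((measurable_cc _ _).const_mul k)

noncomputable def Ve (V : E → E → ℝ) (η : ℝ) (x y : E) : ℝ := V x y - η * cc (1 / 2) 0 x y

lemma measurable_Ve {V : E → E → ℝ} (hV : Measurable (Function.uncurry V)) (η : ℝ) :
    Measurable (Function.uncurry (Ve V η)) := by
  have : Function.uncurry (Ve V η) = fun p => Function.uncurry V p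
      - η * Function.uncurry (cc (1 / 2) 0) p := rfl
  rw [this]
  exact hV.sub ((measurable_cc _ _).const_mul η)

lemma en_Ve {n : ℕ} (V : E → E → ℝ) (η : ℝ) (x : Fin n → E) :
    en (Ve V η) x = en V x - η * en (cc (1 / 2) 0) x := by
  simp only [en, Ve, Finset.sum_sub_distrib, Finset.mul_sum]

lemma en_Vt {n : ℕ} (V : E → E → ℝ) (h o η k : ℝ) (x : Fin n → E) :
    en (Vt V h o η k) x = en (dec h o V) x - η * en (cc (1 / 2) 0) x - k * en (cc h o) x := by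
  simp only [en, Vt, Finset.sum_sub_distrib, Finset.mul_sum]

lemma Ve_holder {V : E → E → ℝ} {m : ℝ} (hV : Adm V m) {τ : ℝ} (h0 : 0 ≤ τ) (h1 : τ ≤ 1) (ν : ℝ)
    {Q : Set E} (hQ : MeasurableSet Q) (a : Fin 3 → ℝ) {l : ℝ} (hl : 0 < l)
    (hsub : Q ⊆ {x : E | ∀ i, x i ∈ Icc (a i) (a i + l)}) {α : ℝ} (hα0 : 0 ≤ α)
    (hα : Xi V ν Q ≤ ENNReal.ofReal (Real.exp α)) :
    Xi (Ve V (τ * (m / 2))) ν Q
      ≤ ENNReal.ofReal (Real.exp (α + τ * ((2 * l + 2) ^ 3 * ν ^ 2 / m + l ^ 3))) := by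
  have hm := hV.mpos
  have hst : Stab (Ve V (m / 2)) (m / 2) := by
    intro n x
    rw [en_Ve]
    have := hV.stab n x
    linarith
  have hβ := Xi_growth (by positivity : (0 : ℝ) < m / 2) hst ν hQ a hl.le hsub
  have h := Xi_holder hV.meas (measurable_Ve hV.meas (m / 2)) (μ₁ := ν) (μ₂ := ν) hQ h0 h1 hα hβ
  have e1 : (fun x y => (1 - τ) * V x y + τ * Ve V (m / 2) x y) = Ve V (τ * (m / 2)) := by
    funext x y
    simp only [Ve]
    ring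
  have e2 : (1 - τ) * ν + τ * ν = ν := by ring
  rw [e1, e2] at h
  refine h.trans (ENNReal.ofReal_le_ofReal (Real.exp_le_exp.mpr ?_))
  have e3 : (2 * l + 2) ^ 3 * ν ^ 2 / (2 * (m / 2)) = (2 * l + 2) ^ 3 * ν ^ 2 / m := by
    congr 1; ring
  rw [e3]
  nlinarith [mul_nonneg h0 hα0]

lemma cube_sum {V : E → E → ℝ} (hV : Measurable (Function.uncurry V)) (μ η o : ℝ) {l J' δ : ℝ}
    (hl : 0 < l) (hJ' : 0 < J') (hδ : 0 < δ) (v : Fin 3 → ℤ) :
    Xi (Vt V l o η (J' / l ^ 3)) μ {x | cell l o x = v}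
      ≤ ∑' k : ℕ, ENNReal.ofReal (Real.exp ((δ ^ 2 - (δ * k) ^ 2) * l ^ 3 / (2 * J')))
          * Xi (Ve V η) (μ + δ * k) {x | cell l o x = v} := by
  refine Xi_le_tsum (measurableSet_cell l o v) (fun _ : ℕ => Ve V η)
    (fun _ => measurable_Ve hV η) (fun k => μ + δ * k)
    (fun k => (δ ^ 2 - (δ * k) ^ 2) * l ^ 3 / (2 * J')) fun n x hx => ?_
  have hsame : ∀ i j, cell l o (x i) = cell l o (x j) := fun i j =>
    (hx i).trans (hx j).symm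
  have e1 : en (dec l o V) x = en V x := by
    unfold en
    refine Finset.sum_congr rfl fun i _ => Finset.sum_congr rfl fun j _ => ?_
    unfold dec
    rw [if_pos (hsame i j)]
  have e2 : en (cc l o) x = (n : ℝ) ^ 2 := by
    unfold en cc
    have : ∀ i : Fin n, ∑ j : Fin n, (if cell l o (x i) = cell l o (x j) then (1 : ℝ) else 0)
        = n := by
      intro i
      rw [Finset.sum_congr rfl fun j _ => if_pos (hsame i j)]
      simp
    rw [Finset.sum_congr rfl fun i _ => this i]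
    simp [sq]
  rw [en_Vt, e1, e2]
  set y : ℝ := J' * n / l ^ 3 with hy
  have hl3 : 0 < l ^ 3 := by positivity
  have hy0 : 0 ≤ y := by positivity
  refine ⟨⌊y / δ⌋₊, ?_⟩
  set k := ⌊y / δ⌋₊ with hk
  have hk1 : (k : ℝ) ≤ y / δ := Nat.floor_le (by positivity)
  have hk2 : y / δ < k + 1 := Nat.lt_floor_add_one _
  rw [le_div_iff₀ hδ] at hk1
  rw [div_lt_iff₀ hδ] at hk2
  rw [en_Ve]
  have h3 : (y - δ * k) ^ 2 ≤ δ ^ 2 := by
    have e1 : 0 ≤ y - δ * k := by nlinarith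
    have e2 : y - δ * k ≤ δ := by nlinarith
    exact pow_le_pow_left₀ e1 e2 2
  have hn : (n : ℝ) = y * l ^ 3 / J' := by
    rw [hy]; field_simp
  have h4 : J' / l ^ 3 * (n : ℝ) ^ 2 / 2 ≤ (δ ^ 2 - (δ * k) ^ 2) * l ^ 3 / (2 * J') + δ * k * n := by
    have h5 : (δ ^ 2 - (δ * k) ^ 2) * l ^ 3 / (2 * J') + δ * k * n - J' / l ^ 3 * (n : ℝ) ^ 2 / 2
        = (δ ^ 2 - (y - δ * k) ^ 2) * l ^ 3 / (2 * J') := by
      rw [hn]
      field_simp
      ring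
    have h6 : 0 ≤ (δ ^ 2 - (y - δ * k) ^ 2) * l ^ 3 / (2 * J') :=
      div_nonneg (mul_nonneg (by linarith) hl3.le) (by positivity)
    linarith
  linarith

lemma num_aux1 {a b c S N p : ℝ} (ha : 0 ≤ a) (hb : 0 ≤ b) (hc : 0 ≤ c) (hS : 0 ≤ S)
    (hN : N ≤ 2 * a + 2 * b * S) (hp : p ≤ 4 * N + 1) :
    p ≤ (128 * a + 1 + 128 * b + c) * (1 + S) := by
  have h1 : 0 ≤ a * S := mul_nonneg ha hS
  have h2 : 0 ≤ b * S := mul_nonneg hb hS
  have h3 : 0 ≤ c * S := mul_nonneg hc hS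
  have h4 : (128 * a + 1 + 128 * b + c) * (1 + S)
      = 128 * a + 1 + 128 * b + c + 128 * (a * S) + S + 128 * (b * S) + c * S := by ring
  rw [h4]
  have h5 : 2 * b * S = 2 * (b * S) := by ring
  rw [h5] at hN
  linarith

lemma num_aux2 {a b c S N : ℝ} (ha : 0 ≤ a) (hb : 0 ≤ b) (hc : 0 ≤ c) (hS : 0 ≤ S)
    (hN : N ≤ 2 * a + 2 * b * S) :
    64 * N + 1 ≤ (128 * a + 1 + 128 * b + c) * (1 + S) := by
  have h1 : 0 ≤ a * S := mul_nonneg ha hS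
  have h2 : 0 ≤ b * S := mul_nonneg hb hS
  have h3 : 0 ≤ c * S := mul_nonneg hc hS
  have h4 : (128 * a + 1 + 128 * b + c) * (1 + S)
      = 128 * a + 1 + 128 * b + c + 128 * (a * S) + S + 128 * (b * S) + c * S := by ring
  rw [h4]
  have h5 : 2 * b * S = 2 * (b * S) := by ring
  rw [h5] at hN
  linarith

lemma num_aux3 {P g C K S : ℝ} (hK0 : 0 ≤ K) (hK1 : K ≤ 1) (hg0 : 0 ≤ g) (h1 : P ≤ g)
    (h2 : P ≤ C - S) : P ≤ g + K * C - K * S := by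
  have a1 := mul_le_mul_of_nonneg_left h1 (by linarith : 0 ≤ 1 - K)
  have a2 := mul_le_mul_of_nonneg_left h2 hK0
  have a4 : 0 ≤ K * g := mul_nonneg hK0 hg0
  nlinarith

lemma numeric {J m l q τ δ κ g s μ p ε : ℝ} (hJ : 0 < J) (hm : 32 * J ≤ m) (hl : 1 ≤ l)
    (hq : 1 ≤ q) (hτ : 0 ≤ τ) (hκ : 0 < κ) (hg0 : 0 ≤ g)
    (hp0 : 0 ≤ p) (hp : p ≤ 4 * (μ + s) ^ 2 / m + 1) (hg : p - s ^ 2 / (2 * J) ≤ g)
    (hB : (128 * μ ^ 2 / m + 1 + 128 / m + 1 / (2 * J)) * (7 / l + τ + δ ^ 2 + (1 - 1 / q)) ≤ κ)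
    (hκ1 : 8 * J * κ ≤ 1) (hκ2 : κ * (8 * J * (8 * μ ^ 2 / m + 1) + 1) ≤ ε / 2) :
    (l + 1) ^ 3 * p + τ * ((2 * l + 2) ^ 3 * (μ + s) ^ 2 / m + l ^ 3)
      + (δ ^ 2 - s ^ 2) * l ^ 3 / (2 * (J * q)) ≤ l ^ 3 * (g + ε / 2 - κ * s ^ 2) := by
  have hm0 : 0 < m := by linarith
  have hl0 : 0 < l := by linarith
  have hq0 : 0 < q := by linarith
  have hl3 : 0 < l ^ 3 := by positivity
  set B := 128 * μ ^ 2 / m + 1 + 128 / m + 1 / (2 * J) with hBdef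
  have hμ0 : 0 ≤ μ ^ 2 / m := by positivity
  have hm1 : 0 ≤ 1 / m := by positivity
  have hJ1 : 0 ≤ 1 / (2 * J) := by positivity
  have eB : B = 128 * (μ ^ 2 / m) + 1 + 128 * (1 / m) + 1 / (2 * J) := by
    rw [hBdef]; ring
  have hB0 : 0 < B := by rw [eB]; positivity
  have hν : (μ + s) ^ 2 / m ≤ 2 * (μ ^ 2 / m) + 2 * (1 / m) * s ^ 2 := by
    have : (μ + s) ^ 2 ≤ 2 * μ ^ 2 + 2 * s ^ 2 := by nlinarith [sq_nonneg (μ - s)]
    calc (μ + s) ^ 2 / m ≤ (2 * μ ^ 2 + 2 * s ^ 2) / m := div_le_div_of_nonneg_right this hm0.le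
      _ = _ := by ring
  have h1 : (l + 1) ^ 3 * p ≤ l ^ 3 * (p + 7 / l * p) := by
    have e1 : l ^ 3 * (p + 7 / l * p) = (l ^ 3 + 7 * l ^ 2) * p := by
      field_simp
    rw [e1]
    refine mul_le_mul_of_nonneg_right ?_ hp0
    nlinarith [sq_nonneg l, sq_nonneg (l - 1)]
  have h2 : τ * ((2 * l + 2) ^ 3 * (μ + s) ^ 2 / m + l ^ 3)
      ≤ l ^ 3 * (τ * (64 * ((μ + s) ^ 2 / m) + 1)) := by
    have e1 : (2 * l + 2) ^ 3 ≤ 64 * l ^ 3 := by
      have : (2 * l + 2) ^ 3 ≤ (4 * l) ^ 3 := pow_le_pow_left₀ (by positivity) (by linarith) 3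
      calc (2 * l + 2) ^ 3 ≤ (4 * l) ^ 3 := this
        _ = 64 * l ^ 3 := by ring
    have e2 : (2 * l + 2) ^ 3 * (μ + s) ^ 2 / m ≤ 64 * l ^ 3 * ((μ + s) ^ 2 / m) := by
      rw [mul_div_assoc]
      exact mul_le_mul_of_nonneg_right e1 (by positivity)
    calc τ * ((2 * l + 2) ^ 3 * (μ + s) ^ 2 / m + l ^ 3)
        ≤ τ * (64 * l ^ 3 * ((μ + s) ^ 2 / m) + l ^ 3) :=
          mul_le_mul_of_nonneg_left (by linarith) hτ
      _ = _ := by ring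
  have h3 : (δ ^ 2 - s ^ 2) * l ^ 3 / (2 * (J * q))
      ≤ l ^ 3 * (δ ^ 2 * (1 / (2 * J)) - s ^ 2 / (2 * J) + s ^ 2 * (1 / (2 * J)) * (1 - 1 / q)) := by
    have e1 : (δ ^ 2 - s ^ 2) * l ^ 3 / (2 * (J * q))
        = l ^ 3 * (δ ^ 2 * (1 / (2 * J)) * (1 / q) - s ^ 2 / (2 * J)
          + s ^ 2 * (1 / (2 * J)) * (1 - 1 / q)) := by
      field_simp
      ring
    rw [e1]
    refine mul_le_mul_of_nonneg_left ?_ hl3.le
    have e2 : 1 / q ≤ 1 := by rw [div_le_one hq0]; exact hq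
    have e3 : δ ^ 2 * (1 / (2 * J)) * (1 / q) ≤ δ ^ 2 * (1 / (2 * J)) :=
      mul_le_of_le_one_right (by positivity) e2
    linarith
  have hq1 : 0 ≤ 1 - 1 / q := by
    rw [sub_nonneg, div_le_one hq0]; exact hq
  have hs0 : 0 ≤ s ^ 2 := sq_nonneg s
  have h7l : 0 ≤ 7 / l := by positivity
  have hms : 0 ≤ 1 / m * s ^ 2 := by positivity
  have hμs : 0 ≤ μ ^ 2 / m * s ^ 2 := by positivity
  have hJs : 0 ≤ 1 / (2 * J) * s ^ 2 := by positivity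
  have hpB : p ≤ B * (1 + s ^ 2) := by
    have hp' : p ≤ 4 * ((μ + s) ^ 2 / m) + 1 := by
      have : 4 * (μ + s) ^ 2 / m = 4 * ((μ + s) ^ 2 / m) := by ring
      linarith
    rw [eB]
    exact num_aux1 hμ0 hm1 hJ1 hs0 hν hp'
  have hνB : 64 * ((μ + s) ^ 2 / m) + 1 ≤ B * (1 + s ^ 2) := by
    rw [eB]
    exact num_aux2 hμ0 hm1 hJ1 hs0 hν
  have hJB : 1 / (2 * J) ≤ B := by rw [eB]; linarith
  have h4 : 7 / l * p + τ * (64 * ((μ + s) ^ 2 / m) + 1) + δ ^ 2 * (1 / (2 * J))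
      + s ^ 2 * (1 / (2 * J)) * (1 - 1 / q) ≤ κ * (1 + s ^ 2) := by
    have hBs : B ≤ B * (1 + s ^ 2) := le_mul_of_one_le_right hB0.le (by linarith)
    have a1 : 7 / l * p ≤ 7 / l * (B * (1 + s ^ 2)) := mul_le_mul_of_nonneg_left hpB h7l
    have a2 : τ * (64 * ((μ + s) ^ 2 / m) + 1) ≤ τ * (B * (1 + s ^ 2)) :=
      mul_le_mul_of_nonneg_left hνB hτ
    have a3 : δ ^ 2 * (1 / (2 * J)) ≤ δ ^ 2 * (B * (1 + s ^ 2)) := by
      exact mul_le_mul_of_nonneg_left (hJB.trans hBs) (sq_nonneg _)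
    have a4 : s ^ 2 * (1 / (2 * J)) * (1 - 1 / q) ≤ (B * (1 + s ^ 2)) * (1 - 1 / q) := by
      refine mul_le_mul_of_nonneg_right ?_ hq1
      have : s ^ 2 * (1 / (2 * J)) ≤ s ^ 2 * B := mul_le_mul_of_nonneg_left hJB hs0
      have e : B * (1 + s ^ 2) = B + s ^ 2 * B := by ring
      rw [e]
      linarith
    have a5 : B * (7 / l + τ + δ ^ 2 + (1 - 1 / q)) * (1 + s ^ 2) ≤ κ * (1 + s ^ 2) :=
      mul_le_mul_of_nonneg_right hB (by positivity)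
    have a6 : B * (7 / l + τ + δ ^ 2 + (1 - 1 / q)) * (1 + s ^ 2)
        = 7 / l * (B * (1 + s ^ 2)) + τ * (B * (1 + s ^ 2)) + δ ^ 2 * (B * (1 + s ^ 2))
          + (B * (1 + s ^ 2)) * (1 - 1 / q) := by ring
    linarith
  have h5 : p - s ^ 2 / (2 * J) ≤ (8 * μ ^ 2 / m + 1) - s ^ 2 / (4 * J) := by
    have hp' : p ≤ 4 * ((μ + s) ^ 2 / m) + 1 := by
      have : 4 * (μ + s) ^ 2 / m = 4 * ((μ + s) ^ 2 / m) := by ring
      linarith
    have e1 : 8 * (1 / m) * s ^ 2 ≤ s ^ 2 / (4 * J) := by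
      have : 8 * (1 / m) ≤ 1 / (4 * J) := by
        rw [mul_one_div, div_le_div_iff₀ hm0 (by positivity)]
        linarith
      calc 8 * (1 / m) * s ^ 2 ≤ 1 / (4 * J) * s ^ 2 := mul_le_mul_of_nonneg_right this hs0
        _ = _ := by ring
    have e2 : s ^ 2 / (2 * J) = s ^ 2 / (4 * J) + s ^ 2 / (4 * J) := by
      field_simp; ring
    have e3 : 8 * μ ^ 2 / m = 8 * (μ ^ 2 / m) := by ring
    rw [e2, e3]
    linarith
  have h6 : p - s ^ 2 / (2 * J) ≤ g + 8 * J * κ * (8 * μ ^ 2 / m + 1) - 2 * κ * s ^ 2 := by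
    have a3 : 8 * J * κ * (s ^ 2 / (4 * J)) = 2 * κ * s ^ 2 := by
      field_simp; ring
    rw [← a3]
    exact num_aux3 (by positivity) hκ1 hg0 hg h5
  have h7 : l ^ 3 * (p + 7 / l * p) + l ^ 3 * (τ * (64 * ((μ + s) ^ 2 / m) + 1))
      + l ^ 3 * (δ ^ 2 * (1 / (2 * J)) - s ^ 2 / (2 * J) + s ^ 2 * (1 / (2 * J)) * (1 - 1 / q))
      ≤ l ^ 3 * (g + ε / 2 - κ * s ^ 2) := by
    rw [← mul_add, ← mul_add]
    refine mul_le_mul_of_nonneg_left ?_ hl3.le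
    have e1 : κ * (8 * J * (8 * μ ^ 2 / m + 1) + 1)
        = 8 * J * κ * (8 * μ ^ 2 / m + 1) + κ := by ring
    rw [e1] at hκ2
    have e2 : κ * (1 + s ^ 2) = κ + κ * s ^ 2 := by ring
    rw [e2] at h4
    linarith
  linarith

lemma tsum_bound {c κ' : ℝ} (hκ : 1 ≤ κ') :
    ∑' k : ℕ, ENNReal.ofReal (Real.exp (c - κ' * (k : ℝ) ^ 2)) ≤ 2 * ENNReal.ofReal (Real.exp c) := by
  have h1 : ∀ k : ℕ, ENNReal.ofReal (Real.exp (c - κ' * (k : ℝ) ^ 2))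
      ≤ ENNReal.ofReal (Real.exp c) * (2⁻¹ : ℝ≥0∞) ^ k := by
    intro k
    have e1 : (2⁻¹ : ℝ≥0∞) = ENNReal.ofReal (1 / 2) := by
      rw [ENNReal.ofReal_div_of_pos (by norm_num)]
      simp
    rw [e1, ← ENNReal.ofReal_pow (by norm_num), ← ENNReal.ofReal_mul (Real.exp_pos _).le]
    refine ENNReal.ofReal_le_ofReal ?_
    rw [sub_eq_add_neg, Real.exp_add]
    refine mul_le_mul_of_nonneg_left ?_ (Real.exp_pos _).le
    have h2 : Real.exp (-1) ≤ 1 / 2 := by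
      rw [Real.exp_neg, inv_eq_one_div]
      refine div_le_div_of_nonneg_left (by norm_num) (by norm_num) ?_
      have := Real.add_one_le_exp (1 : ℝ)
      linarith
    calc Real.exp (-(κ' * (k : ℝ) ^ 2)) ≤ Real.exp (k * (-1)) := by
          refine Real.exp_le_exp.mpr ?_
          have h3 : (k : ℝ) ≤ (k : ℝ) ^ 2 := by
            have : k ≤ k ^ 2 := Nat.le_self_pow (by norm_num) k
            exact_mod_cast this
          have h4 : (0 : ℝ) ≤ (k : ℝ) ^ 2 := sq_nonneg _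
          nlinarith
      _ = Real.exp (-1) ^ k := Real.exp_nat_mul _ _
      _ ≤ (1 / 2) ^ k := pow_le_pow_left₀ (Real.exp_pos _).le h2 k
  calc ∑' k : ℕ, ENNReal.ofReal (Real.exp (c - κ' * (k : ℝ) ^ 2))
      ≤ ∑' k : ℕ, ENNReal.ofReal (Real.exp c) * (2⁻¹ : ℝ≥0∞) ^ k := ENNReal.tsum_le_tsum h1
    _ = 2 * ENNReal.ofReal (Real.exp c) := by
      rw [ENNReal.tsum_mul_left, ENNReal.tsum_geometric, ENNReal.one_sub_inv_two, inv_inv, mul_comm]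

end Vale.Agent.P171
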