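import Vale.Agent.P171.LP

open MeasureTheory Set Filter Topology
open scoped ENNReal BigOperators

namespace Vale.Agent.P171

/-- Bound for one cube. -/
lemma cube_bound {V : E → E → ℝ} {m : ℝ} (hV : Adm V m) {J l q τ δ κ g μ ε o : ℝ} (hJ : 0 < J)
    (hm : 32 * J ≤ m) (hl : 1 ≤ l) (hq : 1 ≤ q) (hτ : 0 ≤ τ) (hτ1 : τ ≤ 1) (hδ : 0 < δ)
    (hκ : 0 < κ) (hg0 : 0 ≤ g) (hg : ∀ s, Pr V (μ + s) - s ^ 2 / (2 * J) ≤ g)
    (hB : (128 * μ ^ 2 / m + 1 + 128 / m + 1 / (2 * J)) * (7 / l + τ + δ ^ 2 + (1 - 1 / q)) ≤ κ)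
    (hκ1 : 8 * J * κ ≤ 1) (hκ2 : κ * (8 * J * (8 * μ ^ 2 / m + 1) + 1) ≤ ε / 2)
    (hl1 : 1 ≤ l ^ 3 * κ * δ ^ 2) (hl2 : 1 ≤ l ^ 3 * (ε / 2)) (v : Fin 3 → ℤ) :
    Xi (Vt V l o (τ * (m / 2)) (J * q / l ^ 3)) μ {x | cell l o x = v}
      ≤ ENNReal.ofReal (Real.exp (l ^ 3 * (g + ε))) := by
  have hl0 : 0 < l := by linarith
  have hQm := measurableSet_cell l o v
  have hQsub : {x : E | cell l o x = v}
      ⊆ {x : E | ∀ i, x i ∈ Icc ((fun i => o + l * v i) i) ((fun i => o + l * v i) i + l)} := by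
    intro x hx i
    have := (cell_eq_iff hl0 o x v).mp hx i
    exact ⟨this.1, this.2.le⟩
  have hterm : ∀ k : ℕ, ENNReal.ofReal (Real.exp ((δ ^ 2 - (δ * k) ^ 2) * l ^ 3 / (2 * (J * q))))
      * Xi (Ve V (τ * (m / 2))) (μ + δ * k) {x | cell l o x = v}
      ≤ ENNReal.ofReal (Real.exp (l ^ 3 * (g + ε / 2) - l ^ 3 * κ * δ ^ 2 * (k : ℝ) ^ 2)) := by
    intro k
    set s : ℝ := δ * k with hs
    have h1 : Xi V (μ + s) {x | cell l o x = v}
        ≤ ENNReal.ofReal (Real.exp ((l + 1) ^ 3 * Pr V (μ + s))) := by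
      refine (hV.Xi_rect_le (μ + s) hQm _ hQsub).trans ?_
      rw [hV.Xi_eq (μ + s) hl0.le]
      exact ENNReal.ofReal_le_ofReal (Real.exp_le_exp.mpr (hV.lg_le_Pr (μ + s) hl0))
    have h2 := Ve_holder hV hτ hτ1 (μ + s) hQm _ hl0 hQsub
      (mul_nonneg (by positivity) (hV.Pr_nonneg (μ + s))) h1
    calc ENNReal.ofReal (Real.exp ((δ ^ 2 - s ^ 2) * l ^ 3 / (2 * (J * q))))
          * Xi (Ve V (τ * (m / 2))) (μ + s) {x | cell l o x = v}
        ≤ ENNReal.ofReal (Real.exp ((δ ^ 2 - s ^ 2) * l ^ 3 / (2 * (J * q))))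
          * ENNReal.ofReal (Real.exp ((l + 1) ^ 3 * Pr V (μ + s)
            + τ * ((2 * l + 2) ^ 3 * (μ + s) ^ 2 / m + l ^ 3))) := mul_le_mul_right h2 _
      _ = ENNReal.ofReal (Real.exp ((δ ^ 2 - s ^ 2) * l ^ 3 / (2 * (J * q))
            + ((l + 1) ^ 3 * Pr V (μ + s)
            + τ * ((2 * l + 2) ^ 3 * (μ + s) ^ 2 / m + l ^ 3)))) := by
          rw [← ENNReal.ofReal_mul (Real.exp_pos _).le, ← Real.exp_add]
      _ ≤ _ := by
          refine ENNReal.ofReal_le_ofReal (Real.exp_le_exp.mpr ?_)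
          have h3 := numeric (s := s) hJ hm hl hq hτ hκ hg0 (hV.Pr_nonneg (μ + s))
            (hV.Pr_growth (μ + s)) (hg s) hB hκ1 hκ2
          have h4 : l ^ 3 * (g + ε / 2 - κ * s ^ 2)
              = l ^ 3 * (g + ε / 2) - l ^ 3 * κ * δ ^ 2 * (k : ℝ) ^ 2 := by
            rw [hs]; ring
          rw [h4] at h3
          linarith
  have hsum := cube_sum hV.meas μ (τ * (m / 2)) o hl0 (mul_pos hJ (by linarith : 0 < q)) hδ v
  refine hsum.trans ?_
  refine (ENNReal.tsum_le_tsum hterm).trans ?_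
  refine (tsum_bound hl1).trans ?_
  have e1 : (2 : ℝ≥0∞) ≤ ENNReal.ofReal (Real.exp (l ^ 3 * (ε / 2))) := by
    have : (2 : ℝ) ≤ Real.exp (l ^ 3 * (ε / 2)) := by
      have := Real.add_one_le_exp (l ^ 3 * (ε / 2))
      linarith
    calc (2 : ℝ≥0∞) = ENNReal.ofReal 2 := by simp
      _ ≤ _ := ENNReal.ofReal_le_ofReal this
  calc 2 * ENNReal.ofReal (Real.exp (l ^ 3 * (g + ε / 2)))
      ≤ ENNReal.ofReal (Real.exp (l ^ 3 * (ε / 2)))
        * ENNReal.ofReal (Real.exp (l ^ 3 * (g + ε / 2))) := mul_le_mul_left e1 _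
    _ = _ := by
      rw [← ENNReal.ofReal_mul (Real.exp_pos _).le, ← Real.exp_add]
      congr 2
      ring

lemma en_cc_swap {n : ℕ} (V : E → E → ℝ) (x : Fin n → E) : en V x = en V x := rfl

/-- Bound for a big cube from the bound for the small cubes. -/
lemma big_cube {M D t : ℕ} (hM : 0 < M) (hD : 0 < D) (htM : t < M) {V : E → E → ℝ} {m : ℝ}
    (hV : Adm V m) {η k μ G : ℝ} (hG : 0 ≤ G) {L : ℝ} (hL : 0 < L)
    (h : ∀ v, Xi (Vt V ((M : ℝ) * D) ((t : ℝ) * D) η k) μ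
      {x | cell ((M : ℝ) * D) ((t : ℝ) * D) x = v}
      ≤ ENNReal.ofReal (Real.exp (((M : ℝ) * D) ^ 3 * G))) :
    Xi (Vt V ((M : ℝ) * D) ((t : ℝ) * D) η k) μ (box L)
      ≤ ENNReal.ofReal (Real.exp (G * (L + 2 * ((M : ℝ) * D)) ^ 3)) := by
  set l : ℝ := (M : ℝ) * D with hl
  set o : ℝ := (t : ℝ) * D with ho
  have hDr : (0 : ℝ) < D := by exact_mod_cast hD
  have hMr : (0 : ℝ) < M := by exact_mod_cast hM
  have hl0 : 0 < l := by positivity
  have ho0 : 0 ≤ o := by positivity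
  have hol : o ≤ l := by
    have : (t : ℝ) ≤ M := by exact_mod_cast htM.le
    exact mul_le_mul_of_nonneg_right this hDr.le
  set s : Finset (Fin 3 → ℤ) := Fintype.piFinset fun _ => Finset.Ico (-1 : ℤ) (⌊L / l⌋ + 1) with hs
  have hcov : box L ⊆ ⋃ v ∈ s, {x : E | cell l o x = v} := by
    intro x hx
    simp only [mem_iUnion]
    refine ⟨cell l o x, ?_, rfl⟩
    rw [hs, Fintype.mem_piFinset]
    intro i
    have hxi := hx i
    rw [mem_Icc] at hxi
    rw [Finset.mem_Ico]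
    unfold cell
    constructor
    · rw [Int.le_floor, le_div_iff₀ hl0]
      push_cast
      linarith [hxi.1]
    · have : ⌊(x i - o) / l⌋ ≤ ⌊L / l⌋ := by
        refine Int.floor_le_floor ?_
        exact div_le_div_of_nonneg_right (by linarith [hxi.2]) hl0.le
      omega
  have hfl : 0 ≤ ⌊L / l⌋ := Int.floor_nonneg.mpr (by positivity)
  have hcard : (s.card : ℝ) ≤ (L / l + 2) ^ 3 := by
    rw [hs, Fintype.card_piFinset]
    simp only [Int.card_Ico, Finset.prod_const, Finset.card_univ, Fintype.card_fin]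
    push_cast
    refine pow_le_pow_left₀ (by positivity) ?_ 3
    have e1 : ((⌊L / l⌋ + 1 - -1).toNat : ℝ) = (⌊L / l⌋ : ℝ) + 2 := by
      have h2 : ((⌊L / l⌋ + 1 - -1).toNat : ℤ) = ⌊L / l⌋ + 2 := by
        rw [Int.toNat_of_nonneg (by omega)]; ring
      have h3 : (((⌊L / l⌋ + 1 - -1).toNat : ℤ) : ℝ) = ((⌊L / l⌋ + 2 : ℤ) : ℝ) := by rw [h2]
      push_cast at h3
      exact h3
    rw [e1]
    have := Int.floor_le (L / l)
    linarith
  have hprod : Xi (Vt V l o η k) μ (⋃ v ∈ s, {x : E | cell l o x = v})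
      = ∏ v ∈ s, Xi (Vt V l o η k) μ {x : E | cell l o x = v} := by
    refine Xi_biUnion _ (measurable_Vt hV.meas _ _ _ _) μ s _ (measurableSet_cell l o) ?_ ?_
    · intro v w hne
      rw [Set.disjoint_left]
      intro x hx hx'
      exact hne (hx.symm.trans hx')
    · intro v w hne x hx y hy
      have hc : cell l o x ≠ cell l o y := by
        intro h
        exact hne (hx.symm.trans (h.trans hy))
      have hc2 : cell (1 / 2) 0 x ≠ cell (1 / 2) 0 y := by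
        intro h
        exact hc (cell_half_imp hM hD h)
      unfold Vt dec cc
      rw [if_neg hc, if_neg hc2, if_neg hc]
      ring
  calc Xi (Vt V l o η k) μ (box L)
      ≤ Xi (Vt V l o η k) μ (⋃ v ∈ s, {x : E | cell l o x = v}) := Xi_mono_set hcov
    _ = _ := hprod
    _ ≤ ∏ v ∈ s, ENNReal.ofReal (Real.exp (l ^ 3 * G)) := Finset.prod_le_prod' fun v _ => h v
    _ = ENNReal.ofReal (Real.exp (s.card * (l ^ 3 * G))) := by
        rw [Finset.prod_const, ← ENNReal.ofReal_pow (Real.exp_pos _).le, ← Real.exp_nat_mul]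
    _ ≤ _ := by
        refine ENNReal.ofReal_le_ofReal (Real.exp_le_exp.mpr ?_)
        have h1 : (s.card : ℝ) * l ^ 3 ≤ (L + 2 * l) ^ 3 := by
          calc (s.card : ℝ) * l ^ 3 ≤ (L / l + 2) ^ 3 * l ^ 3 :=
                mul_le_mul_of_nonneg_right hcard (by positivity)
            _ = (L + 2 * l) ^ 3 := by
                rw [← mul_pow]
                congr 1
                field_simp
        nlinarith

/-- **Upper bound (Lebowitz-Penrose)**: adding a long range attraction of strength `J`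
asymptotically costs at most the mean field amount. -/
theorem LP_upper {V a : E → E → ℝ} {m r C : ℝ} (hV : Adm V m) (hfr : FinRange V a r C)
    (hC : 0 ≤ C) {J : ℝ} (hJ : 0 < J) (hm : 128 * J ≤ m) {μ g : ℝ}
    (hg : ∀ s, Pr V (μ + s) - s ^ 2 / (2 * J) ≤ g) {ε : ℝ} (hε : 0 < ε) :
    ∀ᶠ R in atTop, Pr (subK V J R) μ ≤ g + ε := by
  have hm0 : 0 < m := hV.mpos
  have hg0 : 0 ≤ g := by
    have h0 := hg 0
    have h1 := hV.Pr_nonneg (μ + 0)
    have h2 : (0 : ℝ) ^ 2 / (2 * J) = 0 := by simp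
    linarith
  set B : ℝ := 128 * μ ^ 2 / m + 1 + 128 / m + 1 / (2 * J) with hBdef
  have hB0 : 0 < B := by positivity
  have hCμ : 0 < 8 * J * (8 * μ ^ 2 / m + 1) + 1 := by positivity
  set κ : ℝ := min (1 / (8 * J)) (ε / 2 / (8 * J * (8 * μ ^ 2 / m + 1) + 1)) with hκdef
  have hκ0 : 0 < κ := lt_min (by positivity) (by positivity)
  have hκ1 : 8 * J * κ ≤ 1 := by
    have : κ ≤ 1 / (8 * J) := min_le_left _ _
    rw [le_div_iff₀ (by positivity)] at this
    linarith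
  have hκ2 : κ * (8 * J * (8 * μ ^ 2 / m + 1) + 1) ≤ ε / 2 := by
    have : κ ≤ ε / 2 / (8 * J * (8 * μ ^ 2 / m + 1) + 1) := min_le_right _ _
    rwa [le_div_iff₀ hCμ] at this
  set θ : ℝ := min 1 (κ / (4 * B)) with hθdef
  have hθ0 : 0 < θ := lt_min one_pos (by positivity)
  have hθ1 : θ ≤ 1 := min_le_left _ _
  have hθB : B * θ ≤ κ / 4 := by
    have : θ ≤ κ / (4 * B) := min_le_right _ _
    rw [le_div_iff₀ (by positivity)] at this
    linarith
  have hθ2B : B * θ ^ 2 ≤ κ / 4 := by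
    have : θ ^ 2 ≤ θ := by nlinarith
    nlinarith
  obtain ⟨M, hM1, hM2⟩ : ∃ M : ℕ, 0 < M ∧ 3 * C / M ≤ θ * (m / 2) := by
    refine ⟨⌈6 * C / (θ * m)⌉₊ + 1, by omega, ?_⟩
    have h1 : 6 * C / (θ * m) ≤ ⌈6 * C / (θ * m)⌉₊ := Nat.le_ceil _
    push_cast
    rw [div_le_iff₀ (by positivity)]
    rw [div_le_iff₀ (by positivity)] at h1
    nlinarith [mul_pos hθ0 hm0]
  obtain ⟨D, hD1, hD2, hD3, hD4, hD5⟩ : ∃ D : ℕ, 0 < D ∧ r ≤ D ∧ 28 * B / κ ≤ D
      ∧ 1 / (κ * θ ^ 2) ≤ D ∧ 2 / ε ≤ D := by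
    set K := max (max r (28 * B / κ)) (max (1 / (κ * θ ^ 2)) (2 / ε)) with hK
    refine ⟨⌈K⌉₊ + 1, by omega, ?_, ?_, ?_, ?_⟩
    · have h1 : K ≤ ⌈K⌉₊ := Nat.le_ceil _
      have h2 : r ≤ K := (le_max_left _ _).trans (le_max_left _ _)
      push_cast; linarith
    · have h1 : K ≤ ⌈K⌉₊ := Nat.le_ceil _
      have h2 : 28 * B / κ ≤ K := (le_max_right _ _).trans (le_max_left _ _)
      push_cast; linarith
    · have h1 : K ≤ ⌈K⌉₊ := Nat.le_ceil _
      have h2 : 1 / (κ * θ ^ 2) ≤ K := (le_max_left _ _).trans (le_max_right _ _)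
      push_cast; linarith
    · have h1 : K ≤ ⌈K⌉₊ := Nat.le_ceil _
      have h2 : 2 / ε ≤ K := (le_max_right _ _).trans (le_max_right _ _)
      push_cast; linarith
  have hMr : (1 : ℝ) ≤ M := by exact_mod_cast hM1
  have hDr : (1 : ℝ) ≤ D := by exact_mod_cast hD1
  set l : ℝ := (M : ℝ) * D with hl
  have hDl : (D : ℝ) ≤ l := by rw [hl]; nlinarith
  have hl1 : 1 ≤ l := by linarith
  have hl0 : 0 < l := by linarith
  have hll3 : l ≤ l ^ 3 := by
    have : l ^ 1 ≤ l ^ 3 := pow_le_pow_right₀ hl1 (by norm_num)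
    simpa using this
  have hlκ : 1 ≤ l ^ 3 * κ * θ ^ 2 := by
    have h1 : 1 / (κ * θ ^ 2) ≤ l ^ 3 := hD4.trans (hDl.trans hll3)
    rw [div_le_iff₀ (by positivity)] at h1
    linarith
  have hlε : 1 ≤ l ^ 3 * (ε / 2) := by
    have h1 : 2 / ε ≤ l ^ 3 := hD5.trans (hDl.trans hll3)
    rw [div_le_iff₀ (by positivity)] at h1
    linarith
  have hlB : B * (7 / l) ≤ κ / 4 := by
    have h1 : 28 * B / κ ≤ l := hD3.trans hDl
    rw [div_le_iff₀ hκ0] at h1
    rw [mul_div_assoc', div_le_iff₀ hl0]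
    linarith
  have hqlim : Tendsto (fun R : ℝ => B * (1 - 1 / ((R + 2 * l) / R) ^ 3)) atTop
      (𝓝 (B * (1 - 1 / (1 + 0) ^ 3))) := by
    refine Tendsto.const_mul _ (Tendsto.sub tendsto_const_nhds (Tendsto.div tendsto_const_nhds ?_
      (by norm_num)))
    refine Tendsto.pow ?_ 3
    have h1 : Tendsto (fun R : ℝ => 1 + 2 * l / R) atTop (𝓝 (1 + 0)) :=
      Tendsto.add tendsto_const_nhds (tendsto_const_nhds.div_atTop tendsto_id)
    refine h1.congr' ?_
    filter_upwards [eventually_gt_atTop 0] with R hR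
    field_simp
  have hq4 : B * (1 - 1 / (1 + 0) ^ 3) < κ / 4 := by
    norm_num
    exact hκ0
  filter_upwards [(tendsto_order.1 hqlim).2 _ hq4, eventually_ge_atTop 1] with R hRq hR1
  have hR0 : 0 < R := by linarith
  set q : ℝ := ((R + 2 * l) / R) ^ 3 with hqdef
  have hq1 : 1 ≤ q := by
    have : 1 ≤ (R + 2 * l) / R := by
      rw [le_div_iff₀ hR0]; linarith
    exact one_le_pow₀ this
  have hBtot : B * (7 / l + θ + θ ^ 2 + (1 - 1 / q)) ≤ κ := by
    have : B * (7 / l + θ + θ ^ 2 + (1 - 1 / q))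
        = B * (7 / l) + B * θ + B * θ ^ 2 + B * (1 - 1 / q) := by ring
    rw [this]
    linarith
  have hVR : Adm (subK V J R) (m / 2) := hV.subK hJ.le hR1 (by positivity) (by linarith)
  have hG : 0 ≤ g + ε := by linarith
  -- finite volume bound
  have hfin : ∀ L : ℝ, 0 < L → lg (subK V J R) μ L ≤ Real.log M + (g + ε) * (L + 2 * l) ^ 3 := by
    intro L hL
    refine hVR.lg_le_of hL.le ?_
    have h1 : Xi (subK V J R) μ (box L)
        ≤ ∑' t : Fin M, ENNReal.ofReal (Real.exp 0)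
          * Xi (Vt V l ((t : ℕ) * D) (θ * (m / 2)) (J * q / l ^ 3)) μ (box L) := by
      refine Xi_le_tsum (measurableSet_box L)
        (fun t : Fin M => Vt V l ((t : ℕ) * D) (θ * (m / 2)) (J * q / l ^ 3))
        (fun t => measurable_Vt hV.meas _ _ _ _) (fun _ => μ) (fun _ => 0) fun n x _ => ?_
      obtain ⟨t, ht⟩ := exists_offset hfr hM1 (by linarith : (0 : ℝ) < D) hD2 x
      refine ⟨t, ?_⟩
      rw [en_subK, en_Vt]
      have h2 := en_KR_le hR0 hl0 ((t : ℕ) * (D : ℝ)) x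
      have h3 : J * en (KR R) x ≤ J * q / l ^ 3 * en (cc l ((t : ℕ) * D)) x := by
        have := mul_le_mul_of_nonneg_left h2 hJ.le
        rw [← hqdef] at this
        calc J * en (KR R) x ≤ _ := this
          _ = _ := by ring
      have h4 : 3 * C / M * en (cc (1 / 2) 0) x ≤ θ * (m / 2) * en (cc (1 / 2) 0) x :=
        mul_le_mul_of_nonneg_right hM2 (en_cc_nonneg _ _ _)
      rw [← hl] at ht
      linarith
    refine h1.trans ?_
    rw [tsum_fintype]
    have h2 : ∀ t : Fin M, ENNReal.ofReal (Real.exp 0)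
          * Xi (Vt V l ((t : ℕ) * D) (θ * (m / 2)) (J * q / l ^ 3)) μ (box L)
        ≤ ENNReal.ofReal (Real.exp ((g + ε) * (L + 2 * l) ^ 3)) := by
      intro t
      rw [Real.exp_zero, ENNReal.ofReal_one, one_mul]
      refine big_cube hM1 hD1 t.2 hV hG hL fun v => ?_
      exact cube_bound hV hJ (by linarith) hl1 hq1 hθ0.le hθ1 hθ0 hκ0 hg0 hg hBtot hκ1 hκ2 hlκ hlε v
    refine (Finset.sum_le_sum fun t _ => h2 t).trans ?_
    rw [Finset.sum_const, Finset.card_univ, Fintype.card_fin, nsmul_eq_mul, Real.exp_add,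
      ENNReal.ofReal_mul (Real.exp_pos _).le, Real.exp_log (by linarith), ENNReal.ofReal_natCast]
  have hlim : Tendsto (fun L : ℝ => (Real.log M + (g + ε) * (L + 2 * l) ^ 3) / L ^ 3) atTop
      (𝓝 (0 + (g + ε))) := by
    have h1 : Tendsto (fun L : ℝ => Real.log M / L ^ 3) atTop (𝓝 0) :=
      tendsto_const_nhds.div_atTop (tendsto_pow_atTop (by norm_num))
    refine (h1.add (tendsto_cube (g + ε) (2 * l))).congr fun L => ?_
    rw [← add_div]
  rw [zero_add] at hlim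
  refine le_of_tendsto_of_tendsto (hVR.tendsto μ) hlim ?_
  filter_upwards [eventually_gt_atTop 0] with L hL
  exact div_le_div_of_nonneg_right (hfin L hL) (by positivity)

end Vale.Agent.P171
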