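import Vale.Agent.P171.Pressure

open MeasureTheory Set Filter Topology
open scoped ENNReal BigOperators

namespace Vale.Agent.P171

/-- `V` minus an attractive kernel. -/
noncomputable def subK (V : E → E → ℝ) (J R : ℝ) (x y : E) : ℝ := V x y - J * KR R x y

lemma en_subK {n : ℕ} (V : E → E → ℝ) (J R : ℝ) (x : Fin n → E) :
    en (subK V J R) x = en V x - J * en (KR R) x := by
  simp only [en, subK, Finset.sum_sub_distrib, Finset.mul_sum]

lemma en_cc_nonneg {n : ℕ} (h o : ℝ) (x : Fin n → E) : 0 ≤ en (cc h o) x :=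
  Finset.sum_nonneg fun _ _ => Finset.sum_nonneg fun _ _ => cc_nonneg _ _ _ _

lemma en_KR_le64 {n : ℕ} {R : ℝ} (hR : 1 ≤ R) (x : Fin n → E) :
    en (KR R) x ≤ 64 * en (cc (1 / 2) 0) x := by
  have h := en_KR_le (R := R) (h := 1 / 2) (by linarith) (by norm_num) 0 x
  refine h.trans (mul_le_mul_of_nonneg_right ?_ (en_cc_nonneg _ _ _))
  have hR0 : 0 < R := by linarith
  have h1 : (R + 2 * (1 / 2)) / R ≤ 2 := by
    rw [div_le_iff₀ hR0]; linarith
  have h2 : 0 ≤ (R + 2 * (1 / 2)) / R := by positivity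
  have h3 : ((R + 2 * (1 / 2)) / R) ^ 3 ≤ 2 ^ 3 := pow_le_pow_left₀ h2 h1 3
  rw [div_le_iff₀ (by norm_num)]
  linarith

lemma Stab.mono {V : E → E → ℝ} {m m' : ℝ} (h : Stab V m) (hm : m' ≤ m) : Stab V m' :=
  fun n x => (mul_le_mul_of_nonneg_right hm (en_cc_nonneg _ _ _)).trans (h n x)

lemma Adm.subK {V : E → E → ℝ} {m J R : ℝ} (hV : Adm V m) (hJ : 0 ≤ J) (hR : 1 ≤ R)
    {m' : ℝ} (hm' : 0 < m') (hm : m' + 64 * J ≤ m) : Adm (subK V J R) m' where
  meas := by
    have : Function.uncurry (Vale.Agent.P171.subK V J R)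
        = fun p => Function.uncurry V p - J * Function.uncurry (KR R) p := rfl
    rw [this]
    exact hV.meas.sub ((measurable_KR R).const_mul J)
  trans := by
    intro a x y
    simp only [Vale.Agent.P171.subK, hV.trans, KR_add]
  nonpos := by
    intro x y h
    have h1 := hV.nonpos x y h
    have h2 := mul_nonneg hJ (KR_nonneg R x y)
    simp only [Vale.Agent.P171.subK]
    linarith
  mpos := hm'
  stab := by
    intro n x
    rw [en_subK]
    have h1 := hV.stab n x
    have h2 := mul_le_mul_of_nonneg_left (en_KR_le64 hR x) hJ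
    have h3 := en_cc_nonneg (1 / 2) 0 x
    nlinarith

lemma tendsto_cube (c k : ℝ) :
    Tendsto (fun L : ℝ => c * (L + k) ^ 3 / L ^ 3) atTop (𝓝 c) := by
  have h1 : Tendsto (fun L : ℝ => c * (1 + k / L) ^ 3) atTop (𝓝 (c * (1 + 0) ^ 3)) := by
    refine Tendsto.const_mul _ (Tendsto.pow (Tendsto.add tendsto_const_nhds ?_) 3)
    exact tendsto_const_nhds.div_atTop tendsto_id
  rw [add_zero, one_pow, mul_one] at h1
  refine h1.congr' ?_
  filter_upwards [eventually_gt_atTop 0] with L hL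
  field_simp

/-- Lower bound for the pressure with an additional attraction. -/
lemma Pr_subK_ge {V : E → E → ℝ} {m m' J R : ℝ} (hV : Adm V m) (hV' : Adm (subK V J R) m')
    (hJ : 0 < J) (hR : 0 < R) (μ s : ℝ) :
    Pr V (μ + s) - s ^ 2 / (2 * J) ≤ Pr (subK V J R) μ := by
  have h := Pr_le_of hV hV' (μ := μ + s) (μ' := μ)
    (fun L => s ^ 2 / (2 * J) * (L + 2 * R) ^ 3) (tendsto_cube (s ^ 2 / (2 * J)) (2 * R)) ?_
  · linarith
  · filter_upwards [eventually_gt_atTop 0] with L hL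
    refine hV.lg_le_of hL.le ?_
    have h1 : Xi V (μ + s) (box L)
        ≤ ENNReal.ofReal (Real.exp (s ^ 2 / (2 * J) * (L + 2 * R) ^ 3))
          * Xi (subK V J R) μ (box L) := by
      refine Xi_le_mul (measurableSet_box L) _ fun n x hx => ?_
      have h2 := en_KR_ge hR hL.le x hx (s * bv R / J)
      have hb := bv_pos hR
      have h3 : (2 * (s * bv R / J) * n * bv R - (s * bv R / J) ^ 2 * (L + 2 * R) ^ 3) / bv R ^ 2
          = 2 * s * n / J - s ^ 2 * (L + 2 * R) ^ 3 / J ^ 2 := by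
        field_simp
      rw [h3] at h2
      rw [en_subK]
      have h4 : J / 2 * (2 * s * n / J - s ^ 2 * (L + 2 * R) ^ 3 / J ^ 2)
          ≤ J / 2 * en (KR R) x := mul_le_mul_of_nonneg_left h2 (by positivity)
      have h5 : J / 2 * (2 * s * n / J - s ^ 2 * (L + 2 * R) ^ 3 / J ^ 2)
          = s * n - s ^ 2 / (2 * J) * (L + 2 * R) ^ 3 := by
        field_simp
      rw [h5] at h4
      linarith
    rw [hV'.Xi_eq μ hL.le, ← ENNReal.ofReal_mul (Real.exp_pos _).le, ← Real.exp_add] at h1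
    rw [add_comm (lg (subK V J R) μ L)]
    exact h1

end Vale.Agent.P171
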