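import Vale.Agent.P171.Lower

open MeasureTheory Set Filter Topology
open scoped ENNReal BigOperators

namespace Vale.Agent.P171

lemma floor_offset {M D : ℝ} {Mz : ℤ} (hM : (Mz : ℝ) = M) (hMp : 0 < Mz) (hD : 0 < D) (t : ℤ)
    (a : ℝ) : ⌊(a - t * D) / (M * D)⌋ = (⌊a / D⌋ - t) / Mz := by
  have hM0 : 0 < M := by rw [← hM]; exact_mod_cast hMp
  refine eq_of_forall_le_iff fun k => ?_
  rw [Int.le_floor, Int.le_ediv_iff_mul_le hMp, le_div_iff₀ (by positivity)]
  have h1 : (k : ℝ) * (M * D) ≤ a - t * D ↔ ((k * Mz + t : ℤ) : ℝ) ≤ a / D := by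
    rw [le_div_iff₀ hD]
    push_cast
    rw [hM]
    constructor <;> intro h <;> nlinarith
  rw [h1, ← Int.le_floor]
  constructor <;> intro h <;> linarith

lemma ediv_succ_ne {M n : ℤ} (hM : 0 < M) (h : n / M ≠ (n + 1) / M) : M ∣ n + 1 := by
  by_contra hnd
  apply h
  have h1 := Int.emod_add_mul_ediv n M
  have h2 := Int.emod_nonneg n hM.ne'
  have h3 := Int.emod_lt_of_pos n hM
  have h4 : n % M + 1 ≠ M := by
    intro h5
    apply hnd
    refine ⟨n / M + 1, ?_⟩
    linarith
  have h5 : n % M + 1 < M := by omega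
  symm
  rw [Int.ediv_eq_iff_of_pos hM]
  constructor
  · nlinarith
  · nlinarith

lemma count_one {M : ℕ} (p q : ℤ) (hpq : |p - q| ≤ 1) :
    ((Finset.range M).filter fun t : ℕ => (p - t) / (M : ℤ) ≠ (q - t) / (M : ℤ)).card ≤ 1 := by
  rw [Finset.card_le_one]
  intro t ht t' ht'
  rw [Finset.mem_filter, Finset.mem_range] at ht ht'
  have hM : (0 : ℤ) < M := by
    have := ht.1
    omega
  have key : ∀ a b : ℤ, b = a + 1 → (a - t) / (M : ℤ) ≠ (b - t) / (M : ℤ) →
      (a - t') / (M : ℤ) ≠ (b - t') / (M : ℤ) → t = t' := by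
    intro a b hb h1 h2
    have e1 : b - (t : ℤ) = (a - t) + 1 := by rw [hb]; ring
    have e2 : b - (t' : ℤ) = (a - t') + 1 := by rw [hb]; ring
    rw [e1] at h1
    rw [e2] at h2
    have d1 := ediv_succ_ne hM h1
    have d2 := ediv_succ_ne hM h2
    have d3 := dvd_sub d1 d2
    have e3 : (a - (t : ℤ) + 1) - (a - t' + 1) = (t' : ℤ) - t := by ring
    rw [e3] at d3
    have h4 : |(t' : ℤ) - t| < M := by
      rw [abs_lt]
      have := ht.1
      have := ht'.1
      constructor <;> omega
    have := Int.eq_zero_of_abs_lt_dvd d3 h4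
    omega
  rw [abs_le] at hpq
  rcases lt_trichotomy p q with h | h | h
  · exact key p q (by omega) ht.2 ht'.2
  · exact absurd (by rw [h]) ht.2
  · exact key q p (by omega) ht.2.symm ht'.2.symm

/-- At most three of the offset grids separate two close points. -/
lemma count_sep {M : ℕ} {D : ℝ} (hD : 0 < D) {x y : E} (hxy : dist x y < D) :
    ((Finset.range M).filter fun t : ℕ =>
      cell (M * D) (t * D) x ≠ cell (M * D) (t * D) y).card ≤ 3 := by
  classical
  rcases Nat.eq_zero_or_pos M with rfl | hM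
  · simp
  have hsub : ((Finset.range M).filter fun t : ℕ =>
      cell (M * D) (t * D) x ≠ cell (M * D) (t * D) y)
      ⊆ (Finset.univ : Finset (Fin 3)).biUnion fun i => (Finset.range M).filter fun t : ℕ =>
        (⌊x i / D⌋ - t) / (M : ℤ) ≠ (⌊y i / D⌋ - t) / (M : ℤ) := by
    intro t ht
    rw [Finset.mem_filter] at ht
    obtain ⟨i, hi⟩ := Function.ne_iff.mp ht.2
    rw [Finset.mem_biUnion]
    refine ⟨i, Finset.mem_univ i, ?_⟩
    rw [Finset.mem_filter]
    refine ⟨ht.1, ?_⟩
    unfold cell at hi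
    have e1 := floor_offset (M := (M : ℝ)) (Mz := (M : ℤ)) (by simp) (by exact_mod_cast hM) hD
      (t : ℤ) (x i)
    have e2 := floor_offset (M := (M : ℝ)) (Mz := (M : ℤ)) (by simp) (by exact_mod_cast hM) hD
      (t : ℤ) (y i)
    simp only [Int.cast_natCast] at e1 e2
    rw [← e1, ← e2]
    exact hi
  refine (Finset.card_le_card hsub).trans (Finset.card_biUnion_le.trans ?_)
  calc ∑ i : Fin 3, ((Finset.range M).filter fun t : ℕ =>
        (⌊x i / D⌋ - t) / (M : ℤ) ≠ (⌊y i / D⌋ - t) / (M : ℤ)).card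
      ≤ ∑ i : Fin 3, 1 := by
        refine Finset.sum_le_sum fun i _ => count_one _ _ ?_
        have h1 : |x i - y i| ≤ dist x y := by
          rw [EuclideanSpace.dist_eq, ← Real.dist_eq]
          refine Real.le_sqrt_of_sq_le ?_
          exact Finset.single_le_sum (f := fun k => dist (x k) (y k) ^ 2)
            (fun _ _ => sq_nonneg _) (Finset.mem_univ i)
        have h2 : |x i / D - y i / D| < 1 := by
          rw [← sub_div, abs_div, abs_of_pos hD, div_lt_one hD]
          linarith
        rw [abs_lt] at h2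
        have f1 := Int.floor_le (x i / D)
        have f2 := Int.lt_floor_add_one (x i / D)
        have f3 := Int.floor_le (y i / D)
        have f4 := Int.lt_floor_add_one (y i / D)
        rw [abs_le]
        constructor
        · have : ((⌊y i / D⌋ : ℝ)) < ⌊x i / D⌋ + 2 := by linarith
          have : (⌊y i / D⌋ : ℤ) < ⌊x i / D⌋ + 2 := by exact_mod_cast this
          omega
        · have : ((⌊x i / D⌋ : ℝ)) < ⌊y i / D⌋ + 2 := by linarith
          have : (⌊x i / D⌋ : ℤ) < ⌊y i / D⌋ + 2 := by exact_mod_cast this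
          omega
    _ = 3 := by simp

/-- Finite range bound on the attraction. -/
structure FinRange (V a : E → E → ℝ) (r C : ℝ) : Prop where
  nonneg : ∀ x y, 0 ≤ a x y
  le : ∀ x y, - a x y ≤ V x y
  range : ∀ x y, r ≤ dist x y → a x y = 0
  bound : ∀ (n : ℕ) (x : Fin n → E), en a x ≤ C * en (cc (1 / 2) 0) x

/-- Some offset grid cuts only a small part of the attraction. -/
lemma exists_offset {V a : E → E → ℝ} {r C : ℝ} (hfr : FinRange V a r C) {M : ℕ} (hM : 0 < M)
    {D : ℝ} (hD : 0 < D) (hr : r ≤ D) {n : ℕ} (x : Fin n → E) :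
    ∃ t : Fin M, en (dec (M * D) ((t : ℕ) * D) V) x - 3 * C / M * en (cc (1 / 2) 0) x
      ≤ en V x := by
  classical
  set cr : ℕ → ℝ := fun t => en a x - en (dec (M * D) (t * D) a) x with hcr
  have hsum : ∑ t ∈ Finset.range M, cr t ≤ 3 * en a x := by
    have h1 : ∀ t, cr t = ∑ i, ∑ j, (a (x i) (x j) - dec (M * D) (t * D) a (x i) (x j)) := by
      intro t
      simp only [hcr, en, Finset.sum_sub_distrib]
    simp only [h1]
    rw [Finset.sum_comm]
    unfold en
    rw [Finset.mul_sum]
    refine Finset.sum_le_sum fun i _ => ?_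
    rw [Finset.sum_comm, Finset.mul_sum]
    refine Finset.sum_le_sum fun j _ => ?_
    by_cases hd : dist (x i) (x j) < D
    · have h2 : ∀ t ∈ Finset.range M, a (x i) (x j) - dec (M * D) (t * D) a (x i) (x j)
          = if cell (M * D) (t * D) (x i) ≠ cell (M * D) (t * D) (x j) then a (x i) (x j) else 0 := by
        intro t _
        unfold dec
        by_cases hc : cell (M * D) (t * D) (x i) = cell (M * D) (t * D) (x j)
        · simp [hc]
        · simp [hc]
      rw [Finset.sum_congr rfl h2, ← Finset.sum_filter, Finset.sum_const, nsmul_eq_mul]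
      refine mul_le_mul_of_nonneg_right ?_ (hfr.nonneg _ _)
      exact_mod_cast count_sep hD hd
    · have ha : a (x i) (x j) = 0 := hfr.range _ _ (hr.trans (not_lt.mp hd))
      have h2 : ∀ t ∈ Finset.range M, a (x i) (x j) - dec (M * D) (t * D) a (x i) (x j) = 0 := by
        intro t _
        unfold dec
        simp [ha]
      rw [Finset.sum_congr rfl h2, ha]
      simp
  have hMr : (0 : ℝ) < M := by exact_mod_cast hM
  have hex : ∃ t ∈ Finset.range M, cr t ≤ 3 * en a x / M := by
    by_contra hcon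
    push_neg at hcon
    have h3 := Finset.sum_lt_sum_of_nonempty (by simpa using hM.ne') hcon
    rw [Finset.sum_const, Finset.card_range, nsmul_eq_mul] at h3
    have h4 : (M : ℝ) * (3 * en a x / M) = 3 * en a x := by field_simp
    linarith
  obtain ⟨t, ht, htc⟩ := hex
  refine ⟨⟨t, Finset.mem_range.mp ht⟩, ?_⟩
  simp only
  have h5 : en (dec (M * D) (t * D) V) x - cr t ≤ en V x := by
    simp only [hcr]
    have : en (dec (M * D) (t * D) V) x - (en a x - en (dec (M * D) (t * D) a) x)
        = ∑ i, ∑ j, (dec (M * D) (t * D) V (x i) (x j)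
          - (a (x i) (x j) - dec (M * D) (t * D) a (x i) (x j))) := by
      simp only [en, Finset.sum_sub_distrib]
    rw [this]
    unfold en
    refine Finset.sum_le_sum fun i _ => Finset.sum_le_sum fun j _ => ?_
    unfold dec
    split_ifs with hc
    · linarith
    · have := hfr.le (x i) (x j)
      linarith
  have h6 : 3 * en a x / M ≤ 3 * C / M * en (cc (1 / 2) 0) x := by
    have := hfr.bound n x
    rw [div_mul_eq_mul_div]
    refine div_le_div_of_nonneg_right ?_ hMr.le
    linarith
  linarith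

/-- Cells of the half-unit grid are contained in the cells of an integer grid. -/
lemma cell_half_imp {M D t : ℕ} (hM : 0 < M) (hD : 0 < D) {x y : E}
    (hxy : cell (1 / 2) 0 x = cell (1 / 2) 0 y) :
    cell ((M : ℝ) * D) ((t : ℝ) * D) x = cell ((M : ℝ) * D) ((t : ℝ) * D) y := by
  have hMD : (0 : ℝ) < (M : ℝ) * D := by positivity
  funext i
  have h1 := congrFun hxy i
  unfold cell at h1 ⊢
  refine eq_of_forall_le_iff fun k => ?_
  rw [Int.le_floor, Int.le_floor, le_div_iff₀ hMD, le_div_iff₀ hMD]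
  have key : ∀ a : ℝ, (k : ℝ) * ((M : ℝ) * D) ≤ a - t * D
      ↔ 2 * (k * (M * D) + t * D) ≤ ⌊(a - 0) / (1 / 2)⌋ := by
    intro a
    rw [Int.le_floor]
    push_cast
    rw [le_div_iff₀ (by norm_num)]
    constructor <;> intro h <;> linarith
  rw [key, key, h1]

end Vale.Agent.P171
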