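import Vale.Agent.P171.Kernel

open MeasureTheory Set Filter Topology
open scoped ENNReal BigOperators

namespace Vale.Agent.P171

/-- Admissible interactions. -/
structure Adm (V : E → E → ℝ) (m : ℝ) : Prop where
  meas : Measurable (Function.uncurry V)
  trans : ∀ a x y, V (x + a) (y + a) = V x y
  nonpos : ∀ x y, 1 ≤ dist x y → V x y ≤ 0
  mpos : 0 < m
  stab : Stab V m

/-- Logarithm of the partition function in the cube. -/
noncomputable def lg (V : E → E → ℝ) (μ L : ℝ) : ℝ := Real.log (Xi V μ (box L)).toReal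

/-- The pressure. -/
noncomputable def Pr (V : E → E → ℝ) (μ : ℝ) : ℝ :=
  sSup ((fun l => lg V μ l / (l + 1) ^ 3) '' Ioi 0)

/-- Interaction restricted to pairs in the same grid cell. -/
noncomputable def dec (h o : ℝ) (V : E → E → ℝ) (x y : E) : ℝ :=
  if cell h o x = cell h o y then V x y else 0

lemma measurable_dec (h o : ℝ) {V : E → E → ℝ} (hV : Measurable (Function.uncurry V)) :
    Measurable (Function.uncurry (dec h o V)) := by
  unfold dec Function.uncurry
  refine Measurable.ite ?_ hV measurable_const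
  exact measurableSet_eq_fun ((measurable_cell h o).comp measurable_fst)
    ((measurable_cell h o).comp measurable_snd)

lemma Xi_translate {V : E → E → ℝ} (hV : Measurable (Function.uncurry V))
    (ht : ∀ a x y, V (x + a) (y + a) = V x y) (μ : ℝ) (a : E) {Λ : Set E}
    (hΛ : MeasurableSet Λ) : Xi V μ ((fun x => x + a) ⁻¹' Λ) = Xi V μ Λ :=
  Xi_preimage (fun x => x + a) (measurePreserving_add_right volume a) (fun x y => ht a x y) hV μ hΛ

section
variable {V : E → E → ℝ} {m : ℝ}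

lemma Adm.Xi_rect_le (hV : Adm V m) (μ : ℝ) {Λ : Set E} (hΛ : MeasurableSet Λ)
    (a : Fin 3 → ℝ) {L : ℝ} (hsub : Λ ⊆ {x : E | ∀ i, x i ∈ Icc (a i) (a i + L)}) :
    Xi V μ Λ ≤ Xi V μ (box L) := by
  have h1 : {x : E | ∀ i, x i ∈ Icc (a i) (a i + L)}
      = (fun x => x + (WithLp.toLp 2 fun i => - a i : E)) ⁻¹' (box L) := by
    ext x
    simp only [box, mem_setOf_eq, mem_preimage, PiLp.add_apply, mem_Icc]
    refine forall_congr' fun i => ?_
    constructor
    · rintro ⟨h1, h2⟩; constructor <;> linarith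
    · rintro ⟨h1, h2⟩; constructor <;> linarith
  calc Xi V μ Λ ≤ Xi V μ {x : E | ∀ i, x i ∈ Icc (a i) (a i + L)} := Xi_mono_set hsub
    _ = Xi V μ (box L) := by
      rw [h1]
      exact Xi_translate hV.meas hV.trans μ _ (measurableSet_box L)

lemma Adm.growth (hV : Adm V m) (μ : ℝ) {L : ℝ} (hL : 0 ≤ L) :
    Xi V μ (box L) ≤ ENNReal.ofReal (Real.exp ((2 * L + 2) ^ 3 * μ ^ 2 / (2 * m) + L ^ 3)) := by
  refine Xi_growth hV.mpos hV.stab μ (measurableSet_box L) (fun _ => 0) hL ?_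
  intro x hx i
  simpa using hx i

lemma Adm.ne_top (hV : Adm V m) (μ : ℝ) {L : ℝ} (hL : 0 ≤ L) : Xi V μ (box L) ≠ ⊤ :=
  ne_top_of_le_ne_top ENNReal.ofReal_ne_top (hV.growth μ hL)

lemma Adm.one_le_toReal (hV : Adm V m) (μ : ℝ) {L : ℝ} (hL : 0 ≤ L) :
    1 ≤ (Xi V μ (box L)).toReal := by
  have := ENNReal.toReal_mono (hV.ne_top μ hL) (one_le_Xi V μ (box L))
  simpa using this

lemma Adm.lg_nonneg (hV : Adm V m) (μ : ℝ) {L : ℝ} (hL : 0 ≤ L) : 0 ≤ lg V μ L :=
  Real.log_nonneg (hV.one_le_toReal μ hL)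

lemma Adm.Xi_eq (hV : Adm V m) (μ : ℝ) {L : ℝ} (hL : 0 ≤ L) :
    Xi V μ (box L) = ENNReal.ofReal (Real.exp (lg V μ L)) := by
  unfold lg
  rw [Real.exp_log (lt_of_lt_of_le one_pos (hV.one_le_toReal μ hL)),
    ENNReal.ofReal_toReal (hV.ne_top μ hL)]

lemma Adm.lg_le_of (hV : Adm V m) {μ L c : ℝ} (hL : 0 ≤ L)
    (h : Xi V μ (box L) ≤ ENNReal.ofReal (Real.exp c)) : lg V μ L ≤ c := by
  rw [hV.Xi_eq μ hL] at h
  have := (ENNReal.ofReal_le_ofReal_iff (Real.exp_pos _).le).mp h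
  exact Real.exp_le_exp.mp this

lemma Adm.le_lg_of (hV : Adm V m) {μ L c : ℝ} (hL : 0 ≤ L)
    (h : ENNReal.ofReal (Real.exp c) ≤ Xi V μ (box L)) : c ≤ lg V μ L := by
  rw [hV.Xi_eq μ hL] at h
  have := (ENNReal.ofReal_le_ofReal_iff (Real.exp_pos _).le).mp h
  exact Real.exp_le_exp.mp this

lemma Adm.lg_growth (hV : Adm V m) (μ : ℝ) {L : ℝ} (hL : 0 ≤ L) :
    lg V μ L ≤ (2 * L + 2) ^ 3 * μ ^ 2 / (2 * m) + L ^ 3 :=
  hV.lg_le_of hL (hV.growth μ hL)

lemma Adm.ratio_le (hV : Adm V m) (μ : ℝ) {l : ℝ} (hl : 0 < l) :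
    lg V μ l / (l + 1) ^ 3 ≤ 4 * μ ^ 2 / m + 1 := by
  have h1 := hV.lg_growth μ hl.le
  have hm := hV.mpos
  rw [div_le_iff₀ (by positivity)]
  refine h1.trans ?_
  have e1 : (2 * l + 2) ^ 3 * μ ^ 2 / (2 * m) = 4 * μ ^ 2 / m * (l + 1) ^ 3 := by
    field_simp
    ring
  rw [e1]
  have e2 : l ^ 3 ≤ (l + 1) ^ 3 := pow_le_pow_left₀ hl.le (by linarith) 3
  linarith

lemma Adm.bdd (hV : Adm V m) (μ : ℝ) : BddAbove ((fun l => lg V μ l / (l + 1) ^ 3) '' Ioi 0) := by
  refine ⟨4 * μ ^ 2 / m + 1, ?_⟩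
  rintro _ ⟨l, hl, rfl⟩
  exact hV.ratio_le μ hl

lemma ratio_nonempty (V : E → E → ℝ) (μ : ℝ) :
    ((fun l => lg V μ l / (l + 1) ^ 3) '' Ioi 0).Nonempty :=
  ⟨_, 1, mem_Ioi.mpr one_pos, rfl⟩

lemma Adm.Pr_growth (hV : Adm V m) (μ : ℝ) : Pr V μ ≤ 4 * μ ^ 2 / m + 1 := by
  refine csSup_le (ratio_nonempty V μ) ?_
  rintro _ ⟨l, hl, rfl⟩
  exact hV.ratio_le μ hl

lemma Adm.ratio_le_Pr (hV : Adm V m) (μ : ℝ) {l : ℝ} (hl : 0 < l) :
    lg V μ l / (l + 1) ^ 3 ≤ Pr V μ :=
  le_csSup (hV.bdd μ) ⟨l, hl, rfl⟩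

lemma Adm.lg_le_Pr (hV : Adm V m) (μ : ℝ) {l : ℝ} (hl : 0 < l) :
    lg V μ l ≤ (l + 1) ^ 3 * Pr V μ := by
  have h := hV.ratio_le_Pr μ hl
  rw [div_le_iff₀ (by positivity)] at h
  linarith

lemma Adm.Pr_nonneg (hV : Adm V m) (μ : ℝ) : 0 ≤ Pr V μ :=
  le_trans (div_nonneg (hV.lg_nonneg μ zero_le_one) (by norm_num))
    (hV.ratio_le_Pr μ (l := 1) one_pos)

/-- Superadditivity. -/
lemma Adm.superadd (hV : Adm V m) (μ : ℝ) {l L : ℝ} (hl : 0 < l) (k : ℕ)
    (hL : k * (l + 1) ≤ L) : (k : ℝ) ^ 3 * lg V μ l ≤ lg V μ L := by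
  have hL0 : 0 ≤ L := le_trans (by positivity) hL
  have hl1 : 0 < l + 1 := by linarith
  set B : (Fin 3 → ℤ) → Set E :=
    fun v => {x : E | ∀ i, x i ∈ Icc ((fun i => (l + 1) * (v i : ℝ)) i)
      ((fun i => (l + 1) * (v i : ℝ)) i + l)} with hB
  have hBm : ∀ v, MeasurableSet (B v) := fun v => measurableSet_rect _ l
  have hBc : ∀ v, ∀ x ∈ B v, cell (l + 1) 0 x = v := by
    intro v x hx
    rw [cell_eq_iff hl1]
    intro i
    have := hx i
    rw [mem_Icc] at this
    rw [mem_Ico]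
    constructor
    · simpa using this.1
    · have := this.2
      simp only at this
      linarith
  set s : Finset (Fin 3 → ℤ) := Fintype.piFinset fun _ => Finset.Ico 0 (k : ℤ) with hs
  have hcard : s.card = k ^ 3 := by
    rw [hs, Fintype.card_piFinset]
    simp
  have hdecm := measurable_dec (l + 1) 0 hV.meas
  have hsub : (⋃ v ∈ s, B v) ⊆ box L := by
    intro x hx
    simp only [mem_iUnion] at hx
    obtain ⟨v, hv, hxv⟩ := hx
    intro i
    have hvi : 0 ≤ v i ∧ v i < k := by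
      have := Fintype.mem_piFinset.mp hv i
      exact Finset.mem_Ico.mp this
    have h1 : (0 : ℝ) ≤ v i := by exact_mod_cast hvi.1
    have h2 : (v i : ℝ) + 1 ≤ k := by exact_mod_cast hvi.2
    have h3 := hxv i
    rw [mem_Icc] at h3 ⊢
    simp only at h3
    constructor
    · have : 0 ≤ (l + 1) * (v i : ℝ) := by positivity
      linarith [h3.1]
    · have : (l + 1) * ((v i : ℝ) + 1) ≤ (l + 1) * k := mul_le_mul_of_nonneg_left h2 hl1.le
      nlinarith [h3.2]
  have hUm : MeasurableSet (⋃ v ∈ s, B v) := Finset.measurableSet_biUnion s fun v _ => hBm v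
  have step1 : Xi (dec (l + 1) 0 V) μ (⋃ v ∈ s, B v) ≤ Xi V μ (⋃ v ∈ s, B v) := by
    refine Xi_mono hUm fun n x hx => ?_
    have : en V x ≤ en (dec (l + 1) 0 V) x := by
      unfold en
      refine Finset.sum_le_sum fun i _ => Finset.sum_le_sum fun j _ => ?_
      unfold dec
      split_ifs with hc
      · exact le_rfl
      · have hxi := hx i
        have hxj := hx j
        simp only [mem_iUnion] at hxi hxj
        obtain ⟨v, hv, hxv⟩ := hxi
        obtain ⟨w, hw, hxw⟩ := hxj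
        have hne : v ≠ w := by
          rintro rfl
          exact hc ((hBc v _ hxv).trans (hBc v _ hxw).symm)
        obtain ⟨t, ht⟩ := Function.ne_iff.mp hne
        apply hV.nonpos
        have h1 : |x i t - x j t| ≤ dist (x i) (x j) := by
          rw [EuclideanSpace.dist_eq, ← Real.dist_eq]
          refine Real.le_sqrt_of_sq_le ?_
          exact Finset.single_le_sum (f := fun k => dist (x i k) (x j k) ^ 2)
            (fun _ _ => sq_nonneg _) (Finset.mem_univ t)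
        refine le_trans ?_ h1
        have hvt := hxv t
        have hwt := hxw t
        rw [mem_Icc] at hvt hwt
        simp only at hvt hwt
        rcases lt_or_gt_of_ne ht with h | h
        · have h2 : (v t : ℝ) + 1 ≤ w t := by exact_mod_cast h
          have h3 : (l + 1) * ((v t : ℝ) + 1) ≤ (l + 1) * w t := mul_le_mul_of_nonneg_left h2 hl1.le
          rw [abs_sub_comm]
          refine le_trans ?_ (le_abs_self _)
          nlinarith [hvt.2, hwt.1]
        · have h2 : (w t : ℝ) + 1 ≤ v t := by exact_mod_cast h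
          have h3 : (l + 1) * ((w t : ℝ) + 1) ≤ (l + 1) * v t := mul_le_mul_of_nonneg_left h2 hl1.le
          refine le_trans ?_ (le_abs_self _)
          nlinarith [hwt.2, hvt.1]
    linarith
  have step2 : Xi (dec (l + 1) 0 V) μ (⋃ v ∈ s, B v)
      = ∏ v ∈ s, Xi (dec (l + 1) 0 V) μ (B v) := by
    refine Xi_biUnion _ hdecm μ s B hBm ?_ ?_
    · intro v w hne
      rw [Set.disjoint_left]
      intro x hx hx'
      exact hne ((hBc v x hx).symm.trans (hBc w x hx'))
    · intro v w hne x hx y hy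
      unfold dec
      rw [if_neg]
      rw [hBc v x hx, hBc w y hy]
      exact hne
  have step3 : ∀ v ∈ s, Xi V μ (box l) ≤ Xi (dec (l + 1) 0 V) μ (B v) := by
    intro v _
    have e1 : Xi V μ (B v) ≤ Xi (dec (l + 1) 0 V) μ (B v) := by
      refine Xi_mono (hBm v) fun n x hx => ?_
      have : en (dec (l + 1) 0 V) x = en V x := by
        unfold en
        refine Finset.sum_congr rfl fun i _ => Finset.sum_congr rfl fun j _ => ?_
        unfold dec
        rw [if_pos]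
        rw [hBc v _ (hx i), hBc v _ (hx j)]
      rw [this]
    refine le_trans ?_ e1
    have e2 : box l = (fun x => x + (WithLp.toLp 2 fun i => (l + 1) * (v i : ℝ) : E)) ⁻¹' (B v) := by
      ext x
      simp only [box, hB, mem_setOf_eq, mem_preimage, PiLp.add_apply, mem_Icc]
      refine forall_congr' fun i => ?_
      constructor
      · rintro ⟨h1, h2⟩; constructor <;> linarith
      · rintro ⟨h1, h2⟩; constructor <;> linarith
    rw [e2, Xi_translate hV.meas hV.trans μ _ (hBm v)]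
  have step4 : Xi V μ (box l) ^ (k ^ 3) ≤ Xi V μ (box L) := by
    calc Xi V μ (box l) ^ (k ^ 3) = ∏ v ∈ s, Xi V μ (box l) := by
          rw [Finset.prod_const, hcard]
      _ ≤ ∏ v ∈ s, Xi (dec (l + 1) 0 V) μ (B v) := Finset.prod_le_prod' step3
      _ = _ := step2.symm
      _ ≤ _ := step1
      _ ≤ _ := Xi_mono_set hsub
  refine hV.le_lg_of hL0 ?_
  rw [hV.Xi_eq μ hl.le, ← ENNReal.ofReal_pow (Real.exp_pos _).le, ← Real.exp_nat_mul] at step4
  push_cast at step4
  exact step4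

lemma Adm.tendsto (hV : Adm V m) (μ : ℝ) :
    Tendsto (fun L => lg V μ L / L ^ 3) atTop (𝓝 (Pr V μ)) := by
  rw [tendsto_order]
  constructor
  · intro a ha
    obtain ⟨_, ⟨l, hl, rfl⟩, hal⟩ := exists_lt_of_lt_csSup (ratio_nonempty V μ) ha
    rw [mem_Ioi] at hl
    simp only at hal
    have hlim : Tendsto (fun L : ℝ => (1 - (l + 1) / L) ^ 3 * (lg V μ l / (l + 1) ^ 3)) atTop
        (𝓝 ((1 - 0) ^ 3 * (lg V μ l / (l + 1) ^ 3))) := by
      refine Tendsto.mul_const _ (Tendsto.pow (Tendsto.sub tendsto_const_nhds ?_) 3)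
      exact tendsto_const_nhds.div_atTop tendsto_id
    have h1 : a < (1 - 0) ^ 3 * (lg V μ l / (l + 1) ^ 3) := by simpa using hal
    filter_upwards [(tendsto_order.1 hlim).1 a h1, eventually_ge_atTop (l + 1)] with L hL1 hL2
    refine lt_of_lt_of_le hL1 ?_
    have hLpos : 0 < L := by linarith
    have hl1 : 0 < l + 1 := by linarith
    set k := ⌊L / (l + 1)⌋₊ with hk
    have hk1 : (k : ℝ) ≤ L / (l + 1) := Nat.floor_le (by positivity)
    have hk2 : L / (l + 1) < k + 1 := Nat.lt_floor_add_one _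
    have hk3 : (k : ℝ) * (l + 1) ≤ L := by
      rw [le_div_iff₀ hl1] at hk1; exact hk1
    have h2 := hV.superadd μ hl k hk3
    rw [le_div_iff₀ (by positivity)]
    refine le_trans ?_ h2
    have h3 : (1 - (l + 1) / L) ^ 3 * (lg V μ l / (l + 1) ^ 3) * L ^ 3
        = (L / (l + 1) - 1) ^ 3 * lg V μ l := by
      field_simp
    rw [h3]
    refine mul_le_mul_of_nonneg_right ?_ (hV.lg_nonneg μ hl.le)
    refine pow_le_pow_left₀ ?_ (by linarith) 3
    rw [sub_nonneg, le_div_iff₀ hl1]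
    linarith
  · intro a ha
    have hlim : Tendsto (fun L : ℝ => (1 + 1 / L) ^ 3 * Pr V μ) atTop
        (𝓝 ((1 + 0) ^ 3 * Pr V μ)) := by
      refine Tendsto.mul_const _ (Tendsto.pow (Tendsto.add tendsto_const_nhds ?_) 3)
      exact tendsto_const_nhds.div_atTop tendsto_id
    have h1 : (1 + 0) ^ 3 * Pr V μ < a := by simpa using ha
    filter_upwards [(tendsto_order.1 hlim).2 a h1, eventually_gt_atTop 0] with L hL1 hL2
    refine lt_of_le_of_lt ?_ hL1
    rw [div_le_iff₀ (by positivity)]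
    have h2 := hV.lg_le_Pr μ hL2
    have h3 : (1 + 1 / L) ^ 3 * Pr V μ * L ^ 3 = (L + 1) ^ 3 * Pr V μ := by
      field_simp
    rw [h3]
    exact h2

/-- Comparison of pressures from a comparison of the finite volume quantities. -/
lemma Pr_le_of {V' : E → E → ℝ} {m' : ℝ} (hV : Adm V m) (hV' : Adm V' m') {μ μ' : ℝ}
    (e : ℝ → ℝ) {c : ℝ} (he : Tendsto (fun L => e L / L ^ 3) atTop (𝓝 c))
    (h : ∀ᶠ L in atTop, lg V μ L ≤ lg V' μ' L + e L) : Pr V μ ≤ Pr V' μ' + c := by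
  refine le_of_tendsto_of_tendsto (hV.tendsto μ) ((hV'.tendsto μ').add he) ?_
  filter_upwards [h, eventually_gt_atTop 0] with L hL hL0
  rw [← add_div]
  exact div_le_div_of_nonneg_right hL (by positivity)

lemma Adm.convex (hV : Adm V m) : ConvexOn ℝ univ (Pr V) := by
  refine ⟨convex_univ, fun μ₁ _ μ₂ _ a b ha hb hab => ?_⟩
  simp only [smul_eq_mul]
  have hlim := ((hV.tendsto μ₁).const_mul a).add ((hV.tendsto μ₂).const_mul b)
  refine le_of_tendsto_of_tendsto (hV.tendsto (a * μ₁ + b * μ₂)) hlim ?_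
  filter_upwards [eventually_gt_atTop 0] with L hL
  have h1 := Xi_holder (V₁ := V) (V₂ := V) hV.meas hV.meas (μ₁ := μ₁) (μ₂ := μ₂)
    (measurableSet_box L) (τ := b) hb (by linarith) (hV.Xi_eq μ₁ hL.le).le (hV.Xi_eq μ₂ hL.le).le
  have h2 : (fun x y => (1 - b) * V x y + b * V x y) = V := by
    funext x y; ring
  have h3 : 1 - b = a := by linarith
  rw [h2, h3] at h1
  have h4 := hV.lg_le_of hL.le h1
  calc lg V (a * μ₁ + b * μ₂) L / L ^ 3 ≤ (a * lg V μ₁ L + b * lg V μ₂ L) / L ^ 3 :=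
        div_le_div_of_nonneg_right h4 (by positivity)
    _ = _ := by ring

end

end Vale.Agent.P171
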