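import Vale.Agent.P171.Base

open MeasureTheory Set Filter Topology
open scoped ENNReal BigOperators

namespace Vale.Agent.P171

/-- coupling constants -/
noncomputable def Jk (k : ℕ) : ℝ := 16384 * (1 / 2) ^ k
/-- limiting stability constant -/
noncomputable def Mc : ℝ := 128 * 16384
noncomputable def mk (k : ℕ) : ℝ := Mc + 128 * 16384 * (1 / 2) ^ k
noncomputable def ak (k : ℕ) : ℝ := 1 / 32 * (1 - (1 / 2) ^ k)
noncomputable def bk (k : ℕ) : ℝ := 1 / 8 - ak k
noncomputable def dk (k : ℕ) : ℝ := (1 / 8) ^ k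
noncomputable def sk (k : ℕ) : ℝ := 1 / 64 * (1 / 2) ^ k

lemma half_pow_pos (k : ℕ) : (0 : ℝ) < (1 / 2) ^ k := by positivity
lemma half_pow_le (k : ℕ) : ((1 : ℝ) / 2) ^ k ≤ 1 := pow_le_one₀ (by norm_num) (by norm_num)

lemma Jk_pos (k : ℕ) : 0 < Jk k := by unfold Jk; positivity
lemma sk_pos (k : ℕ) : 0 < sk k := by unfold sk; positivity
lemma dk_pos (k : ℕ) : 0 < dk k := by unfold dk; positivity
lemma Mc_pos : 0 < Mc := by unfold Mc; norm_num

lemma Jk_le (k : ℕ) : 128 * Jk k ≤ Mc := by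
  unfold Jk Mc
  nlinarith [half_pow_le k]

lemma Mc_le_mk (k : ℕ) : Mc ≤ mk k := by
  unfold mk
  have := half_pow_pos k
  linarith

lemma mk_succ (k : ℕ) : mk (k + 1) + 64 * Jk k = mk k := by
  unfold mk Jk
  rw [pow_succ]
  ring

lemma ak_succ (k : ℕ) : ak (k + 1) = ak k + sk k := by
  unfold ak sk
  rw [pow_succ]
  ring

lemma bk_succ (k : ℕ) : bk (k + 1) = bk k - sk k := by
  unfold bk
  rw [ak_succ]
  ring

lemma ak_le (k : ℕ) : ak k ≤ 1 / 32 := by
  unfold ak
  have := half_pow_pos k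
  linarith

lemma gap_k (k : ℕ) : ak k + sk k < bk k - sk k := by
  have h1 := ak_le (k + 1)
  rw [ak_succ] at h1
  unfold bk
  linarith

lemma delta_k (k : ℕ) : 2 * dk k < Jk k * sk k ^ 2 := by
  have h : Jk k * sk k ^ 2 = 4 * dk k := by
    unfold Jk sk dk
    have e : ((1 : ℝ) / 8) ^ k = (1 / 2) ^ k * ((1 / 2) ^ k * (1 / 2) ^ k) := by
      rw [← mul_pow, ← mul_pow]
      norm_num
    rw [e]
    ring
  rw [h]
  linarith [dk_pos k]

/-- Invariants of the recursion. -/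
def Inv (k : ℕ) (V : E → E → ℝ) (μ : ℝ) : Prop :=
  Adm V (mk k) ∧ (∃ (a : E → E → ℝ) (r C : ℝ), 0 ≤ C ∧ FinRange V a r C) ∧
    NK (Pr V) (ak k) (bk k) (dk k) μ

lemma inv_step (k : ℕ) (V : E → E → ℝ) (μ : ℝ) (h : Inv k V μ) :
    ∃ R μ' : ℝ, 1 ≤ R ∧ Inv (k + 1) (subK V (Jk k) R) μ' := by
  obtain ⟨hV, ⟨a, r, C, hC, hfr⟩, hNK⟩ := h
  have hJ := Jk_pos k
  have hm128 : 128 * Jk k ≤ mk k := (Jk_le k).trans (Mc_le_mk k)
  obtain ⟨Q, μ', hQ1, hQ2, hQ3⟩ := kink hV.convex hV.Pr_nonneg hJ (by linarith) hV.Pr_growth hNK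
    (sk_pos k) (delta_k k) (gap_k k)
  have hev := LP_upper hV hfr hC hJ hm128 (hQ1 μ') (dk_pos (k + 1))
  obtain ⟨R, hR1, hR2⟩ := (hev.and (eventually_ge_atTop 1)).exists
  have hVR : Adm (subK V (Jk k) R) (mk (k + 1)) :=
    hV.subK hJ.le hR2 (lt_of_lt_of_le Mc_pos (Mc_le_mk _)) (mk_succ k).le
  refine ⟨R, μ', hR2, hVR, ⟨_, _, _, ?_, hfr.subK hJ.le hR2⟩, fun ν => ?_⟩
  · linarith
  · have hQle : Q ν ≤ Pr (subK V (Jk k) R) ν := by
      obtain ⟨s, hs⟩ := hQ2 ν
      rw [hs]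
      exact Pr_subK_ge hV hVR hJ (by linarith) ν s
    have h3 := hQ3 ν
    rw [ak_succ, bk_succ]
    constructor
    · linarith [h3.1]
    · linarith [h3.2]

/-- The truncated interactions for a sequence of ranges. -/
noncomputable def VV (R : ℕ → ℝ) : ℕ → E → E → ℝ
  | 0 => rep (mk 0)
  | k + 1 => subK (VV R k) (Jk k) (R k)

lemma exists_ranges : ∃ R μ : ℕ → ℝ, (∀ k, 1 ≤ R k) ∧ ∀ k, Inv k (VV R k) (μ k) := by
  classical
  choose! Rf μf h1 h2 using inv_step
  let st : ℕ → (E → E → ℝ) × ℝ := fun n => Nat.rec (rep (mk 0), mk 0 / 2)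
    (fun k p => (subK p.1 (Jk k) (Rf k p.1 p.2), μf k p.1 p.2)) n
  have hst0 : st 0 = (rep (mk 0), mk 0 / 2) := rfl
  have hsts : ∀ k, st (k + 1) = (subK (st k).1 (Jk k) (Rf k (st k).1 (st k).2),
    μf k (st k).1 (st k).2) := fun k => rfl
  have hmk0 : 0 < mk 0 := lt_of_lt_of_le Mc_pos (Mc_le_mk 0)
  have hinv : ∀ k, Inv k (st k).1 (st k).2 := by
    intro k
    induction k with
    | zero =>
      rw [hst0]
      refine ⟨adm_rep hmk0, ⟨_, _, _, le_rfl, finRange_rep hmk0.le⟩, ?_⟩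
      have e1 : ak 0 = 0 := by simp [ak]
      have e2 : bk 0 = 1 / 8 := by simp [bk, ak]
      have e3 : dk 0 = 1 := by simp [dk]
      rw [e1, e2, e3]
      exact base_NK hmk0
    | succ k ih =>
      rw [hsts]
      exact h2 k _ _ ih
  refine ⟨fun k => Rf k (st k).1 (st k).2, fun k => (st k).2, fun k => h1 k _ _ (hinv k), ?_⟩
  have hVV : ∀ k, VV (fun k => Rf k (st k).1 (st k).2) k = (st k).1 := by
    intro k
    induction k with
    | zero => rfl
    | succ k ih =>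
      rw [hsts]
      simp only [VV]
      rw [ih]
  intro k
  rw [hVV]
  exact hinv k

section
variable {R : ℕ → ℝ} (hR : ∀ k, 1 ≤ R k)

lemma kr_nonneg (R r : ℝ) : 0 ≤ kr R r := KR_nonneg _ _ _

lemma kr_le {R : ℝ} (hR : 1 ≤ R) (r : ℝ) : kr R r ≤ 1 / bv 1 := by
  have hR0 : 0 < R := by linarith
  refine (KR_le hR0 _ _).trans ?_
  have h1 := bv_one_pos
  have h2 : bv 1 ≤ bv R := by
    rw [bv_eq hR0.le]
    have : (1 : ℝ) ≤ R ^ 3 := one_le_pow₀ hR
    nlinarith
  exact div_le_div_of_nonneg_left zero_le_one h1 h2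

/-- The radial profile of the final interaction. -/
noncomputable def phi (R : ℕ → ℝ) (r : ℝ) : ℝ :=
  (if r < 1 then mk 0 else 0) - ∑' j, Jk j * kr (R j) r

noncomputable def phin (R : ℕ → ℝ) (n : ℕ) (r : ℝ) : ℝ :=
  (if r < 1 then mk 0 else 0) - ∑ j ∈ Finset.range n, Jk j * kr (R j) r

include hR in
lemma summable_kr (r : ℝ) : Summable fun j => Jk j * kr (R j) r := by
  have hg : Summable fun j : ℕ => 16384 * ((1 : ℝ) / 2) ^ j * (1 / bv 1) :=
    ((summable_geometric_of_lt_one (by norm_num) (by norm_num)).mul_left _).mul_right _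
  refine Summable.of_nonneg_of_le (fun j => mul_nonneg (Jk_pos j).le (kr_nonneg _ _))
    (fun j => ?_) hg
  exact mul_le_mul_of_nonneg_left (kr_le (hR j) r) (Jk_pos j).le

include hR in
lemma tsum_kr_le (r : ℝ) : ∑' j, Jk j * kr (R j) r ≤ 32768 * (1 / bv 1) := by
  have hgeo : Summable fun j : ℕ => ((1 : ℝ) / 2) ^ j :=
    summable_geometric_of_lt_one (by norm_num) (by norm_num)
  have hg : Summable fun j : ℕ => 16384 * ((1 : ℝ) / 2) ^ j * (1 / bv 1) :=
    (hgeo.mul_left _).mul_right _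
  calc ∑' j, Jk j * kr (R j) r ≤ ∑' j : ℕ, 16384 * ((1 : ℝ) / 2) ^ j * (1 / bv 1) :=
        (summable_kr hR r).tsum_le_tsum
          (fun j => mul_le_mul_of_nonneg_left (kr_le (hR j) r) (Jk_pos j).le) hg
    _ = 32768 * (1 / bv 1) := by
        rw [tsum_mul_right, tsum_mul_left, tsum_geometric_of_lt_one (by norm_num) (by norm_num)]
        norm_num

include hR in
lemma tendsto_phin (r : ℝ) : Tendsto (fun n => phin R n r) atTop (𝓝 (phi R r)) := by
  unfold phin phi
  exact tendsto_const_nhds.sub (summable_kr hR r).hasSum.tendsto_sum_nat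

lemma measurable_phin (R : ℕ → ℝ) (n : ℕ) : Measurable (phin R n) := by
  unfold phin
  refine Measurable.sub ?_ ?_
  · exact Measurable.ite measurableSet_Iio measurable_const measurable_const
  · exact Finset.measurable_sum _ fun j _ => (measurable_kr (R j)).const_mul _

include hR in
lemma measurable_phi : Measurable (phi R) :=
  measurable_of_tendsto_metrizable (measurable_phin R)
    (tendsto_pi_nhds.mpr fun r => tendsto_phin hR r)

lemma VV_eq (R : ℕ → ℝ) (n : ℕ) (x y : E) : VV R n x y = phin R n (dist x y) := by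
  induction n with
  | zero => simp [VV, rep, phin]
  | succ n ih =>
    simp only [VV, subK, ih, phin, Finset.sum_range_succ, KR_radial]
    ring

/-- The final interaction. -/
noncomputable def VI (R : ℕ → ℝ) (x y : E) : ℝ := phi R (dist x y)

include hR in
lemma tendsto_en {n : ℕ} (x : Fin n → E) :
    Tendsto (fun k => en (VV R k) x) atTop (𝓝 (en (VI R) x)) := by
  unfold en VI
  refine tendsto_finset_sum _ fun i _ => tendsto_finset_sum _ fun j _ => ?_
  simp only [VV_eq]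
  exact tendsto_phin hR _

lemma en_anti (R : ℕ → ℝ) {n : ℕ} (x : Fin n → E) : Antitone fun k => en (VV R k) x := by
  refine antitone_nat_of_succ_le fun k => ?_
  have h1 : en (VV R (k + 1)) x = en (VV R k) x - Jk k * en (KR (R k)) x :=
    en_subK (VV R k) (Jk k) (R k) x
  rw [h1]
  have h2 : 0 ≤ en (KR (R k)) x :=
    Finset.sum_nonneg fun _ _ => Finset.sum_nonneg fun _ _ => KR_nonneg _ _ _
  have := mul_nonneg (Jk_pos k).le h2
  linarith

include hR in
lemma en_mono {n : ℕ} (x : Fin n → E) :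
    Monotone fun k => en (VV R k) x - mk k * en (cc (1 / 2) 0) x := by
  refine monotone_nat_of_le_succ fun k => ?_
  have h1 : en (VV R (k + 1)) x = en (VV R k) x - Jk k * en (KR (R k)) x :=
    en_subK (VV R k) (Jk k) (R k) x
  rw [h1]
  have h2 := mul_le_mul_of_nonneg_left (en_KR_le64 (hR k) x) (Jk_pos k).le
  have h3 := mk_succ k
  have h4 : mk k * en (cc (1 / 2) 0) x
      = mk (k + 1) * en (cc (1 / 2) 0) x + 64 * Jk k * en (cc (1 / 2) 0) x := by
    rw [← h3]; ring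
  rw [h4]
  linarith

include hR in
lemma en_VI_le {n : ℕ} (x : Fin n → E) (k : ℕ) : en (VI R) x ≤ en (VV R k) x :=
  (en_anti R x).le_of_tendsto (tendsto_en hR x) k

lemma tendsto_mk : Tendsto mk atTop (𝓝 Mc) := by
  unfold mk
  have h : Tendsto (fun k : ℕ => ((1 : ℝ) / 2) ^ k) atTop (𝓝 0) :=
    tendsto_pow_atTop_nhds_zero_of_lt_one (by norm_num) (by norm_num)
  have := (h.const_mul (128 * 16384)).const_add Mc
  simpa using this

include hR in
lemma le_en_VI {n : ℕ} (x : Fin n → E) (k : ℕ) :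
    en (VV R k) x - (mk k - Mc) * en (cc (1 / 2) 0) x ≤ en (VI R) x := by
  have h1 := (en_mono hR x).ge_of_tendsto
    ((tendsto_en hR x).sub (tendsto_mk.mul_const (en (cc (1 / 2) 0) x))) k
  linarith

include hR in
lemma adm_VI (hinv : ∀ k, Adm (VV R k) (mk k)) : Adm (VI R) Mc where
  meas := by
    unfold VI Function.uncurry
    exact (measurable_phi hR).comp (by fun_prop : Measurable fun p : E × E => dist p.1 p.2)
  trans := by
    intro a x y
    unfold VI
    rw [dist_add_right]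
  nonpos := by
    intro x y h
    unfold VI phi
    rw [if_neg (not_lt.mpr h)]
    have : 0 ≤ ∑' j, Jk j * kr (R j) (dist x y) :=
      tsum_nonneg fun j => mul_nonneg (Jk_pos j).le (kr_nonneg _ _)
    linarith
  mpos := Mc_pos
  stab := by
    intro n x
    refine ge_of_tendsto' (tendsto_en hR x) fun k => ?_
    refine le_trans ?_ ((hinv k).stab n x)
    exact mul_le_mul_of_nonneg_right (Mc_le_mk k) (en_cc_nonneg _ _ _)

lemma Adm.mono {V : E → E → ℝ} {m m' : ℝ} (h : Adm V m) (hm : m' ≤ m) (hm' : 0 < m') :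
    Adm V m' := ⟨h.meas, h.trans, h.nonpos, hm', h.stab.mono hm⟩

lemma Pr_mono_of_en {V V' : E → E → ℝ} {m m' : ℝ} (hV : Adm V m) (hV' : Adm V' m')
    (h : ∀ (n : ℕ) (x : Fin n → E), en V' x ≤ en V x) (ν : ℝ) : Pr V ν ≤ Pr V' ν := by
  have := Pr_le_of hV hV' (μ := ν) (μ' := ν) (fun _ => 0) (c := 0)
    (by simp) ?_
  · simpa using this
  · filter_upwards [eventually_gt_atTop 0] with L hL
    rw [add_zero]
    refine hV.lg_le_of hL.le ?_
    rw [← hV'.Xi_eq ν hL.le]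
    refine Xi_mono (measurableSet_box L) fun n x _ => ?_
    have := h n x
    linarith

include hR in
/-- The full pressure is close to the truncated ones. -/
lemma Pr_VI_le (hinv : ∀ k, Adm (VV R k) (mk k)) (k : ℕ) (hk : 1 ≤ k) (ν : ℝ) :
    Pr (VI R) ν ≤ Pr (VV R k) ν + 2 * (1 / 2) ^ k * (8 * ν ^ 2 / Mc + 1) := by
  have hVI := adm_VI hR hinv
  have hVk : Adm (VV R k) Mc := (hinv k).mono (Mc_le_mk k) Mc_pos
  set τ : ℝ := 2 * (1 / 2) ^ k with hτ
  have hτ0 : 0 ≤ τ := by positivity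
  have hτ1 : τ ≤ 1 := by
    have : ((1 : ℝ) / 2) ^ k ≤ (1 / 2) ^ 1 :=
      pow_le_pow_of_le_one (by norm_num) (by norm_num) hk
    rw [hτ]
    linarith
  have hlim : Tendsto (fun L : ℝ => (τ * ((2 * L + 2) ^ 3 * ν ^ 2 / Mc + L ^ 3)) / L ^ 3) atTop
      (𝓝 (τ * (8 * ν ^ 2 / Mc + 1))) := by
    have h1 := (tendsto_cube (τ * (8 * ν ^ 2 / Mc)) 1).add (tendsto_cube τ 0)
    have h2 : τ * (8 * ν ^ 2 / Mc) + τ = τ * (8 * ν ^ 2 / Mc + 1) := by ring
    rw [h2] at h1
    refine h1.congr fun L => ?_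
    rw [← add_div]
    congr 1
    ring
  refine Pr_le_of hVI hVk (μ := ν) (μ' := ν)
    (fun L => τ * ((2 * L + 2) ^ 3 * ν ^ 2 / Mc + L ^ 3)) hlim ?_
  filter_upwards [eventually_gt_atTop 0] with L hL
  refine hVI.lg_le_of hL.le ?_
  have h1 : Xi (VI R) ν (box L) ≤ Xi (Ve (VV R k) (τ * (Mc / 2))) ν (box L) := by
    refine Xi_mono (measurableSet_box L) fun n x _ => ?_
    rw [en_Ve]
    have h2 := le_en_VI hR x k
    have h3 : mk k - Mc = τ * (Mc / 2) := by
      unfold mk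
      rw [hτ]
      unfold Mc
      ring
    rw [h3] at h2
    linarith
  refine h1.trans ?_
  exact Ve_holder hVk hτ0 hτ1 ν (measurableSet_box L) (fun _ => 0) hL
    (by intro x hx i; simpa using hx i) (hVk.lg_nonneg ν hL.le) (hVk.Xi_eq ν hL.le).le

end

end Vale.Agent.P171
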