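import Vale.Agent.P171.Final

open MeasureTheory Set Filter Topology
open scoped ENNReal BigOperators

namespace Vale.Agent.P171

lemma lintegral_KR {R : ℝ} (hR : 0 < R) : ∫⁻ x : E, ENNReal.ofReal (KR R 0 x) = 1 := by
  have hb := bv_pos hR
  set S : Set (E × E) := {p : E × E | dist p.2 0 < R ∧ dist p.2 p.1 < R} with hS
  have hSm : MeasurableSet S := by
    refine MeasurableSet.inter ?_ ?_
    · exact measurableSet_lt (f := fun p : E × E => dist p.2 0) (by fun_prop) measurable_const
    · exact measurableSet_lt (f := fun p : E × E => dist p.2 p.1) (by fun_prop) measurable_const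
  have h1 : ∫⁻ x : E, volume (Metric.ball (0 : E) R ∩ Metric.ball x R)
      = ENNReal.ofReal (bv R ^ 2) := by
    have e1 : (volume : Measure E).prod (volume : Measure E) S
        = ∫⁻ x : E, volume (Metric.ball (0 : E) R ∩ Metric.ball x R) := by
      rw [Measure.prod_apply hSm]
      rfl
    have e2 : (volume : Measure E).prod (volume : Measure E) S
        = ∫⁻ w : E, (Metric.ball (0 : E) R).indicator
          (fun _ => volume (Metric.ball (0 : E) R)) w := by
      rw [Measure.prod_apply_symm hSm]
      refine lintegral_congr fun w => ?_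
      by_cases hw : w ∈ Metric.ball (0 : E) R
      · rw [Set.indicator_of_mem hw]
        have : (fun x => (x, w)) ⁻¹' S = Metric.ball w R := by
          ext x
          simp only [hS, mem_preimage, mem_setOf_eq, Metric.mem_ball]
          have hw' : dist w 0 < R := hw
          rw [dist_comm x w]
          exact ⟨fun h => h.2, fun h => ⟨hw', h⟩⟩
        rw [this, vol_ball]
      · rw [Set.indicator_of_notMem hw]
        have : (fun x => (x, w)) ⁻¹' S = ∅ := by
          ext x
          simp only [hS, mem_preimage, mem_setOf_eq, mem_empty_iff_false, iff_false]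
          intro h
          exact hw h.1
        rw [this, measure_empty]
    rw [← e1, e2, lintegral_indicator Metric.isOpen_ball.measurableSet, setLIntegral_const]
    unfold bv
    rw [ENNReal.ofReal_pow ENNReal.toReal_nonneg, ENNReal.ofReal_toReal (vol_ball_ne_top _ _), sq]
  have h2 : ∀ x : E, ENNReal.ofReal (KR R 0 x)
      = volume (Metric.ball (0 : E) R ∩ Metric.ball x R) / ENNReal.ofReal (bv R ^ 2) := by
    intro x
    unfold KR
    rw [ENNReal.ofReal_div_of_pos (by positivity), ENNReal.ofReal_toReal]
    exact ne_top_of_le_ne_top (vol_ball_ne_top 0 R) (measure_mono inter_subset_left)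
  simp only [h2, div_eq_mul_inv]
  rw [lintegral_mul_const']
  · rw [h1]
    exact ENNReal.mul_inv_cancel (ENNReal.ofReal_pos.mpr (by positivity)).ne'
      ENNReal.ofReal_ne_top
  · exact ENNReal.inv_ne_top.mpr (ENNReal.ofReal_pos.mpr (by positivity)).ne'

lemma measurable_KR_zero (R : ℝ) : Measurable (fun x : E => KR R 0 x) := by
  have h : Measurable (fun x : E => ((0 : E), x)) := measurable_const.prodMk measurable_id
  have h2 := (measurable_KR R).comp h
  have h3 : (fun x : E => KR R 0 x) = Function.uncurry (KR R) ∘ (fun x : E => ((0 : E), x)) := by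
    funext x
    rfl
  rw [h3]
  exact h2

section
variable {R : ℕ → ℝ} (hR : ∀ k, 1 ≤ R k)

include hR in
lemma integrable_phi : Integrable (fun x : E => phi R ‖x‖) := by
  have hm : Measurable (fun x : E => phi R ‖x‖) := (measurable_phi hR).comp measurable_norm
  have hrep : Integrable (fun x : E => if ‖x‖ < 1 then mk 0 else 0) := by
    have : (fun x : E => if ‖x‖ < 1 then mk 0 else 0)
        = (Metric.ball (0 : E) 1).indicator (fun _ => mk 0) := by
      funext x
      simp [Set.indicator]
    rw [this]
    exact (integrable_indicator_iff Metric.isOpen_ball.measurableSet).mpr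
      (integrableOn_const measure_ball_lt_top.ne)
  have hts : Integrable (fun x : E => ∑' j, Jk j * kr (R j) ‖x‖) := by
    have hmt : Measurable (fun x : E => ∑' j, Jk j * kr (R j) ‖x‖) := by
      refine measurable_of_tendsto_metrizable (f := fun n (x : E) =>
        ∑ j ∈ Finset.range n, Jk j * kr (R j) ‖x‖) (fun n => ?_) (tendsto_pi_nhds.mpr fun x => ?_)
      · exact Finset.measurable_sum _ fun j _ =>
          ((measurable_kr (R j)).comp measurable_norm).const_mul _
      · exact (summable_kr hR ‖x‖).hasSum.tendsto_sum_nat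
    refine ⟨hmt.aestronglyMeasurable, ?_⟩
    rw [hasFiniteIntegral_iff_ofReal (Filter.Eventually.of_forall fun x =>
      tsum_nonneg fun j => mul_nonneg (Jk_pos j).le (kr_nonneg _ _))]
    have h1 : ∀ x : E, ENNReal.ofReal (∑' j, Jk j * kr (R j) ‖x‖)
        = ∑' j, ENNReal.ofReal (Jk j) * ENNReal.ofReal (KR (R j) 0 x) := by
      intro x
      rw [ENNReal.ofReal_tsum_of_nonneg (fun j => mul_nonneg (Jk_pos j).le (kr_nonneg _ _))
        (summable_kr hR ‖x‖)]
      refine tsum_congr fun j => ?_
      rw [ENNReal.ofReal_mul (Jk_pos j).le, KR_radial, dist_zero_left]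
    simp only [h1]
    rw [lintegral_tsum]
    · have h2 : ∀ j, ∫⁻ x : E, ENNReal.ofReal (Jk j) * ENNReal.ofReal (KR (R j) 0 x)
          = ENNReal.ofReal (Jk j) := by
        intro j
        rw [lintegral_const_mul' _ _ ENNReal.ofReal_ne_top,
          lintegral_KR (by linarith [hR j]), mul_one]
      simp only [h2]
      have hs : Summable Jk := by
        unfold Jk
        exact (summable_geometric_of_lt_one (by norm_num) (by norm_num)).mul_left _
      rw [← ENNReal.ofReal_tsum_of_nonneg (fun j => (Jk_pos j).le) hs]
      exact ENNReal.ofReal_lt_top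
    · intro j
      exact ((measurable_KR_zero (R j)).ennreal_ofReal.const_mul _).aemeasurable
  exact hrep.sub hts

end

/-- **Existence of a phase transition** for a bounded, absolutely integrable, stable, tempered,
radial pair potential. -/
theorem main_regular : ∃ φ : ℝ → ℝ, Measurable φ ∧ (∃ M : ℝ, ∀ r, |φ r| ≤ M) ∧
    Integrable (fun x : E3 => φ ‖x‖) ∧ LocBounded φ ∧ Stable φ ∧ Tempered φ ∧
    HasPhaseTransition φ := by
  obtain ⟨R, μ, hR, hinv⟩ := exists_ranges
  have hbd : ∀ r, |phi R r| ≤ mk 0 + 32768 * (1 / bv 1) := by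
    intro r
    have h1 : 0 ≤ ∑' j, Jk j * kr (R j) r :=
      tsum_nonneg fun j => mul_nonneg (Jk_pos j).le (kr_nonneg _ _)
    have h2 := tsum_kr_le hR r
    have hA : 0 < mk 0 := lt_of_lt_of_le Mc_pos (Mc_le_mk 0)
    unfold phi
    rw [abs_le]
    split_ifs
    · constructor <;> linarith
    · constructor <;> linarith
  obtain ⟨h1, h2, h3, h4, h5⟩ := main_of hR hinv
  exact ⟨phi R, h1, ⟨_, hbd⟩, integrable_phi hR, h2, h3, h4, h5⟩

end Vale.Agent.P171
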