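import Vale.Agent.P171.Gas

open MeasureTheory Set
open scoped ENNReal BigOperators

namespace Vale.Agent.P171

section Gas
variable {X : Type*} [MeasureSpace X] [SigmaFinite (volume : Measure X)]

lemma In_congr {ι κ : Type*} [Fintype ι] [Fintype κ] (e : ι ≃ κ) (V : X → X → ℝ) (μ : ℝ)
    {Λ : Set X} (_hΛ : MeasurableSet Λ) : In V μ Λ ι = In V μ Λ κ := by
  have hmp := MeasureTheory.volume_measurePreserving_piCongrLeft (fun _ : κ => X) e
  set F := MeasurableEquiv.piCongrLeft (fun _ : κ => X) e with hF
  have hFe : ∀ (x : ι → X) (i : ι), F x (e i) = x i := by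
    intro x i
    simp [hF, MeasurableEquiv.coe_piCongrLeft]
  unfold In
  rw [← hmp.setLIntegral_comp_preimage_emb F.measurableEmbedding]
  have hpre : F ⁻¹' (Set.univ.pi fun _ : κ => Λ) = Set.univ.pi fun _ : ι => Λ := by
    ext x
    simp only [mem_preimage, mem_univ_pi]
    constructor
    · intro h i
      rw [← hFe x i]
      exact h (e i)
    · intro h k
      have := h (e.symm k)
      rw [← hFe x] at this
      simpa using this
  rw [hpre]
  refine lintegral_congr fun x => ?_
  unfold wt
  congr 2
  have h1 : en V (F x) = en V x := by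
    unfold en
    rw [← Equiv.sum_comp e]
    refine Finset.sum_congr rfl fun i _ => ?_
    rw [← Equiv.sum_comp e]
    refine Finset.sum_congr rfl fun j _ => ?_
    rw [hFe, hFe]
  rw [h1, Fintype.card_congr e]

/-- The full-index integral split along a subset of the indices. -/
lemma In_split {n m : ℕ} (p : Fin n → Prop) [DecidablePred p]
    (hm : Fintype.card {i // p i} = m) (V : X → X → ℝ)
    (hV : Measurable (Function.uncurry V)) (μ : ℝ)
    {A B : Set X} (hA : MeasurableSet A) (hB : MeasurableSet B)
    (hAB : ∀ x ∈ A, ∀ y ∈ B, V x y = 0 ∧ V y x = 0) :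
    ∫⁻ x in Set.univ.pi (fun i : Fin n => if p i then A else B), wt V μ x
      = In V μ A (Fin m) * In V μ B (Fin (n - m)) := by
  classical
  have hmp := MeasureTheory.volume_preserving_piEquivPiSubtypeProd (fun _ : Fin n => X)
    p
  set F := MeasurableEquiv.piEquivPiSubtypeProd (fun _ : Fin n => X) p with hF
  have hset : Set.univ.pi (fun i : Fin n => if p i then A else B)
      = F ⁻¹' ((Set.univ.pi fun _ : {i // p i} => A) ×ˢ
          (Set.univ.pi fun _ : {i // ¬ p i} => B)) := by
    ext x
    simp only [mem_preimage, mem_prod, mem_univ_pi]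
    constructor
    · intro h
      refine ⟨fun i => ?_, fun i => ?_⟩
      · have := h i.1
        rw [if_pos i.2] at this
        exact this
      · have := h i.1
        rw [if_neg i.2] at this
        exact this
    · rintro ⟨h1, h2⟩ i
      by_cases hi : p i
      · rw [if_pos hi]; exact h1 ⟨i, hi⟩
      · rw [if_neg hi]; exact h2 ⟨i, hi⟩
  have hmeasA : MeasurableSet (Set.univ.pi fun _ : {i // p i} => A) :=
    MeasurableSet.univ_pi fun _ => hA
  have hmeasB : MeasurableSet (Set.univ.pi fun _ : {i // ¬ p i} => B) :=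
    MeasurableSet.univ_pi fun _ => hB
  have hwt : ∀ x ∈ Set.univ.pi (fun i : Fin n => if p i then A else B),
      wt V μ x = wt V μ (F x).1 * wt V μ (F x).2 := by
    intro x hx
    have hxA : ∀ i, p i → x i ∈ A := by
      intro i hi
      have := hx i (mem_univ i)
      simpa [hi] using this
    have hxB : ∀ i, ¬ p i → x i ∈ B := by
      intro i hi
      have := hx i (mem_univ i)
      simpa [hi] using this
    unfold wt
    rw [← ENNReal.ofReal_mul (Real.exp_pos _).le, ← Real.exp_add]
    congr 2
    have hcard : (Fintype.card (Fin n) : ℝ) = (Fintype.card {i // p i} : ℝ)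
        + (Fintype.card {i // ¬ p i} : ℝ) := by
      rw [← Nat.cast_add, Fintype.card_subtype_compl, add_comm,
        Nat.sub_add_cancel (Fintype.card_subtype_le _)]
    have hen : en V x = en V (F x).1 + en V (F x).2 := by
      unfold en
      have e1 : ∀ i : {i // p i}, (F x).1 i = x i.1 := fun i => rfl
      have e2 : ∀ i : {i // ¬ p i}, (F x).2 i = x i.1 := fun i => rfl
      simp only [e1, e2]
      rw [← Fintype.sum_subtype_add_sum_subtype p (fun i => ∑ j, V (x i) (x j))]
      congr 1
      · refine Finset.sum_congr rfl fun i _ => ?_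
        have hsplit := (Fintype.sum_subtype_add_sum_subtype p
          (fun j => V (x i.1) (x j))).symm
        rw [hsplit]
        have : ∑ j : {j // ¬ p j}, V (x i.1) (x j.1) = 0 := by
          refine Finset.sum_eq_zero fun j _ => ?_
          exact (hAB _ (hxA _ i.2) _ (hxB _ j.2)).1
        rw [this, add_zero]
      · refine Finset.sum_congr rfl fun i _ => ?_
        have hsplit := (Fintype.sum_subtype_add_sum_subtype p
          (fun j => V (x i.1) (x j))).symm
        rw [hsplit]
        have : ∑ j : {j // p j}, V (x i.1) (x j.1) = 0 := by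
          refine Finset.sum_eq_zero fun j _ => ?_
          exact (hAB _ (hxA _ j.2) _ (hxB _ i.2)).2
        rw [this, zero_add]
    rw [hcard, hen]
    ring
  have hmeasS : MeasurableSet (Set.univ.pi (fun i : Fin n => if p i then A else B)) := by
    refine MeasurableSet.univ_pi fun i => ?_
    split_ifs
    · exact hA
    · exact hB
  calc ∫⁻ x in Set.univ.pi (fun i : Fin n => if p i then A else B), wt V μ x
      = ∫⁻ x in Set.univ.pi (fun i : Fin n => if p i then A else B),
          wt V μ (F x).1 * wt V μ (F x).2 := setLIntegral_congr_fun hmeasS hwt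
    _ = ∫⁻ p in (Set.univ.pi fun _ : {i // p i} => A) ×ˢ
          (Set.univ.pi fun _ : {i // ¬ p i} => B), wt V μ p.1 * wt V μ p.2 := by
        rw [hset]
        exact hmp.setLIntegral_comp_preimage_emb F.measurableEmbedding
          (fun p => wt V μ p.1 * wt V μ p.2) _
    _ = In V μ A {i // p i} * In V μ B {i // ¬ p i} := by
        rw [Measure.volume_eq_prod, ← Measure.prod_restrict]
        exact lintegral_prod_mul (measurable_wt hV μ).aemeasurable (measurable_wt hV μ).aemeasurable
    _ = In V μ A (Fin m) * In V μ B (Fin (n - m)) := by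
        congr 1
        · exact In_congr (Fintype.equivFinOfCardEq hm) V μ hA
        · refine In_congr (Fintype.equivFinOfCardEq ?_) V μ hB
          rw [Fintype.card_subtype_compl, hm, Fintype.card_fin]

lemma In_union {n : ℕ} (V : X → X → ℝ)
    (hV : Measurable (Function.uncurry V)) (μ : ℝ)
    {A B : Set X} (hA : MeasurableSet A) (hB : MeasurableSet B) (hdisj : Disjoint A B)
    (hAB : ∀ x ∈ A, ∀ y ∈ B, V x y = 0 ∧ V y x = 0) :
    In V μ (A ∪ B) (Fin n)
      = ∑ m ∈ Finset.range (n + 1), (n.choose m : ℝ≥0∞) *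
          (In V μ A (Fin m) * In V μ B (Fin (n - m))) := by
  classical
  have hset : (Set.univ.pi fun _ : Fin n => A ∪ B)
      = ⋃ S ∈ (Finset.univ : Finset (Finset (Fin n))),
          Set.univ.pi (fun i : Fin n => if i ∈ S then A else B) := by
    ext x
    simp only [mem_univ_pi, mem_iUnion, Finset.mem_univ, exists_prop, true_and]
    constructor
    · intro h
      refine ⟨Finset.univ.filter fun i => x i ∈ A, fun i => ?_⟩
      by_cases hi : x i ∈ A
      · simp [hi]
      · have := (h i).resolve_left hi
        simp [hi, this]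
    · rintro ⟨S, hS⟩ i
      have := hS i
      by_cases hi : i ∈ S
      · rw [if_pos hi] at this; exact Or.inl this
      · rw [if_neg hi] at this; exact Or.inr this
  have hmeas : ∀ S : Finset (Fin n),
      MeasurableSet (Set.univ.pi (fun i : Fin n => if i ∈ S then A else B)) := by
    intro S
    refine MeasurableSet.univ_pi fun i => ?_
    split_ifs
    · exact hA
    · exact hB
  have hpd : (↑(Finset.univ : Finset (Finset (Fin n))) : Set (Finset (Fin n))).PairwiseDisjoint
      (fun S => Set.univ.pi (fun i : Fin n => if i ∈ S then A else B)) := by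
    intro S _ S' _ hne
    rw [Function.onFun, Set.disjoint_left]
    intro x hx hx'
    apply hne
    ext i
    have h1 := hx i (mem_univ i)
    have h2 := hx' i (mem_univ i)
    have hnot := Set.disjoint_left.mp hdisj
    constructor
    · intro hi
      by_contra hi'
      simp only [hi, hi', if_true, if_false] at h1 h2
      exact hnot h1 h2
    · intro hi'
      by_contra hi
      simp only [hi, hi', if_true, if_false] at h1 h2
      exact hnot h2 h1
  unfold In
  rw [hset, lintegral_biUnion_finset hpd (fun S _ => hmeas S)]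
  have : ∀ S ∈ (Finset.univ : Finset (Finset (Fin n))),
      ∫⁻ x in Set.univ.pi (fun i : Fin n => if i ∈ S then A else B), wt V μ x
        = (fun m => In V μ A (Fin m) * In V μ B (Fin (n - m))) S.card :=
    fun S _ => In_split (fun i => i ∈ S) (by rw [Fintype.card_subtype]; simp) V hV μ hA hB hAB
  rw [Finset.sum_congr rfl this]
  have h2 := Finset.sum_powerset_apply_card (x := (Finset.univ : Finset (Fin n)))
    (fun m => In V μ A (Fin m) * In V μ B (Fin (n - m)))
  rw [Finset.powerset_univ] at h2
  rw [h2]
  simp [nsmul_eq_mul, In]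

/-- Factorisation over two disjoint non interacting regions. -/
lemma Xi_union (V : X → X → ℝ)
    (hV : Measurable (Function.uncurry V)) (μ : ℝ)
    {A B : Set X} (hA : MeasurableSet A) (hB : MeasurableSet B) (hdisj : Disjoint A B)
    (hAB : ∀ x ∈ A, ∀ y ∈ B, V x y = 0 ∧ V y x = 0) :
    Xi V μ (A ∪ B) = Xi V μ A * Xi V μ B := by
  set f : ℕ → ℝ≥0∞ := fun n => ((n.factorial : ℕ) : ℝ≥0∞)⁻¹ * In V μ A (Fin n) with hf
  set g : ℕ → ℝ≥0∞ := fun n => ((n.factorial : ℕ) : ℝ≥0∞)⁻¹ * In V μ B (Fin n) with hg
  have hn : ∀ n : ℕ, ((n.factorial : ℕ) : ℝ≥0∞)⁻¹ * In V μ (A ∪ B) (Fin n)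
      = ∑ p ∈ Finset.HasAntidiagonal.antidiagonal n, f p.1 * g p.2 := by
    intro n
    rw [In_union V hV μ hA hB hdisj hAB, Finset.Nat.sum_antidiagonal_eq_sum_range_succ_mk,
      Finset.mul_sum]
    refine Finset.sum_congr rfl fun m hm => ?_
    have hmn : m ≤ n := by simpa [Nat.lt_succ_iff] using hm
    have hfac : (n.factorial : ℝ≥0∞) = (n.choose m : ℝ≥0∞) * (m.factorial : ℝ≥0∞)
        * ((n - m).factorial : ℝ≥0∞) := by
      rw [← Nat.choose_mul_factorial_mul_factorial hmn]
      push_cast
      ring
    have hc0 : (n.choose m : ℝ≥0∞) ≠ 0 := by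
      exact_mod_cast (Nat.choose_pos hmn).ne'
    have hct : (n.choose m : ℝ≥0∞) ≠ ⊤ := ENNReal.natCast_ne_top _
    simp only [hf, hg]
    rw [hfac, ENNReal.mul_inv (by right; exact ENNReal.natCast_ne_top _)
      (by right; exact_mod_cast (Nat.factorial_pos _).ne'),
      ENNReal.mul_inv (by right; exact ENNReal.natCast_ne_top _)
      (by right; exact_mod_cast (Nat.factorial_pos _).ne')]
    calc (n.choose m : ℝ≥0∞)⁻¹ * (m.factorial : ℝ≥0∞)⁻¹ * ((n - m).factorial : ℝ≥0∞)⁻¹ *
        ((n.choose m : ℝ≥0∞) * (In V μ A (Fin m) * In V μ B (Fin (n - m))))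
        = ((n.choose m : ℝ≥0∞)⁻¹ * (n.choose m : ℝ≥0∞)) * ((m.factorial : ℝ≥0∞)⁻¹ *
          In V μ A (Fin m) * (((n - m).factorial : ℝ≥0∞)⁻¹ * In V μ B (Fin (n - m)))) := by ring
      _ = _ := by rw [ENNReal.inv_mul_cancel hc0 hct, one_mul]
  calc Xi V μ (A ∪ B) = ∑' n : ℕ, ∑ p ∈ Finset.HasAntidiagonal.antidiagonal n, f p.1 * g p.2 := by
        unfold Xi
        exact tsum_congr hn
    _ = ∑' p : ℕ × ℕ, f p.1 * g p.2 := by
        rw [← (Finset.HasAntidiagonal.sigmaAntidiagonalEquivProd (A := ℕ)).tsum_eq, ENNReal.tsum_sigma']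
        refine tsum_congr fun n => ?_
        rw [tsum_fintype, ← Finset.sum_coe_sort]
        rfl
    _ = (∑' n, f n) * ∑' n, g n := by
        rw [ENNReal.tsum_prod (f := fun a b => f a * g b)]
        simp_rw [ENNReal.tsum_mul_left]
        rw [ENNReal.tsum_mul_right]
    _ = Xi V μ A * Xi V μ B := rfl

end Gas

end Vale.Agent.P171
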